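import Vale.Agent.Lib.P230.Ball.Erosion2
import Vale.Agent.Lib.P230.Ball.LeafCount
import Vale.Agent.Lib.P230.Assembly3

/-!
# P230 ball route: the lattice for a ball window.

Copy of `lattice_data` with `N = 2 n`: the family of bodies is indexed by the good heights
`∑ (u i / N)² ≤ (103/400) t`, others have `A u = ∅`; `layering_leaf` with `σ u = ε` on good heights,
`1` otherwise; `leaf_count` with `a i = u i / N`. Erosion with `e/δ ∈ [0,1/2]^t`.
-/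

set_option autoImplicit false
set_option linter.unusedSectionVars false
set_option linter.unusedSimpArgs false
set_option linter.unusedVariables false

open MeasureTheory Finset
open scoped ENNReal Matrix Pointwise

namespace Vale.Agent.Lib.P230.Ball

variable {d t : ℕ}

/-- The body at one height, the section being assumed at the dilated height only. -/
theorem body_family2 (hd : 0 < d) (K' : Set ((Fin d → ℝ) × (Fin t → ℝ))) (hK'c : Convex ℝ K')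
    (hK' : IsCompact K') (V₀ : ℝ) (hV₀ : 0 < V₀)
    (δ : ℝ) (hδ0 : 0 < δ) (hδ1 : δ ≤ 1 / 4) (cy : Fin d → ℝ) (x₀ : Fin t → ℝ)
    (hwin : ENNReal.ofReal V₀ ≤ volume {y : Fin d → ℝ | (y, (1 - 2 * δ)⁻¹ • x₀) ∈ K'}) :
    ∃ B' : Set (Fin d → ℝ), Convex ℝ B' ∧ IsCompact B' ∧
      volume B' = ENNReal.ofReal ((1 - 2 * δ) ^ d * V₀) ∧
      ∀ a ∈ B', ((1 - 2 * δ)⁻¹ • (a - (2 * δ) • cy), (1 - 2 * δ)⁻¹ • x₀) ∈ K' := by
  set κ : ℝ := 1 - 2 * δ with hκ
  have hκ0 : 0 < κ := by rw [hκ]; linarith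
  have hκ1 : 1 / 2 ≤ κ := by rw [hκ]; linarith
  set x : Fin t → ℝ := κ⁻¹ • x₀ with hx
  set B : Set (Fin d → ℝ) := {y : Fin d → ℝ | (y, x) ∈ K'} with hB
  have hBc : Convex ℝ B := by
    intro p hp q hq a b ha hb hab
    have := hK'c hp hq ha hb hab
    simp only [hB, Set.mem_setOf_eq]
    convert this using 1
    ext i
    · simp
    · simp only [Prod.smul_mk, Prod.mk_add_mk, Pi.add_apply, Pi.smul_apply, smul_eq_mul]
      rw [← add_mul, hab, one_mul]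
  have hBK : IsCompact B := by
    have hcl : IsClosed B := hK'.isClosed.preimage (continuous_id.prodMk continuous_const)
    obtain ⟨C, hC⟩ := hK'.isBounded.subset_closedBall ((0 : Fin d → ℝ), (0 : Fin t → ℝ))
    refine Metric.isCompact_of_isClosed_isBounded hcl ?_
    refine (Metric.isBounded_closedBall (x := (0 : Fin d → ℝ)) (r := C)).subset ?_
    intro y hy
    have := hC hy
    simp only [Metric.mem_closedBall, Prod.dist_eq, dist_zero_right, max_le_iff] at this ⊢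
    exact this.1
  obtain ⟨h1, h2, h3⟩ := homothety_body B hBc hBK κ hκ0 ((2 * δ) • cy)
  have hvolT : ENNReal.ofReal (κ ^ d * V₀) ≤ volume {a : Fin d → ℝ | κ⁻¹ • (a - (2 * δ) • cy) ∈ B} := by
    rw [h3, ENNReal.ofReal_mul (by positivity)]
    gcongr
  obtain ⟨B', hsub, hB'c, hB'K, hB'v⟩ := shrink_body hd _ h1 h2 (κ ^ d * V₀) (by positivity) hvolT
  refine ⟨B', hB'c, hB'K, hB'v, ?_⟩
  intro a ha
  exact hsub ha

/-- The eroding body: the section is assumed at the height `0` only. -/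
theorem eroder2 (hd : 0 < d) (K' : Set ((Fin d → ℝ) × (Fin t → ℝ))) (hK'c : Convex ℝ K')
    (hK' : IsCompact K') (V₀ : ℝ) (hV₀ : 0 < V₀)
    (hv : ENNReal.ofReal V₀ ≤ volume {y : Fin d → ℝ | (y, (0 : Fin t → ℝ)) ∈ K'})
    (δ : ℝ) (hδ0 : 0 < δ) :
    ∃ (cy : Fin d → ℝ) (C₁ C₀ : Set (Fin d → ℝ)), (cy, (0 : Fin t → ℝ)) ∈ K' ∧
      Convex ℝ C₁ ∧ IsCompact C₁ ∧ Convex ℝ C₀ ∧ IsCompact C₀ ∧
      (∀ a ∈ C₁, -a ∈ C₁) ∧
      (∀ a ∈ C₁, ∀ a' ∈ C₁, (cy + δ⁻¹ • (a + a'), (0 : Fin t → ℝ)) ∈ K') ∧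
      (∀ a ∈ C₁, ∀ a' ∈ C₁, a + a' ∈ C₀) ∧
      volume C₁ = ENNReal.ofReal ((δ / 4) ^ d * V₀) ∧
      volume C₀ = ENNReal.ofReal ((δ / 2) ^ d * V₀) ∧
      ∃ r > 0, ∀ τ : Fin d → ℝ, (∀ i, |τ i| ≤ r) → τ ∈ C₁ := by
  set B₀ : Set (Fin d → ℝ) := {y : Fin d → ℝ | (y, (0 : Fin t → ℝ)) ∈ K'} with hB₀
  have hB₀c : Convex ℝ B₀ := by
    intro p hp q hq a b ha hb hab
    have := hK'c hp hq ha hb hab
    simp only [hB₀, Set.mem_setOf_eq]
    convert this using 1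
    ext i
    · simp
    · simp
  have hB₀K : IsCompact B₀ := by
    have hcl : IsClosed B₀ := hK'.isClosed.preimage (continuous_id.prodMk continuous_const)
    obtain ⟨C, hC⟩ := hK'.isBounded.subset_closedBall ((0 : Fin d → ℝ), (0 : Fin t → ℝ))
    refine Metric.isCompact_of_isClosed_isBounded hcl ?_
    refine (Metric.isBounded_closedBall (x := (0 : Fin d → ℝ)) (r := C)).subset ?_
    intro y hy
    have := hC hy
    simp only [Metric.mem_closedBall, Prod.dist_eq, dist_zero_right, max_le_iff] at this ⊢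
    exact this.1
  obtain ⟨cy, Bs, hcy, hBsc, hBsK, hBss, hBsin, hBsv⟩ := sym_body hd B₀ hB₀c hB₀K V₀ hV₀ hv
  have hd2 : δ / 2 ≠ 0 := by positivity
  refine ⟨cy, (δ / 2) • Bs, δ • Bs, hcy, hBsc.smul _, hBsK.smul _, hBsc.smul _, hBsK.smul _, ?_, ?_, ?_,
    ?_, ?_, ?_⟩
  · rintro _ ⟨b, hb, rfl⟩
    exact ⟨-b, hBss b hb, by simp⟩
  · rintro _ ⟨b, hb, rfl⟩ _ ⟨b', hb', rfl⟩
    have hmid : (1 / 2 : ℝ) • b + (1 / 2 : ℝ) • b' ∈ Bs :=
      hBsc hb hb' (by norm_num) (by norm_num) (by norm_num)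
    have h1 := hBsin _ hmid
    have e : δ⁻¹ • ((fun x => (δ / 2) • x) b + (fun x => (δ / 2) • x) b') =
        (1 / 2 : ℝ) • b + (1 / 2 : ℝ) • b' := by
      simp only [smul_add, smul_smul]
      have : δ⁻¹ * (δ / 2) = 1 / 2 := by
        field_simp
      rw [this]
    simp only [Set.mem_setOf_eq, hB₀] at h1
    show (cy + δ⁻¹ • ((δ / 2) • b + (δ / 2) • b'), (0 : Fin t → ℝ)) ∈ K'
    have e' : δ⁻¹ • ((δ / 2) • b + (δ / 2) • b') = (1 / 2 : ℝ) • b + (1 / 2 : ℝ) • b' := e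
    rw [e']
    exact h1
  · rintro _ ⟨b, hb, rfl⟩ _ ⟨b', hb', rfl⟩
    have hmid : (1 / 2 : ℝ) • b + (1 / 2 : ℝ) • b' ∈ Bs :=
      hBsc hb hb' (by norm_num) (by norm_num) (by norm_num)
    refine ⟨_, hmid, ?_⟩
    simp only [smul_add, smul_smul]
    have : δ * (1 / 2) = δ / 2 := by ring
    rw [this]
  · rw [Measure.addHaar_smul, hBsv]
    simp only [Module.finrank_fintype_fun_eq_card, Fintype.card_fin]
    rw [← ENNReal.ofReal_mul (abs_nonneg _)]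
    congr 1
    rw [abs_of_pos (by positivity)]
    have : (δ / 4) ^ d = (δ / 2) ^ d / 2 ^ d := by
      rw [← div_pow]
      congr 1
      ring
    rw [this]
    ring
  · rw [Measure.addHaar_smul, hBsv]
    simp only [Module.finrank_fintype_fun_eq_card, Fintype.card_fin]
    rw [← ENNReal.ofReal_mul (abs_nonneg _)]
    congr 1
    rw [abs_of_pos (by positivity)]
    rw [div_pow]
    ring
  · -- a neighbourhood of zero
    have hBspos : 0 < volume Bs := by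
      rw [hBsv]
      simp only [ENNReal.ofReal_pos]
      positivity
    have hint : (interior Bs).Nonempty := by
      by_contra hne
      have h0 : volume Bs = 0 := by
        have := hBsc.addHaar_frontier volume
        rw [Set.not_nonempty_iff_eq_empty] at hne
        have h2 : Bs ⊆ frontier Bs := by
          rw [frontier, hne, Set.diff_empty]
          exact subset_closure
        exact measure_mono_null h2 this
      rw [h0] at hBspos
      exact lt_irrefl _ hBspos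
    obtain ⟨a, ha⟩ := hint
    obtain ⟨ρ, hρ, hball⟩ := Metric.isOpen_iff.mp isOpen_interior a ha
    refine ⟨(δ / 2) * (ρ / 4), by positivity, ?_⟩
    intro τ hτ
    refine ⟨(δ / 2)⁻¹ • τ, ?_, ?_⟩
    · -- midpoint of `a + 2 τ'` and `-a`
      set τ' : Fin d → ℝ := (δ / 2)⁻¹ • τ with hτ'
      have hbd : ∀ i, |τ' i| ≤ ρ / 4 := by
        intro i
        simp only [hτ', Pi.smul_apply, smul_eq_mul, abs_mul, abs_inv]
        rw [abs_of_pos (by positivity : (0 : ℝ) < δ / 2)]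
        rw [inv_mul_le_iff₀ (by positivity)]
        exact hτ i
      have h1 : a + (2 : ℝ) • τ' ∈ Bs := by
        apply interior_subset
        apply hball
        rw [Metric.mem_ball, dist_eq_norm]
        have e : a + (2 : ℝ) • τ' - a = (2 : ℝ) • τ' := by abel
        rw [e]
        refine lt_of_le_of_lt ((pi_norm_le_iff_of_nonneg (by positivity : (0 : ℝ) ≤ ρ / 2)).mpr ?_)
          (by linarith)
        intro i
        simp only [Pi.smul_apply, smul_eq_mul, Real.norm_eq_abs, abs_mul]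
        have := hbd i
        rw [abs_of_pos (by norm_num : (0 : ℝ) < 2)]
        linarith
      have h2 : -a ∈ Bs := hBss a (interior_subset ha)
      have h3 := hBsc h1 h2 (by norm_num : (0 : ℝ) ≤ 1 / 2) (by norm_num : (0 : ℝ) ≤ 1 / 2)
        (by norm_num)
      have e3 : (1 / 2 : ℝ) • (a + (2 : ℝ) • τ') + (1 / 2 : ℝ) • (-a) = τ' := by
        simp only [smul_add, smul_neg, smul_smul]
        norm_num
      rw [e3] at h3
      exact h3
    · show (δ / 2) • (δ / 2)⁻¹ • τ = τ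
      rw [smul_smul, mul_inv_cancel₀ hd2, one_smul]

/-- The good heights. -/
noncomputable def gHeights (t n : ℕ) : Finset (Fin t → ℤ) :=
  open Classical in
  (hbox t (2 * n)).filter fun u => ∑ i, ((u i : ℝ) / ((2 * n : ℕ) : ℝ)) ^ 2 ≤ (103 / 400) * (t : ℝ)

lemma mem_gHeights {t n : ℕ} (u : Fin t → ℤ) : u ∈ gHeights t n ↔
    (∀ i, -((2 * n : ℕ) : ℤ) ≤ u i ∧ u i < ((2 * n : ℕ) : ℤ)) ∧
      ∑ i, ((u i : ℝ) / ((2 * n : ℕ) : ℝ)) ^ 2 ≤ (103 / 400) * (t : ℝ) := by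
  classical
  unfold gHeights
  rw [Finset.mem_filter, mem_hbox]

/-- The number of good leaves above a height. -/
lemma leafN_le {t n : ℕ} (hn : 0 < n) (u : Fin t → ℤ) (hu : ∀ i, 0 ≤ u i ∧ u i < ((2 * n : ℕ) : ℤ)) :
    open Classical in
    leafN t ≤ ((univ : Finset (Fin t → Bool)).filter fun q =>
      u - qshift ((2 * n : ℕ) : ℤ) q ∈ gHeights t n).card := by
  classical
  have hN : (0 : ℝ) < ((2 * n : ℕ) : ℝ) := by
    have : 0 < 2 * n := by omega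
    exact_mod_cast this
  set a : Fin t → ℝ := fun i => (u i : ℝ) / ((2 * n : ℕ) : ℝ) with ha
  have ha01 : ∀ i, 0 ≤ a i ∧ a i ≤ 1 := by
    intro i
    have h0 : (0 : ℝ) ≤ u i := by exact_mod_cast (hu i).1
    have h1 : (u i : ℝ) ≤ ((2 * n : ℕ) : ℝ) := by exact_mod_cast (hu i).2.le
    refine ⟨div_nonneg h0 hN.le, ?_⟩
    simp only [ha]
    rw [div_le_one hN]
    exact h1
  have hc := leaf_count a ha01
  have hle : ((univ : Finset (Fin t → Bool)).filter fun q =>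
      ∑ i, (a i - LeafAux.bitv (q i)) ^ 2 ≤ (103 / 400) * (t : ℝ)) ⊆
      ((univ : Finset (Fin t → Bool)).filter fun q =>
        u - qshift ((2 * n : ℕ) : ℤ) q ∈ gHeights t n) := by
    intro q hq
    rw [Finset.mem_filter] at hq ⊢
    refine ⟨hq.1, ?_⟩
    rw [mem_gHeights]
    have hi : ∀ i, (((u - qshift ((2 * n : ℕ) : ℤ) q) i : ℤ) : ℝ) / ((2 * n : ℕ) : ℝ) =
        a i - LeafAux.bitv (q i) := by
      intro i
      simp only [Pi.sub_apply, qshift, ha, LeafAux.bitv]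
      by_cases hqi : q i = true
      · simp only [hqi, if_true]
        push_cast
        field_simp
      · simp only [hqi, if_false]
        push_cast
        simp
    constructor
    · intro i
      have h1 := hu i
      simp only [Pi.sub_apply, qshift]
      by_cases hqi : q i = true
      · simp only [hqi, if_true]
        omega
      · simp only [hqi, if_false]
        omega
    · simp_rw [hi]
      exact hq.2
  unfold leafN
  apply Nat.ceil_le.mpr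
  refine hc.trans ?_
  exact_mod_cast Finset.card_le_card hle

/-- The product of the void fractions along the cube. -/
lemma prod_sigma_le {t n : ℕ} (hn : 0 < n) (ε : ℝ) (hε0 : 0 < ε) (hε1 : ε ≤ 1) (u : Fin t → ℤ)
    (hu : ∀ i, 0 ≤ u i ∧ u i < ((2 * n : ℕ) : ℤ)) (σ : (Fin t → ℤ) → ℝ)
    (hσ : ∀ w, σ w = open Classical in if w ∈ gHeights t n then ε else 1) :
    ∏ q : Fin t → Bool, σ (u - qshift ((2 * n : ℕ) : ℤ) q) ≤ ε ^ leafN t := by
  classical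
  have h1 : ∏ q : Fin t → Bool, σ (u - qshift ((2 * n : ℕ) : ℤ) q) =
      ε ^ ((univ : Finset (Fin t → Bool)).filter fun q =>
        u - qshift ((2 * n : ℕ) : ℤ) q ∈ gHeights t n).card := by
    simp_rw [hσ]
    rw [Finset.prod_ite]
    simp
  rw [h1]
  exact pow_le_pow_of_le_one hε0.le hε1 (leafN_le hn u hu)

/-- Numerics of the dilation of the heights. -/
lemma aux_dil (δ : ℝ) (hδ0 : 0 < δ) (hδk : δ ≤ 1 / 1000) (s T : ℝ) (hT : 0 ≤ T) (hs0 : 0 ≤ s)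
    (hs : s ≤ (103 / 400) * T) : ((1 - 2 * δ)⁻¹) ^ 2 * s ≤ (13 / 50) * T := by
  have hκ0 : 0 < 1 - 2 * δ := by linarith
  have h3 : ((1 - 2 * δ)⁻¹) ^ 2 ≤ (1000 / 998) ^ 2 := by
    apply pow_le_pow_left₀ (by positivity)
    rw [inv_le_comm₀ hκ0 (by norm_num)]
    norm_num
    linarith
  calc ((1 - 2 * δ)⁻¹) ^ 2 * s ≤ (1000 / 998) ^ 2 * ((103 / 400) * T) :=
        mul_le_mul h3 hs hs0 (by positivity)
    _ ≤ (13 / 50) * T := by nlinarith

/-- The size of the set of differences, compared with the prime. -/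
lemma aux_Y0card (hBig : BigD d) (δ : ℝ) (hδ0 : 0 < δ) (hδ8 : δ ≤ 1 / 8) (V₀ : ℝ) (hV₀ : 0 < V₀)
    (R P c : ℕ) (hRd : (0 : ℝ) < (R : ℝ) ^ d) (hc : (c : ℝ) ≤ 2 * ((δ / 2) ^ d * V₀) * (R : ℝ) ^ d)
    (hP2 : (R : ℝ) ^ d * ((1 - 2 * δ) ^ d * V₀) ≤ 2 ^ (e0 d + 2) * (P : ℝ)) : 8 * c ≤ P := by
  have h2 := num_Y0 hBig δ hδ0 hδ8
  have h3 : 16 * ((δ / 2) ^ d * V₀ * (R : ℝ) ^ d) * 2 ^ (e0 d + 2) ≤
      (R : ℝ) ^ d * ((1 - 2 * δ) ^ d * V₀) := by
    have h4 := mul_le_mul_of_nonneg_right h2 (by positivity : 0 ≤ V₀ * (R : ℝ) ^ d)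
    nlinarith
  have h5 : 8 * (c : ℝ) ≤ P := by
    have h6 : 8 * (c : ℝ) * 2 ^ (e0 d + 2) ≤ (P : ℝ) * 2 ^ (e0 d + 2) := by
      have h7 : 8 * (c : ℝ) ≤ 16 * ((δ / 2) ^ d * V₀ * (R : ℝ) ^ d) := by
        linarith
      have h8 : (0 : ℝ) < 2 ^ (e0 d + 2) := by positivity
      nlinarith
    exact le_of_mul_le_mul_right h6 (by positivity)
  exact_mod_cast h5

/-- The size of the group is at most the scaled volume. -/
lemma aux_cardle (δ : ℝ) (hκ0 : 0 < 1 - 2 * δ) (hκ1 : 1 - 2 * δ ≤ 1) (V₀ : ℝ) (hV₀ : 0 < V₀)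
    (R P : ℕ) (hRd : (0 : ℝ) < (R : ℝ) ^ d) (hPpos : (0 : ℝ) < P)
    (hP1 : 2 ^ (e0 d + 1) * (P : ℝ) ≤ (R : ℝ) ^ d * ((1 - 2 * δ) ^ d * V₀)) :
    (P : ℝ) * 2 ^ mstar d ≤ (R : ℝ) ^ d * V₀ := by
  have he0 : e0 d = efin d + mstar d := rfl
  have h1 : (2 : ℝ) ^ mstar d ≤ 2 ^ (e0 d + 1) :=
    pow_le_pow_right₀ (by norm_num) (by rw [he0]; omega)
  have h2 : (P : ℝ) * 2 ^ mstar d ≤ (R : ℝ) ^ d * ((1 - 2 * δ) ^ d * V₀) := by
    have := mul_le_mul_of_nonneg_left h1 hPpos.le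
    linarith
  have h3 : (1 - 2 * δ) ^ d * V₀ ≤ V₀ := by
    have : (1 - 2 * δ) ^ d ≤ 1 := pow_le_one₀ hκ0.le hκ1
    nlinarith
  have h4 : (R : ℝ) ^ d * ((1 - 2 * δ) ^ d * V₀) ≤ (R : ℝ) ^ d * V₀ :=
    mul_le_mul_of_nonneg_left h3 hRd.le
  linarith

/-- The counting inequality of the covering step. -/
lemma aux_count (n : ℝ) (hn : 0 < n) (Zt e Pr Y V₀ Rd g : ℝ) (δ : ℝ) (hδ : δ / 4 = 1 / (4 * n))
    (hZt : 0 ≤ Zt) (he : 0 ≤ e) (hPr : Pr ≤ e) (hg0 : 0 ≤ g) (hV₀ : 0 < V₀) (hRd : 0 < Rd)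
    (hnum2 : Zt * e < (1 / 2) * (1 / (4 * n)) ^ d) (hg : g ≤ Rd * V₀)
    (hY : (1 / 2) * ((δ / 4) ^ d * V₀) * Rd ≤ Y) :
    Zt * Pr * g < Y := by
  have h0 : 0 ≤ Zt * e := by positivity
  have hRV : 0 < Rd * V₀ := by positivity
  have h1 := num_count _ _ _ _ _ _ hnum2 hg0 hg h0 hRV
  have h2 : Zt * Pr * g ≤ Zt * e * g :=
    mul_le_mul_of_nonneg_right (mul_le_mul_of_nonneg_left hPr hZt) hg0
  refine lt_of_le_of_lt h2 (lt_of_lt_of_le h1 ?_)
  refine le_trans (le_of_eq ?_) hY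
  rw [hδ]
  ring

/-- Small heights have a point of the body above them. -/
lemma aux_win (K' : Set ((Fin d → ℝ) × (Fin t → ℝ))) (V₀ : ℝ) (hV₀ : 0 < V₀)
    (hwin : ∀ x : Fin t → ℝ, ∑ i, x i ^ 2 ≤ (13 / 50) * (t : ℝ) →
      ENNReal.ofReal V₀ ≤ volume {y : Fin d → ℝ | (y, x) ∈ K'})
    (x : Fin t → ℝ) (hx : ∀ i, 0 ≤ x i ∧ x i ≤ 1 / 2) : ∃ y, (y, x) ∈ K' := by
  have hsm : ∑ i, x i ^ 2 ≤ (13 / 50) * (t : ℝ) := by
    have h0 : ∑ i, x i ^ 2 ≤ ∑ _i : Fin t, (1 / 4 : ℝ) := by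
      apply Finset.sum_le_sum
      intro i _
      have h1 := (hx i).1
      have h2 := (hx i).2
      nlinarith
    simp only [Finset.sum_const, Finset.card_univ, Fintype.card_fin, nsmul_eq_mul] at h0
    have ht0 : (0 : ℝ) ≤ t := Nat.cast_nonneg t
    linarith
  have h1 := hwin x hsm
  have h2 : 0 < volume {y : Fin d → ℝ | (y, x) ∈ K'} :=
    lt_of_lt_of_le (by simp only [ENNReal.ofReal_pos]; exact hV₀) h1
  obtain ⟨y, hy⟩ := nonempty_of_measure_ne_zero h2.ne'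
  exact ⟨y, hy⟩

/-- Injectivity of the hash on the small body. -/
lemma aux_inj {G : Type} [AddCommGroup G] (h : (Fin d → ℤ) →+ G) (C₁ C₀ : Set (Fin d → ℝ))
    (hC₁K : IsCompact C₁) (hC₀K : IsCompact C₀) (hsym : ∀ a ∈ C₁, -a ∈ C₁)
    (hadd : ∀ a ∈ C₁, ∀ a' ∈ C₁, a + a' ∈ C₀) (R : ℕ) (hR : 0 < R)
    (hne : ∀ y ∈ (lat C₀ R).erase 0, h y ≠ 0) :
    Set.InjOn h (lat C₁ R : Set (Fin d → ℤ)) := by
  classical
  intro a ha b hb hab
  by_contra hne'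
  have ha' := (mem_lat hC₁K.isBounded hR a).mp ha
  have hb' := (mem_lat hC₁K.isBounded hR b).mp hb
  have hsum : (fun i => ((a - b) i : ℝ) / R) ∈ C₀ := by
    have h1 := hadd _ ha' _ (hsym _ hb')
    convert h1 using 1
    ext i
    simp only [Pi.sub_apply, Int.cast_sub, Pi.add_apply, Pi.neg_apply]
    ring
  have hmem : a - b ∈ (lat C₀ R).erase 0 := by
    rw [Finset.mem_erase]
    exact ⟨sub_ne_zero.mpr hne', (mem_lat hC₀K.isBounded hR _).mpr hsum⟩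
  exact hne _ hmem (by rw [map_sub, hab, sub_self])

/-- Existence of the lattice in the window. -/
theorem lattice_data2 : ∃ d₀ : ℕ, ∀ d ≥ d₀, ∀ t n : ℕ, n = d + t → 1000 ≤ n →
    ((4 * (n : ℝ)) ^ t ≤ 2 ^ (mstar d / 16)) →
    (((4 * (n : ℝ)) ^ t) ^ (2 ^ t - 1) * ((1 / 2 : ℝ) ^ (mstar d / 4)) ^ (leafN t) <
      (1 / 2) * (1 / (4 * (n : ℝ))) ^ d) →
    ∀ K' : Set ((Fin d → ℝ) × (Fin t → ℝ)), Convex ℝ K' → IsCompact K' → ∀ V₀ : ℝ, 0 < V₀ →
    (∀ x : Fin t → ℝ, ∑ i, x i ^ 2 ≤ (13 / 50) * (t : ℝ) →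
      ENNReal.ofReal V₀ ≤ volume {y : Fin d → ℝ | (y, x) ∈ K'}) →
    ∃ (B : Matrix (Fin d ⊕ Fin t) (Fin d ⊕ Fin t) ℤ) (R : ℕ), 0 < R ∧
      (∀ x : (Fin d → ℝ) × (Fin t → ℝ), ∃ k : Fin d ⊕ Fin t → ℤ,
        (x.1 - (fun i => ((B.mulVec k (Sum.inl i) : ℤ) : ℝ) / R),
          x.2 - (fun i => ((B.mulVec k (Sum.inr i) : ℤ) : ℝ))) ∈ K') ∧
      (R : ℝ) ^ d * ((1 - 2 / (n : ℝ)) ^ d * V₀) / 2 ^ (efin d + 2) ≤ |(B.det : ℝ)| := by
  classical
  obtain ⟨d₁, hd₁⟩ := base_hash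
  obtain ⟨d₂, hd₂⟩ := bigD_eventually
  refine ⟨max d₁ d₂, fun d hd t n hn hn8 hnum1 hnum2 K' hK'c hK' V₀ hV₀ hwin => ?_⟩
  have hBig := hd₂ d (le_trans (le_max_right _ _) hd)
  have hbase := hd₁ d (le_trans (le_max_left _ _) hd)
  have hdge : 2 ≤ d := by
    have := hBig.big
    omega
  have hd0 : 0 < d := by omega
  have hn0 : 0 < n := by omega
  have hnR : (1000 : ℝ) ≤ n := by exact_mod_cast hn8
  have hnR0 : (0 : ℝ) < n := by linarith
  set δ : ℝ := 1 / (n : ℝ) with hδ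
  have hδ0 : 0 < δ := by positivity
  have hδk : δ ≤ 1 / 1000 := by
    rw [hδ]
    apply one_div_le_one_div_of_le (by norm_num) hnR
  have hδ8 : δ ≤ 1 / 8 := by linarith
  have hδ1 : δ ≤ 1 / 4 := by linarith
  have hκ : 1 - 2 * δ = 1 - 2 / (n : ℝ) := by
    rw [hδ]
    ring
  have hκ0 : 0 < 1 - 2 * δ := by linarith
  have hκ1 : 1 - 2 * δ ≤ 1 := by linarith
  have hzero : ∑ i : Fin t, ((0 : Fin t → ℝ) i) ^ 2 ≤ (13 / 50) * (t : ℝ) := by
    simp only [Pi.zero_apply]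
    simp
  obtain ⟨cy, C₁, C₀, hcy, hC₁c, hC₁K, hC₀c, hC₀K, hsym, hC, hadd, hv₁, hv₀, r, hr, hball⟩ :=
    eroder2 hd0 K' hK'c hK' V₀ hV₀ (hwin 0 hzero) δ hδ0
  -- the family of bodies
  let U : Type := ↥(gHeights t n)
  have hdil : ∀ u : U, ENNReal.ofReal V₀ ≤ volume {y : Fin d → ℝ |
      (y, (1 - 2 * δ)⁻¹ • (fun i => (u.1 i : ℝ) / ((2 * n : ℕ) : ℝ))) ∈ K'} := by
    intro u
    apply hwin
    have h1 := ((mem_gHeights u.1).mp u.2).2
    have h2 : ∑ i, (((1 - 2 * δ)⁻¹ • (fun i => (u.1 i : ℝ) / ((2 * n : ℕ) : ℝ))) i) ^ 2 =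
        ((1 - 2 * δ)⁻¹) ^ 2 * ∑ i, ((u.1 i : ℝ) / ((2 * n : ℕ) : ℝ)) ^ 2 := by
      rw [Finset.mul_sum]
      apply Finset.sum_congr rfl
      intro i _
      simp only [Pi.smul_apply, smul_eq_mul]
      ring
    rw [h2]
    have ht0 : (0 : ℝ) ≤ t := Nat.cast_nonneg t
    have h4 : 0 ≤ ∑ i, ((u.1 i : ℝ) / ((2 * n : ℕ) : ℝ)) ^ 2 :=
      Finset.sum_nonneg fun i _ => sq_nonneg _
    exact aux_dil δ hδ0 hδk _ _ ht0 h4 h1
  choose B' hB'c hB'K hB'v hB'mem using fun u : U =>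
    body_family2 hd0 K' hK'c hK' V₀ hV₀ δ hδ0 hδ1 cy (fun i => (u.1 i : ℝ) / ((2 * n : ℕ) : ℝ)) (hdil u)
  set V₁ : ℝ := (1 - 2 * δ) ^ d * V₀ with hV₁def
  have hV₁ : 0 < V₁ := by positivity
  have hB'v' : ∀ u, (volume (B' u)).toReal = V₁ := by
    intro u
    rw [hB'v u, ENNReal.toReal_ofReal hV₁.le]
  choose! W₀fun hW₀fun using hbase
  have hv₁' : (volume C₁).toReal = (δ / 4) ^ d * V₀ := by
    rw [hv₁, ENNReal.toReal_ofReal (by positivity)]
  have hv₀' : (volume C₀).toReal = (δ / 2) ^ d * V₀ := by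
    rw [hv₀, ENNReal.toReal_ofReal (by positivity)]
  obtain ⟨θ, R, W, Q, P, hθ, hR, hP, hW, hQ1, hQ2, hgood, hP1, hP2, hY1c, hY0c, hRr, hPdvd⟩ :=
    select_R hdge B' V₁ hV₁ hB'c hB'K hB'v' C₁ C₀ hC₁c hC₁K hC₀c hC₀K ((δ / 4) ^ d * V₀)
      ((δ / 2) ^ d * V₀) (by positivity) (by positivity) hv₁' hv₀' (e0 d) r hr W₀fun
  have : Fact P.Prime := ⟨hP⟩
  have hR0 : (0 : ℝ) < R := by exact_mod_cast hR
  have hRd : (0 : ℝ) < (R : ℝ) ^ d := by positivity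
  have hPpos : (0 : ℝ) < P := by exact_mod_cast hP.pos
  set Y0 : Finset (Fin d → ℤ) := (lat C₀ R).erase 0 with hY0
  have hY0dvd : ∀ y ∈ Y0, ∃ i, ¬ (P : ℤ) ∣ y i := by
    intro y hy
    rw [hY0, Finset.mem_erase] at hy
    exact hPdvd y hy.2 hy.1
  have hY0card : 8 * Y0.card ≤ P := by
    have h1 : (Y0.card : ℝ) ≤ (lat C₀ R).card := by
      exact_mod_cast Finset.card_erase_le
    exact aux_Y0card hBig δ hδ0 hδ8 V₀ hV₀ R P _ hRd (h1.trans hY0c) hP2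
  have hUcard : (Fintype.card U : ℝ) ≤ (4 * (n : ℝ)) ^ t := by
    have h1 : Fintype.card U ≤ (2 * (2 * n)) ^ t := by
      rw [Fintype.card_coe, ← card_hbox]
      exact Finset.card_filter_le _ _
    have h2 : (Fintype.card U : ℝ) ≤ (((2 * (2 * n)) ^ t : ℕ) : ℝ) := by exact_mod_cast h1
    refine h2.trans (le_of_eq ?_)
    push_cast
    ring
  obtain ⟨r', ρ, hne, hvoid⟩ := hW₀fun θ hθ U (fun u => lat (B' u) R) ((R : ℝ) ^ d * V₁) W Q P Y0
    (hUcard.trans hnum1) hW hQ1 hQ2 hgood hP1 hP2 hY0dvd hY0card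
  have hcardG : (Fintype.card (ZMod P × (Fin (mstar d) → ZMod 2)) : ℝ) = (P : ℝ) * 2 ^ mstar d := by
    simp [Fintype.card_prod, ZMod.card, Fintype.card_fun]
  have hm := hBig.m1
  set ε : ℝ := (1 / 2 : ℝ) ^ (mstar d / 4) with hε
  have hε0 : 0 < ε := by positivity
  have hε1 : ε < 1 / 2 := by
    have h1 : (1 / 2 : ℝ) ^ (mstar d / 4) ≤ (1 / 2 : ℝ) ^ 2 :=
      pow_le_pow_of_le_one (by norm_num) (by norm_num) (by omega)
    rw [hε]
    norm_num at h1 ⊢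
    linarith
  have hcardmul : ∀ (S : Finset (ZMod P × (Fin (mstar d) → ZMod 2))), ((S.card : ℝ) ≤ ε * ((P : ℝ) * 2 ^ mstar d)) →
      (S.card : ℝ) ≤ ε * (Fintype.card (ZMod P × (Fin (mstar d) → ZMod 2)) : ℝ) := by
    intro S hS
    rw [hcardG]
    exact hS
  -- the family of lattice points
  let A : (Fin t → ℤ) → Finset (Fin d → ℤ) := fun u =>
    if hu : u ∈ gHeights t n then lat (B' ⟨u, hu⟩) R else ∅
  have hAeq : ∀ u (hu : u ∈ gHeights t n), A u = lat (B' ⟨u, hu⟩) R := fun u hu => dif_pos hu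
  have hAne : ∀ u (hu : u ∉ gHeights t n), A u = ∅ := fun u hu => dif_neg hu
  have hA : ∀ u : Fin t → ℤ, (∀ i, -((2 * n : ℕ) : ℤ) ≤ u i ∧ u i < ((2 * n : ℕ) : ℤ)) → ∀ a ∈ A u,
      ((1 - 2 * δ)⁻¹ • ((fun i => (a i : ℝ) / R) - (2 * δ) • cy),
        (1 - 2 * δ)⁻¹ • (fun i => (u i : ℝ) / ((2 * n : ℕ) : ℝ))) ∈ K' := by
    intro u _ a ha
    by_cases hu' : u ∈ gHeights t n
    · rw [hAeq u hu'] at ha
      have h1 := (mem_lat (hB'K ⟨u, hu'⟩).isBounded hR a).mp ha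
      exact hB'mem ⟨u, hu'⟩ _ h1
    · rw [hAne u hu'] at ha
      simp at ha
  let σ : (Fin t → ℤ) → ℝ := fun u => if u ∈ gHeights t n then ε else 1
  have hσ : ∀ u, 0 < σ u := by
    intro u
    simp only [σ]
    split_ifs
    · exact hε0
    · exact one_pos
  have hG0 : (0 : ℝ) ≤ Fintype.card (ZMod P × (Fin (mstar d) → ZMod 2)) := Nat.cast_nonneg _
  have hvoid' : ∀ [DecidableEq (ZMod P × (Fin (mstar d) → ZMod 2))],
      ∀ u : Fin t → ℤ, (∀ i, -((2 * n : ℕ) : ℤ) ≤ u i ∧ u i < ((2 * n : ℕ) : ℤ)) →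
      (((univ \ (A u).image (hash r' ρ) : Finset (ZMod P × (Fin (mstar d) → ZMod 2)))).card : ℝ) ≤
        σ u * Fintype.card (ZMod P × (Fin (mstar d) → ZMod 2)) := by
    intro _ u _
    by_cases hu' : u ∈ gHeights t n
    · have hσu : σ u = ε := if_pos hu'
      rw [hσu]
      have h1 := hvoid ⟨u, hu'⟩
      apply hcardmul
      convert h1 using 3
      ext c
      simp only [Finset.mem_sdiff, Finset.mem_univ, true_and, Finset.mem_image, Finset.mem_filter,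
        hAeq u hu', not_exists, not_and]
    · have hσu : σ u = 1 := if_neg hu'
      rw [hσu, one_mul]
      exact_mod_cast Finset.card_le_univ _
  have hu0 : (0 : Fin t → ℤ) ∈ gHeights t n := by
    rw [mem_gHeights]
    constructor
    · intro i
      have : (0 : ℤ) < ((2 * n : ℕ) : ℤ) := by
        have : 0 < 2 * n := by omega
        exact_mod_cast this
      simp only [Pi.zero_apply]
      omega
    · simp only [Pi.zero_apply]
      simp
  have hsurj : Function.Surjective (hash r' ρ) :=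
    surj_of_large (hash r' ρ) (lat (B' ⟨0, hu0⟩) R) ε hε1 (hcardmul _ (hvoid ⟨0, hu0⟩))
  have hinj : Set.InjOn (hash r' ρ) (lat C₁ R : Set (Fin d → ℤ)) :=
    aux_inj (hash r' ρ) C₁ C₀ hC₁K hC₀K hsym hadd R hR hne
  have he0 : e0 d = efin d + mstar d := rfl
  have hcardle : (P : ℝ) * 2 ^ mstar d ≤ (R : ℝ) ^ d * V₀ :=
    aux_cardle δ hκ0 hκ1 V₀ hV₀ R P hRd hPpos hP1
  have hdel4 : δ / 4 = 1 / (4 * (n : ℝ)) := by
    rw [hδ]
    field_simp
  have hZ : (2 * (((2 * n : ℕ) : ℝ))) = 4 * (n : ℝ) := by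
    push_cast
    ring
  have hcount : ∀ u : Fin t → ℤ, (∀ i, 0 ≤ u i ∧ u i < ((2 * n : ℕ) : ℤ)) →
      ((2 * (((2 * n : ℕ) : ℝ))) ^ t) ^ (2 ^ t - 1) *
        (∏ q : Fin t → Bool, σ (u - qshift (((2 * n : ℕ) : ℤ)) q)) *
      Fintype.card (ZMod P × (Fin (mstar d) → ZMod 2)) < (lat C₁ R).card := by
    intro u hu
    rw [hcardG, hZ]
    have hprod := prod_sigma_le hn0 ε hε0 (by linarith) u hu σ (fun w => rfl)
    exact aux_count (n : ℝ) hnR0 _ _ _ _ V₀ _ _ δ hdel4 (by positivity) (by positivity) hprod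
      (by positivity) hV₀ hRd hnum2 hcardle hY1c
  have hcov := abstract_cover2 (G := ZMod P × (Fin (mstar d) → ZMod 2)) K' hK'c δ hδ0 hδ1 (2 * n)
    (by omega) (by
      rw [hδ]
      push_cast
      field_simp
      exact le_refl _) cy hcy (by
      exact aux_win K' V₀ hV₀ hwin)
    C₁ hsym hC R hR (by
      intro τ hτ
      apply hball
      intro i
      rw [abs_of_nonneg (hτ i).1]
      exact (hτ i).2.trans hRr) (hash r' ρ) hsurj A hA (lat C₁ R)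
    (fun m hm => (mem_lat hC₁K.isBounded hR m).mp hm) hinj σ hσ (@hvoid' (fun a b => Classical.propDecidable (a = b))) hcount
  obtain ⟨B, hdet, hB⟩ := hcov
  refine ⟨B, R, hR, hB, ?_⟩
  have hdet' : |(B.det : ℝ)| = (P : ℝ) * 2 ^ mstar d := by
    rw [← hcardG]
    have h1 : ((|B.det| : ℤ) : ℝ) = ((Fintype.card (ZMod P × (Fin (mstar d) → ZMod 2)) : ℤ) : ℝ) := by
      rw [hdet]
    simpa using h1
  rw [hdet', ← hκ, div_le_iff₀ (by positivity)]
  have h2 : (2 : ℝ) ^ (e0 d + 2) = 2 ^ mstar d * 2 ^ (efin d + 2) := by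
    rw [he0, ← pow_add]
    congr 1
    ring
  rw [h2] at hP2
  calc (R : ℝ) ^ d * ((1 - 2 * δ) ^ d * V₀) ≤ 2 ^ mstar d * 2 ^ (efin d + 2) * (P : ℝ) := hP2
    _ = _ := by ring

end Vale.Agent.Lib.P230.Ball
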