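import Vale.Agent.Lib.P230.Ball.Defs
import Vale.Agent.Lib.P230.ParamsLog2

/-! MODULE B8: the numerics of the ball route. `t` is the least integer with
`(169/100)^t ≥ 10^12 L²`, `L = clog 2 (4 n)`; so `N = leafN t ≥ 400000 L²`, `t ≤ 3 s + 53` with
`L ≤ 2^s`, and `(208/97)^t` is at most a constant times `(log n)^(2.92)` because
`(208/97)^50 ≤ (169/100)^73`. -/

set_option autoImplicit false

open Filter Topology

namespace Vale.Agent.Lib.P230.Ball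

namespace ParamsBallAux

open Vale.Agent.Lib.P230 Vale.Agent.Lib.P230.ParamsAux Vale.Agent.Lib.P230.ParamsAux2

lemma bigS3 (s : ℕ) (hs : 50 ≤ s) :
    8 * (664000 * (3 * s + 53) ^ 2 + 1604980 * (3 * s + 53)) ≤ 2 ^ (s - 2) := by
  induction s, hs using Nat.le_induction with
  | base => norm_num
  | succ s hs ih =>
    have h1 : s + 1 - 2 = (s - 2) + 1 := by omega
    rw [h1, pow_succ]
    have h2 : 664000 * (3 * (s + 1) + 53) ^ 2 + 1604980 * (3 * (s + 1) + 53) ≤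
        2 * (664000 * (3 * s + 53) ^ 2 + 1604980 * (3 * s + 53)) := by
      obtain ⟨k, rfl⟩ : ∃ k, s = k + 50 := ⟨s - 50, by omega⟩
      ring_nf
      omega
    calc 8 * (664000 * (3 * (s + 1) + 53) ^ 2 + 1604980 * (3 * (s + 1) + 53))
        ≤ 8 * (2 * (664000 * (3 * s + 53) ^ 2 + 1604980 * (3 * s + 53))) :=
          Nat.mul_le_mul_left _ h2
      _ = (8 * (664000 * (3 * s + 53) ^ 2 + 1604980 * (3 * s + 53))) * 2 := by ring
      _ ≤ 2 ^ (s - 2) * 2 := Nat.mul_le_mul_right _ ih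

lemma bigL2 (L : ℕ) (hL : 200 ≤ L) : 2 ^ 78 * (L ^ 3 * (3 * L + 53)) ≤ 2 ^ (L - 3) := by
  induction L, hL using Nat.le_induction with
  | base => norm_num
  | succ L hL ih =>
    have h1 : L + 1 - 3 = (L - 3) + 1 := by omega
    rw [h1, pow_succ]
    have h2 : (L + 1) ^ 3 * (3 * (L + 1) + 53) ≤ 2 * (L ^ 3 * (3 * L + 53)) := by
      obtain ⟨k, rfl⟩ : ∃ k, L = k + 200 := ⟨L - 200, by omega⟩
      ring_nf
      omega
    calc 2 ^ 78 * ((L + 1) ^ 3 * (3 * (L + 1) + 53))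
        ≤ 2 ^ 78 * (2 * (L ^ 3 * (3 * L + 53))) := Nat.mul_le_mul_left _ h2
      _ = (2 ^ 78 * (L ^ 3 * (3 * L + 53))) * 2 := by ring
      _ ≤ 2 ^ (L - 3) * 2 := Nat.mul_le_mul_right _ ih

lemma arith_ball {d L t N : ℕ} (hdbig : 192000 * (2 ^ 59 * L ^ 3 * t) ≤ d) (hclL : Nat.clog 2 d ≤ L)
    (hd : 2 ≤ d) (hL : 1 ≤ L) (ht : 1 ≤ t) (h2t : 2 ^ t ≤ 2 ^ 59 * L ^ 3)
    (hN : 400000 * L ^ 2 ≤ N) :
    L * t ≤ mstar d / 16 ∧ 1 + L * d + L * t * (2 ^ t - 1) < (mstar d / 4) * N ∧ 1 ≤ mstar d := by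
  have hcl0 : 0 < Nat.clog 2 d := Nat.clog_pos (by norm_num) hd
  have hmst : mstar d = d / (1000 * (12 * Nat.clog 2 d)) := by
    simp [mstar, Eexp]
  rw [hmst]
  generalize Nat.clog 2 d = cl at *
  generalize hc : 1000 * (12 * cl) = c
  have hc0 : 0 < c := by omega
  have hcL : c ≤ 12000 * L := by omega
  generalize hm : d / c = m
  obtain ⟨H, hH⟩ : ∃ H, H = 2 ^ 59 * L ^ 2 * t := ⟨_, rfl⟩
  have hH1 : 1 ≤ H := by
    rw [hH]
    exact Nat.mul_pos (Nat.mul_pos (by norm_num) (Nat.pow_pos hL)) ht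
  have hLt : L * t ≤ H := by
    rw [hH]
    have h1 : 1 * L ≤ 2 ^ 59 * L ^ 2 := by
      have : L ≤ L ^ 2 := by nlinarith
      calc 1 * L = L := one_mul L
        _ ≤ L ^ 2 := this
        _ ≤ 2 ^ 59 * L ^ 2 := Nat.le_mul_of_pos_left _ (by norm_num)
    calc L * t = (1 * L) * t := by ring
      _ ≤ (2 ^ 59 * L ^ 2) * t := Nat.mul_le_mul_right _ h1
  have hm16 : 16 * H ≤ m := by
    rw [← hm, Nat.le_div_iff_mul_le hc0]
    calc 16 * H * c ≤ 16 * H * (12000 * L) := Nat.mul_le_mul_left _ hcL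
      _ = 192000 * (2 ^ 59 * L ^ 3 * t) := by rw [hH]; ring
      _ ≤ d := hdbig
  have ha' : H ≤ m / 16 := by
    rw [Nat.le_div_iff_mul_le (by norm_num)]
    omega
  refine ⟨le_trans hLt ha', ?_, by omega⟩
  generalize ha : m / 16 = a at *
  have ha1 : 1 ≤ a := by omega
  have hb : 4 * a ≤ m / 4 := by omega
  generalize m / 4 = b at *
  have hm1 : m + 1 ≤ 16 * (a + 1) := by omega
  have hd3 : d < (m + 1) * c := by
    rw [← hm]
    exact (Nat.div_lt_iff_lt_mul hc0).1 (Nat.lt_succ_self _)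
  have hd4 : d < 16 * (a + 1) * (12000 * L) := by
    calc d < (m + 1) * c := hd3
      _ ≤ (16 * (a + 1)) * c := Nat.mul_le_mul_right _ hm1
      _ ≤ 16 * (a + 1) * (12000 * L) := Nat.mul_le_mul_left _ hcL
  have hd5 : d < 384000 * (a * L) := by
    have h1 : 16 * (a + 1) * (12000 * L) ≤ 384000 * (a * L) := by
      have h2 : a + 1 ≤ 2 * a := by omega
      calc 16 * (a + 1) * (12000 * L) = 192000 * ((a + 1) * L) := by ring
        _ ≤ 192000 * ((2 * a) * L) := by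
            apply Nat.mul_le_mul_left
            exact Nat.mul_le_mul_right _ h2
        _ = 384000 * (a * L) := by ring
    exact lt_of_lt_of_le hd4 h1
  have hLd : 1 + L * d ≤ 384000 * (a * L ^ 2) := by
    have h3 : L * (d + 1) ≤ L * (384000 * (a * L)) := Nat.mul_le_mul_left _ hd5
    have h4 : L * (d + 1) = L * d + L := by ring
    have h5 : L * (384000 * (a * L)) = 384000 * (a * L ^ 2) := by ring
    omega
  have hLt2 : L * t * (2 ^ t - 1) ≤ a * L ^ 2 := by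
    calc L * t * (2 ^ t - 1) ≤ L * t * (2 ^ 59 * L ^ 3) :=
          Nat.mul_le_mul_left _ (le_trans (Nat.sub_le _ _) h2t)
      _ = H * L ^ 2 := by rw [hH]; ring
      _ ≤ a * L ^ 2 := Nat.mul_le_mul_right _ ha'
  have hpos : 0 < a * L ^ 2 := Nat.mul_pos ha1 (Nat.pow_pos hL)
  have hbN : 1600000 * (a * L ^ 2) ≤ b * N := by
    calc 1600000 * (a * L ^ 2) = (4 * a) * (400000 * L ^ 2) := by ring
      _ ≤ b * N := Nat.mul_le_mul hb hN
  generalize a * L ^ 2 = X at *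
  omega

lemma C1ball {n t L a : ℕ} (h4n : 4 * n ≤ 2 ^ L) (hLt : L * t ≤ a) :
    (4 * (n : ℝ)) ^ t ≤ 2 ^ a := by
  have h2 : (4 * (n : ℝ)) ≤ 2 ^ L := by exact_mod_cast h4n
  calc (4 * (n : ℝ)) ^ t ≤ (2 ^ L) ^ t := pow_le_pow_left₀ (by positivity) h2 t
    _ = 2 ^ (L * t) := (pow_mul _ _ _).symm
    _ ≤ 2 ^ a := pow_le_pow_right₀ (by norm_num) hLt

lemma C2ball {n t d L b N : ℕ} (hn : 0 < n) (h4n : 4 * n ≤ 2 ^ L)
    (hk : 1 + L * d + L * t * (2 ^ t - 1) < b * N) :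
    ((4 * (n : ℝ)) ^ t) ^ (2 ^ t - 1) * ((1 / 2 : ℝ) ^ b) ^ N <
      (1 / 2) * (1 / (4 * (n : ℝ))) ^ d := by
  have hn0 : (0 : ℝ) < n := by exact_mod_cast hn
  obtain ⟨M, hM⟩ : ∃ M, M = 2 ^ t - 1 := ⟨_, rfl⟩
  rw [← hM] at hk ⊢
  obtain ⟨A, hA⟩ : ∃ A, A = L * t * M := ⟨_, rfl⟩
  rw [← hA] at hk
  obtain ⟨E, hE⟩ : ∃ E, b * N = A + E := ⟨b * N - A, by omega⟩
  have hEk : 1 + L * d < E := by omega
  have h2 : (4 * (n : ℝ)) ≤ 2 ^ L := by exact_mod_cast h4n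
  have h1 : ((4 * (n : ℝ)) ^ t) ^ M ≤ 2 ^ A := by
    calc ((4 * (n : ℝ)) ^ t) ^ M ≤ ((2 ^ L) ^ t) ^ M :=
          pow_le_pow_left₀ (by positivity) (pow_le_pow_left₀ (by positivity) h2 t) M
      _ = 2 ^ A := by rw [← pow_mul, ← pow_mul, hA, mul_assoc]
  have h3 : ((1 / 2 : ℝ) ^ b) ^ N = (1 / 2) ^ A * (1 / 2) ^ E := by
    rw [← pow_mul, hE, pow_add]
  have h4 : (2 : ℝ) ^ A * (1 / 2) ^ A = 1 := by
    rw [← mul_pow]
    norm_num
  have h5 : (1 / 2 : ℝ) ^ (1 + L * d) ≤ (1 / 2) * (1 / (4 * (n : ℝ))) ^ d := by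
    rw [pow_add, pow_one, pow_mul]
    apply mul_le_mul_of_nonneg_left _ (by norm_num)
    apply pow_le_pow_left₀ (by positivity)
    rw [one_div_pow]
    apply one_div_le_one_div_of_le (by positivity)
    exact_mod_cast h4n
  have h6 : (1 / 2 : ℝ) ^ E < (1 / 2) ^ (1 + L * d) :=
    pow_lt_pow_right_of_lt_one₀ (by norm_num) (by norm_num) hEk
  calc ((4 * (n : ℝ)) ^ t) ^ M * ((1 / 2 : ℝ) ^ b) ^ N
      ≤ 2 ^ A * ((1 / 2 : ℝ) ^ A * (1 / 2) ^ E) := by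
        rw [h3]
        exact mul_le_mul_of_nonneg_right h1 (by positivity)
    _ = (1 / 2 : ℝ) ^ E := by rw [← mul_assoc, h4, one_mul]
    _ < (1 / 2) ^ (1 + L * d) := h6
    _ ≤ _ := h5

/-- The third condition. -/
lemma C4ball {n t s L : ℕ} (ht1 : 1 ≤ t) (ht : t ≤ 3 * s + 53) (hs50 : 50 ≤ s) (hL3 : 3 ≤ L)
    (hn : 0 < n) (hLn : 2 ^ (L - 3) ≤ n) (hs : 2 ^ (s - 2) ≤ L - 3) :
    1600000 * (t : ℝ) * ((400 * (t : ℝ) + 3) * 1660) ^ t ≤ Real.sqrt (Real.sqrt n) := by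
  have hn0 : (0 : ℝ) < n := by exact_mod_cast hn
  have ht0 : (0 : ℝ) ≤ t := Nat.cast_nonneg t
  have hlog := log_lower hL3 hn hLn hs
  obtain ⟨y, hy⟩ : ∃ y : ℝ, y = 664000 * (t : ℝ) ^ 2 + 1604980 * (t : ℝ) := ⟨_, rfl⟩
  have hb : ((400 * (t : ℝ) + 3) * 1660) ^ t ≤ Real.exp ((400 * (t : ℝ) + 3) * 1660 * t) := by
    have h1 : (400 * (t : ℝ) + 3) * 1660 ≤ Real.exp ((400 * (t : ℝ) + 3) * 1660) := by
      have := Real.add_one_le_exp ((400 * (t : ℝ) + 3) * 1660)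
      linarith
    calc ((400 * (t : ℝ) + 3) * 1660) ^ t ≤ Real.exp ((400 * (t : ℝ) + 3) * 1660) ^ t :=
          pow_le_pow_left₀ (by positivity) h1 t
      _ = Real.exp ((400 * (t : ℝ) + 3) * 1660 * t) := by
          rw [← Real.exp_nat_mul]
          congr 1
          ring
  have hc : 1600000 * (t : ℝ) ≤ Real.exp (1600000 * (t : ℝ)) := by
    have := Real.add_one_le_exp (1600000 * (t : ℝ))
    linarith
  have hle : 1600000 * (t : ℝ) * ((400 * (t : ℝ) + 3) * 1660) ^ t ≤ Real.exp y := by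
    rw [hy]
    calc 1600000 * (t : ℝ) * ((400 * (t : ℝ) + 3) * 1660) ^ t
        ≤ Real.exp (1600000 * (t : ℝ)) * Real.exp ((400 * (t : ℝ) + 3) * 1660 * t) := by
          gcongr
      _ = Real.exp (664000 * (t : ℝ) ^ 2 + 1604980 * (t : ℝ)) := by
          rw [← Real.exp_add]
          congr 1
          ring
  refine le_trans hle ?_
  have hbig := bigS3 s hs50
  have htb : (t : ℝ) ≤ 3 * s + 53 := by exact_mod_cast ht
  have hbig' : 8 * y ≤ (2 : ℝ) ^ (s - 2) := by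
    have h1 : ((8 * (664000 * (3 * s + 53) ^ 2 + 1604980 * (3 * s + 53)) : ℕ) : ℝ) ≤
        ((2 ^ (s - 2) : ℕ) : ℝ) := by
      exact_mod_cast hbig
    push_cast at h1
    have h2 : y ≤ 664000 * (3 * (s : ℝ) + 53) ^ 2 + 1604980 * (3 * (s : ℝ) + 53) := by
      rw [hy]
      have h3 : (t : ℝ) ^ 2 ≤ (3 * (s : ℝ) + 53) ^ 2 := pow_le_pow_left₀ ht0 htb 2
      linarith
    linarith
  have hy0 : 0 ≤ y := by rw [hy]; positivity
  have h4y : 4 * y ≤ Real.log n := by nlinarith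
  apply Real.le_sqrt_of_sq_le
  apply Real.le_sqrt_of_sq_le
  rw [← pow_mul, ← Real.exp_nat_mul]
  have e : ((2 * 2 : ℕ) : ℝ) * y = 4 * y := by norm_num
  rw [e]
  calc Real.exp (4 * y) ≤ Real.exp (Real.log n) := Real.exp_le_exp.2 h4y
    _ = n := Real.exp_log hn0

/-- The constant of the last condition. -/
noncomputable def C₁ : ℝ := 10 / 9 * 16000000 * 2 ^ 29

/-- The threshold on `log n`. -/
noncomputable def Zball : ℝ := C₁ ^ 50 * ((676 / 100 * 10 ^ 12) ^ 73)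

lemma C₁_pos : 1 ≤ C₁ := by
  unfold C₁
  norm_num

lemma Zball_ge : 6 ≤ Zball := by
  unfold Zball
  have h1 : 1 ≤ C₁ ^ 50 := one_le_pow₀ C₁_pos
  have h2 : (6 : ℝ) ≤ (676 / 100 * 10 ^ 12 : ℝ) ^ 73 := by
    calc (6 : ℝ) ≤ (676 / 100 * 10 ^ 12 : ℝ) ^ 1 := by norm_num
      _ ≤ _ := pow_le_pow_right₀ (by norm_num) (by norm_num)
  nlinarith

/-- The last condition. -/
lemma C3ball {n t d L : ℕ} (hn8 : 8 ≤ n) (hdn : d ≤ n) (hnd : n ≤ 2 * d)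
    (hLn : 2 ^ (L - 3) ≤ n) (h4n : 4 * n ≤ 2 ^ L) (hL64 : 64 ≤ L) (hm1 : 1 ≤ mstar d)
    (htW : (169 / 100 : ℝ) ^ t ≤ (169 / 100) * (10 ^ 12 * (L : ℝ) ^ 2))
    (hZ : Zball ≤ Real.log n) :
    (10 / 9) * (16000000 * (208 / 97) ^ t) * ((1 - 2 / (n : ℝ))⁻¹) ^ d * 2 ^ (efin d + 2) ≤
      (n : ℝ) * (Real.log n) ^ 2 := by
  have hl2a := Real.log_two_gt_d9
  have hl2b := Real.log_two_lt_d9
  have hn0 : (0 : ℝ) < n := by
    have : 0 < n := by omega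
    exact_mod_cast this
  obtain ⟨x, hx⟩ : ∃ x, x = Real.log n := ⟨_, rfl⟩
  rw [← hx] at hZ ⊢
  have hZ6 := Zball_ge
  have hx6 : 6 ≤ x := le_trans hZ6 hZ
  have hx0 : 0 < x := by linarith
  have hx1 : 1 ≤ x := by linarith
  -- `L ≤ 2 x`
  have hLx : (L : ℝ) ≤ 2 * x := by
    have h1 : ((2 : ℝ) ^ (L - 3)) ≤ n := by exact_mod_cast hLn
    have h2 := Real.log_le_log (by positivity) h1
    rw [Real.log_pow, ← hx] at h2
    have h3 : (L : ℝ) = ((L - 3 : ℕ) : ℝ) + 3 := by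
      have : L = (L - 3) + 3 := by omega
      exact_mod_cast this
    have ha : (0 : ℝ) ≤ ((L - 3 : ℕ) : ℝ) := Nat.cast_nonneg _
    nlinarith
  have hL0 : (0 : ℝ) ≤ L := Nat.cast_nonneg L
  -- the main power bound
  have hmain : C₁ * (208 / 97) ^ t ≤ x ^ 3 := by
    have h5 : (C₁ * (208 / 97 : ℝ) ^ t) ^ 50 ≤ (x ^ 3) ^ 50 := by
      have e1 : (C₁ * (208 / 97 : ℝ) ^ t) ^ 50 = C₁ ^ 50 * ((208 / 97 : ℝ) ^ 50) ^ t := by
        rw [mul_pow, ← pow_mul, ← pow_mul, mul_comm t 50]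
      have e2 : ((208 / 97 : ℝ) ^ 50) ^ t ≤ ((169 / 100 : ℝ) ^ 73) ^ t :=
        pow_le_pow_left₀ (by positivity) (by norm_num) _
      have e3 : ((169 / 100 : ℝ) ^ 73) ^ t = ((169 / 100 : ℝ) ^ t) ^ 73 := by
        rw [← pow_mul, ← pow_mul, mul_comm]
      have e4 : (169 / 100 : ℝ) ^ t ≤ (676 / 100 * 10 ^ 12) * x ^ 2 := by
        have h6 : (L : ℝ) ^ 2 ≤ (2 * x) ^ 2 := pow_le_pow_left₀ hL0 hLx 2
        calc (169 / 100 : ℝ) ^ t ≤ (169 / 100) * (10 ^ 12 * (L : ℝ) ^ 2) := htW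
          _ ≤ (169 / 100) * (10 ^ 12 * (2 * x) ^ 2) := by gcongr
          _ = _ := by ring
      have e5 : ((169 / 100 : ℝ) ^ t) ^ 73 ≤ ((676 / 100 * 10 ^ 12) * x ^ 2) ^ 73 :=
        pow_le_pow_left₀ (by positivity) e4 73
      have e6 : Zball * x ^ 146 ≤ x * x ^ 146 :=
        mul_le_mul_of_nonneg_right hZ (by positivity)
      have e7 : x * x ^ 146 ≤ (x ^ 3) ^ 50 := by
        rw [← pow_succ', ← pow_mul]
        exact pow_le_pow_right₀ hx1 (by norm_num)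
      have hC5 : 0 ≤ C₁ ^ 50 := pow_nonneg (le_trans zero_le_one C₁_pos) _
      calc (C₁ * (208 / 97 : ℝ) ^ t) ^ 50 = C₁ ^ 50 * ((208 / 97 : ℝ) ^ 50) ^ t := e1
        _ ≤ C₁ ^ 50 * ((676 / 100 * 10 ^ 12) * x ^ 2) ^ 73 :=
            mul_le_mul_of_nonneg_left (e2.trans (e3.le.trans e5)) hC5
        _ = Zball * x ^ 146 := by
            unfold Zball
            rw [mul_pow, ← pow_mul]
            ring
        _ ≤ x * x ^ 146 := e6
        _ ≤ _ := e7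
    exact (pow_le_pow_iff_left₀ (by have := C₁_pos; positivity) (by positivity) (by norm_num)).1 h5
  -- the other factors
  have P2 := inv_pow_le n d hn8 hdn
  have heff := efin_le' d hm1
  have P3 : (2 : ℝ) ^ (efin d + 2) ≤ 2 ^ 22 * (mstar d : ℝ) := by
    have : 2 ^ (efin d + 2) ≤ 2 ^ 22 * mstar d := by
      rw [pow_add]
      calc 2 ^ efin d * 2 ^ 2 ≤ (2 ^ 20 * mstar d) * 2 ^ 2 := Nat.mul_le_mul_right _ heff
        _ = 2 ^ 22 * mstar d := by ring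
    exact_mod_cast this
  -- `log n ≤ clog d`
  have hcl : (x : ℝ) ≤ (Nat.clog 2 d : ℝ) := by
    have h1 : 2 ^ (L - 4) ≤ d := by
      have e : 2 ^ (L - 3) = 2 * 2 ^ (L - 4) := by
        rw [show L - 3 = (L - 4) + 1 by omega, pow_succ]
        ring
      omega
    have h2 : d ≤ 2 ^ Nat.clog 2 d := Nat.le_pow_clog (by norm_num) _
    have h3 : L - 4 ≤ Nat.clog 2 d :=
      (Nat.pow_le_pow_iff_right (by norm_num)).1 (h1.trans h2)
    have h4 : (L : ℝ) - 4 ≤ (Nat.clog 2 d : ℝ) := by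
      have : L ≤ Nat.clog 2 d + 4 := by omega
      have h5 : (L : ℝ) ≤ (Nat.clog 2 d : ℝ) + 4 := by exact_mod_cast this
      linarith
    have h6 : (n : ℝ) ≤ 2 ^ L := by
      have : n ≤ 2 ^ L := by omega
      exact_mod_cast this
    have h7 := Real.log_le_log hn0 h6
    rw [Real.log_pow, ← hx] at h7
    have h8 : (64 : ℝ) ≤ L := by exact_mod_cast hL64
    nlinarith
  have hmx : (mstar d : ℝ) * x ≤ n := by
    have h1 : mstar d * Nat.clog 2 d ≤ n := (mstar_mul_clog_le d).trans hdn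
    have h2 : (mstar d : ℝ) * (Nat.clog 2 d : ℝ) ≤ n := by exact_mod_cast h1
    have h3 : (mstar d : ℝ) * x ≤ (mstar d : ℝ) * (Nat.clog 2 d : ℝ) :=
      mul_le_mul_of_nonneg_left hcl (Nat.cast_nonneg _)
    linarith
  have hinv0 : 0 ≤ ((1 - 2 / (n : ℝ))⁻¹) ^ d := by
    have hx' : 2 / (n : ℝ) ≤ 1 := by
      rw [div_le_one hn0]
      have : (8 : ℝ) ≤ n := by exact_mod_cast hn8
      linarith
    exact pow_nonneg (inv_nonneg.2 (by linarith)) _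
  have hstep : (10 / 9) * (16000000 * (208 / 97) ^ t) * ((1 - 2 / (n : ℝ))⁻¹) ^ d *
      2 ^ (efin d + 2) ≤ (mstar d : ℝ) * (C₁ * (208 / 97) ^ t) := by
    calc (10 / 9) * (16000000 * (208 / 97) ^ t) * ((1 - 2 / (n : ℝ))⁻¹) ^ d * 2 ^ (efin d + 2)
        ≤ (10 / 9) * (16000000 * (208 / 97) ^ t) * 2 ^ 7 * (2 ^ 22 * (mstar d : ℝ)) := by
          apply mul_le_mul (mul_le_mul_of_nonneg_left P2 (by positivity)) P3 (by positivity)
            (by positivity)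
      _ = (mstar d : ℝ) * (C₁ * (208 / 97) ^ t) := by
          unfold C₁
          ring
  have hfin : (10 / 9) * (16000000 * (208 / 97) ^ t) * ((1 - 2 / (n : ℝ))⁻¹) ^ d *
      2 ^ (efin d + 2) * x ≤ (n : ℝ) * x ^ 2 * x := by
    calc (10 / 9) * (16000000 * (208 / 97) ^ t) * ((1 - 2 / (n : ℝ))⁻¹) ^ d *
        2 ^ (efin d + 2) * x
        ≤ ((mstar d : ℝ) * (C₁ * (208 / 97) ^ t)) * x :=
          mul_le_mul_of_nonneg_right hstep hx0.le
      _ = ((mstar d : ℝ) * x) * (C₁ * (208 / 97) ^ t) := by ring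
      _ ≤ (n : ℝ) * x ^ 3 :=
          mul_le_mul hmx hmain (by have := C₁_pos; positivity) hn0.le
      _ = (n : ℝ) * x ^ 2 * x := by ring
  exact le_of_mul_le_mul_right hfin hx0

end ParamsBallAux

open Vale.Agent.Lib.P230 Vale.Agent.Lib.P230.ParamsAux ParamsBallAux in
/-- MODULE B8: numerics. `t` least with `(169/100)^t ≥ 10^12 L²`, `L = clog 2 (4 n)`. -/
theorem params_ball (d₀ : ℕ) : ∃ n₀ : ℕ, ∀ n ≥ n₀, ∃ d t : ℕ,
    d + t = n ∧ 4 ≤ t ∧ d₀ ≤ d ∧ 1000 ≤ n ∧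
    ((4 * (n : ℝ)) ^ t ≤ 2 ^ (mstar d / 16)) ∧
    (((4 * (n : ℝ)) ^ t) ^ (2 ^ t - 1) * ((1 / 2 : ℝ) ^ (mstar d / 4)) ^ (leafN t) <
      (1 / 2) * (1 / (4 * (n : ℝ))) ^ d) ∧
    (1600000 * (t : ℝ) * ((400 * (t : ℝ) + 3) * 1660) ^ t ≤ Real.sqrt (Real.sqrt n)) ∧
    ((10 / 9) * (16000000 * (208 / 97) ^ t) * ((1 - 2 / (n : ℝ))⁻¹) ^ d * 2 ^ (efin d + 2) ≤
      (n : ℝ) * (Real.log n) ^ 2) := by
  classical
  have e1 : Tendsto (fun n : ℕ => Real.log n) atTop atTop :=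
    Real.tendsto_log_atTop.comp tendsto_natCast_atTop_atTop
  obtain ⟨a, ha⟩ := eventually_atTop.1 (e1.eventually_ge_atTop Zball)
  obtain ⟨s₁, hs₁⟩ : ∃ s₁ : ℕ, s₁ = 50 := ⟨_, rfl⟩
  have hs₁7 : 7 ≤ s₁ := by omega
  refine ⟨2 ^ (2 ^ s₁) + 2 * d₀ + a + 2 ^ 64, fun n hn => ?_⟩
  have hn1 : 2 ^ (2 ^ s₁) ≤ n := by
    generalize 2 ^ (2 ^ s₁) = A at hn ⊢
    omega
  have hn2 : 2 * d₀ ≤ n := by
    generalize 2 ^ (2 ^ s₁) = A at hn
    omega
  have hna : a ≤ n := by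
    generalize 2 ^ (2 ^ s₁) = A at hn
    omega
  have hn3 : 2 ^ 64 ≤ n := by
    generalize 2 ^ (2 ^ s₁) = A at hn
    omega
  have hn1000 : 1000 ≤ n := le_trans (by norm_num) hn3
  have hz := ha n hna
  obtain ⟨L, s, h4n, hLs, hss, hL64, hLn, hsL, hsL'⟩ := scale_facts hs₁7 hn1
  have hs50 : 50 ≤ s := by omega
  have hL200 : 200 ≤ L := by
    have h1 : 2 ^ 48 ≤ 2 ^ (s - 2) := Nat.pow_le_pow_right (by norm_num) (by omega)
    have h2 : (200 : ℕ) ≤ 2 ^ 48 := by norm_num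
    omega
  have hL1 : (1 : ℝ) ≤ L := by
    have : 1 ≤ L := by omega
    exact_mod_cast this
  -- the choice of `t`
  have hex : ∃ t : ℕ, (10 : ℝ) ^ 12 * (L : ℝ) ^ 2 ≤ (169 / 100 : ℝ) ^ t := by
    obtain ⟨t, ht⟩ := pow_unbounded_of_one_lt ((10 : ℝ) ^ 12 * (L : ℝ) ^ 2)
      (by norm_num : (1 : ℝ) < 169 / 100)
    exact ⟨t, ht.le⟩
  obtain ⟨t, ht⟩ : ∃ t, t = Nat.find hex := ⟨_, rfl⟩
  have htspec : (10 : ℝ) ^ 12 * (L : ℝ) ^ 2 ≤ (169 / 100 : ℝ) ^ t := by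
    rw [ht]
    exact Nat.find_spec hex
  have hbig12 : (10 : ℝ) ^ 12 ≤ (10 : ℝ) ^ 12 * (L : ℝ) ^ 2 := by
    have : (1 : ℝ) ≤ (L : ℝ) ^ 2 := one_le_pow₀ hL1
    nlinarith
  have ht4 : 4 ≤ t := by
    by_contra hcon
    have h3 : t ≤ 3 := by omega
    have h4 : (169 / 100 : ℝ) ^ t ≤ (169 / 100 : ℝ) ^ 3 :=
      pow_le_pow_right₀ (by norm_num) h3
    have h5 : (169 / 100 : ℝ) ^ 3 < 10 ^ 12 := by norm_num
    linarith
  -- upper bound by minimality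
  have htW : (169 / 100 : ℝ) ^ t ≤ (169 / 100) * (10 ^ 12 * (L : ℝ) ^ 2) := by
    have h1 : t - 1 < Nat.find hex := by
      rw [← ht]
      omega
    have h2 := Nat.find_min hex h1
    push Not at h2
    have e : (169 / 100 : ℝ) ^ t = (169 / 100) ^ (t - 1) * (169 / 100) := by
      rw [← pow_succ]
      congr 1
      omega
    rw [e]
    nlinarith
  -- `t ≤ 3 s + 53`
  have hts : t ≤ 3 * s + 53 := by
    rw [ht]
    apply Nat.find_min' hex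
    have h2s : (L : ℝ) ≤ 2 ^ s := by exact_mod_cast hLs
    have h1 : (L : ℝ) ^ 2 ≤ 4 ^ s := by
      calc (L : ℝ) ^ 2 ≤ (2 ^ s) ^ 2 := pow_le_pow_left₀ (by linarith) h2s 2
        _ = 4 ^ s := by
            rw [← pow_mul, mul_comm, pow_mul]
            norm_num
    have h3 : (4 : ℝ) ^ s ≤ ((169 / 100 : ℝ) ^ 3) ^ s :=
      pow_le_pow_left₀ (by norm_num) (by norm_num) s
    have h4 : (10 : ℝ) ^ 12 ≤ (169 / 100 : ℝ) ^ 53 := by norm_num
    calc (10 : ℝ) ^ 12 * (L : ℝ) ^ 2 ≤ (169 / 100 : ℝ) ^ 53 * ((169 / 100 : ℝ) ^ 3) ^ s :=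
          mul_le_mul h4 (h1.trans h3) (by positivity) (by positivity)
      _ = (169 / 100 : ℝ) ^ (3 * s + 53) := by
          rw [← pow_mul, ← pow_add, add_comm]
  have ht1 : 1 ≤ t := by omega
  have htL : t ≤ 3 * L + 53 := by omega
  -- size of `2 ^ t`
  have h2t : 2 ^ t ≤ 2 ^ 59 * L ^ 3 := by
    have h2s : 2 ^ s ≤ 4 * L := by
      have e : 2 ^ s = 4 * 2 ^ (s - 2) := by
        conv_lhs => rw [show s = (s - 2) + 2 by omega, pow_add]
        ring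
      omega
    calc 2 ^ t ≤ 2 ^ (3 * s + 53) := Nat.pow_le_pow_right (by norm_num) hts
      _ = (2 ^ s) ^ 3 * 2 ^ 53 := by rw [pow_add, ← pow_mul, mul_comm s 3]
      _ ≤ (4 * L) ^ 3 * 2 ^ 53 := Nat.mul_le_mul_right _ (Nat.pow_le_pow_left h2s 3)
      _ = 2 ^ 59 * L ^ 3 := by ring
  -- dimension
  have hbigL := bigL2 L hL200
  have hLcube : 2 ^ 78 * (L ^ 3 * t) ≤ n := by
    have h1 : L ^ 3 * t ≤ L ^ 3 * (3 * L + 53) := Nat.mul_le_mul_left _ htL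
    calc 2 ^ 78 * (L ^ 3 * t) ≤ 2 ^ 78 * (L ^ 3 * (3 * L + 53)) := Nat.mul_le_mul_left _ h1
      _ ≤ 2 ^ (L - 3) := hbigL
      _ ≤ n := hLn
  have hX : 1 ≤ L ^ 3 * t := Nat.mul_pos (Nat.pow_pos (by omega)) (by omega)
  have htX : t ≤ L ^ 3 * t := Nat.le_mul_of_pos_left _ (Nat.pow_pos (by omega))
  have ht2 : t ≤ n := by
    generalize L ^ 3 * t = X at *
    omega
  obtain ⟨d, hdt⟩ : ∃ d, d + t = n := ⟨n - t, by omega⟩
  have hnd : n ≤ 2 * d := by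
    generalize L ^ 3 * t = X at *
    omega
  have hdbig : 192000 * (2 ^ 59 * L ^ 3 * t) ≤ d := by
    have e : 192000 * (2 ^ 59 * L ^ 3 * t) = (192000 * 2 ^ 59) * (L ^ 3 * t) := by ring
    rw [e]
    generalize L ^ 3 * t = X at *
    norm_num at hLcube ⊢
    omega
  have hd1 : 2 ≤ d := by
    have h1 : 1 ≤ 2 ^ 59 * L ^ 3 * t := Nat.mul_pos (Nat.mul_pos (by norm_num) (Nat.pow_pos (by omega))) (by omega)
    omega
  have hdn : d ≤ n := by omega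
  have hclL : Nat.clog 2 d ≤ L := by
    have h5 := Nat.clog_mono_right 2 (le_trans (le_trans hdn (by omega)) h4n)
    rwa [Nat.clog_pow 2 _ (by norm_num)] at h5
  -- the number of leaves
  have hN : 400000 * L ^ 2 ≤ leafN t := by
    have h1 : (1 / 2500000 : ℝ) * (169 / 100) ^ t ≤ (leafN t : ℝ) := Nat.le_ceil _
    have h2 : ((400000 * L ^ 2 : ℕ) : ℝ) ≤ (leafN t : ℝ) := by
      push_cast
      nlinarith
    exact_mod_cast h2
  obtain ⟨hLt_a, hk, hm1⟩ := arith_ball hdbig hclL hd1 (by omega) ht1 h2t hN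
  refine ⟨d, t, hdt, ht4, by omega, hn1000, C1ball h4n hLt_a, ?_, ?_, ?_⟩
  · exact C2ball (by omega) h4n hk
  · exact C4ball ht1 hts hs50 (by omega) (by omega) hLn hsL
  · exact C3ball (by omega) hdn hnd hLn h4n hL64 hm1 htW hz

end Vale.Agent.Lib.P230.Ball
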