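import Vale.Agent.Lib.P230.Ball.WindowBall
import Vale.Agent.Lib.P230.Ball.Lattice2
import Vale.Agent.Lib.P230.Ball.ParamsBall
import Vale.Agent.Lib.P230.FineFinal

/-!
# P230 ball route: the final assembly of the bound `n (log n)^2`.
-/

set_option autoImplicit false
set_option linter.unusedSectionVars false
set_option linter.unusedSimpArgs false
set_option linter.unusedVariables false

open MeasureTheory Finset
open scoped ENNReal Matrix

namespace Vale.Agent.Lib.P230.Ball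

variable {d t : ℕ}

/-- The body in window coordinates, for a ball window. -/
theorem window_body2 (K : Set ((Fin d → ℝ) × (Fin t → ℝ))) (hc : Convex ℝ K) (hK : IsCompact K)
    (S : Matrix (Fin t) (Fin t) ℝ) (V₀ : ℝ) (hS : S.det ≠ 0)
    (hwin : ∀ x : Fin t → ℝ, ∑ i, x i ^ 2 ≤ (13 / 50) * (t : ℝ) → V₀ ≤ secVol K (S.mulVec x)) :
    ∃ K' : Set ((Fin d → ℝ) × (Fin t → ℝ)),
      Convex ℝ K' ∧ IsCompact K' ∧
      (∀ p, p ∈ K' ↔ (p.1, (0 : Fin t → ℝ) + S.mulVec p.2) ∈ K) ∧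
      (∀ x : Fin t → ℝ, ∑ i, x i ^ 2 ≤ (13 / 50) * (t : ℝ) →
        ENNReal.ofReal V₀ ≤ volume {y : Fin d → ℝ | (y, x) ∈ K'}) := by
  refine ⟨{p | (p.1, (0 : Fin t → ℝ) + S.mulVec p.2) ∈ K}, ?_, ?_, fun p => Iff.rfl, ?_⟩
  · -- convex
    intro p hp q hq a b ha hb hab
    simp only [Set.mem_setOf_eq, zero_add] at hp hq ⊢
    have := hc hp hq ha hb hab
    convert this using 1
    ext i
    · simp
    · simp [Matrix.mulVec_add, Matrix.mulVec_smul]
  · -- compact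
    have hunit : IsUnit S.det := isUnit_iff_ne_zero.mpr hS
    have himg : {p : (Fin d → ℝ) × (Fin t → ℝ) | (p.1, (0 : Fin t → ℝ) + S.mulVec p.2) ∈ K} =
        (fun p : (Fin d → ℝ) × (Fin t → ℝ) => (p.1, S⁻¹.mulVec p.2)) '' K := by
      ext p
      constructor
      · intro hp
        refine ⟨_, hp, ?_⟩
        ext i
        · rfl
        · simp only [zero_add, Matrix.mulVec_mulVec, Matrix.nonsing_inv_mul _ hunit,
            Matrix.one_mulVec]
      · rintro ⟨q, hq, rfl⟩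
        simp only [Set.mem_setOf_eq, Matrix.mulVec_mulVec, Matrix.mul_nonsing_inv _ hunit,
          Matrix.one_mulVec, zero_add]
        exact hq
    rw [himg]
    apply hK.image
    have hcont : Continuous fun v : Fin t → ℝ => S⁻¹.mulVec v := by
      exact Continuous.matrix_mulVec continuous_const continuous_id
    exact continuous_fst.prodMk (hcont.comp continuous_snd)
  · intro x hx
    have h1 := hwin x hx
    have h2 : {y : Fin d → ℝ | (y, x) ∈ {p : (Fin d → ℝ) × (Fin t → ℝ) | (p.1, (0 : Fin t → ℝ) + S.mulVec p.2) ∈ K}} =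
        {y : Fin d → ℝ | (y, S.mulVec x) ∈ K} := by
      ext y
      simp
    rw [h2]
    unfold secVol at h1
    have hfin : volume {y : Fin d → ℝ | (y, S.mulVec x) ∈ K} ≠ ⊤ := by
      have hcomp : IsCompact {y : Fin d → ℝ | (y, S.mulVec x) ∈ K} := by
        have hcl : IsClosed {y : Fin d → ℝ | (y, S.mulVec x) ∈ K} :=
          hK.isClosed.preimage (continuous_id.prodMk continuous_const)
        obtain ⟨C, hC⟩ := hK.isBounded.subset_closedBall ((0 : Fin d → ℝ), (0 : Fin t → ℝ))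
        refine Metric.isCompact_of_isClosed_isBounded hcl ?_
        refine (Metric.isBounded_closedBall (x := (0 : Fin d → ℝ)) (r := C)).subset ?_
        intro y hy
        have := hC hy
        simp only [Metric.mem_closedBall, Prod.dist_eq, dist_zero_right, max_le_iff] at this ⊢
        exact this.1
      exact hcomp.measure_lt_top.ne
    rw [ENNReal.ofReal_le_iff_le_toReal hfin]
    exact h1

/-- The covering lattice from a ball window on the section function. -/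
theorem core_window2 : ∃ d₀ : ℕ, ∀ d ≥ d₀, ∀ t n : ℕ, n = d + t → 1000 ≤ n →
    ((4 * (n : ℝ)) ^ t ≤ 2 ^ (mstar d / 16)) →
    (((4 * (n : ℝ)) ^ t) ^ (2 ^ t - 1) * ((1 / 2 : ℝ) ^ (mstar d / 4)) ^ (leafN t) <
      (1 / 2) * (1 / (4 * (n : ℝ))) ^ d) →
    ∀ K₂ : Set ((Fin d → ℝ) × (Fin t → ℝ)), Convex ℝ K₂ → IsCompact K₂ →
    ∀ (S : Matrix (Fin t) (Fin t) ℝ) (V₀ : ℝ), S.det ≠ 0 → 0 < V₀ →
    (∀ x : Fin t → ℝ, ∑ i, x i ^ 2 ≤ (13 / 50) * (t : ℝ) → V₀ ≤ secVol K₂ (S.mulVec x)) →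
      ∃ A₂ : Matrix (Fin d ⊕ Fin t) (Fin d ⊕ Fin t) ℝ, A₂.det ≠ 0 ∧
        (∀ x : (Fin d → ℝ) × (Fin t → ℝ), ∃ u ∈ K₂, ∃ m : Fin d ⊕ Fin t → ℤ,
          x = u + (fun i => A₂.mulVec (fun j => (m j : ℝ)) (Sum.inl i),
            fun i => A₂.mulVec (fun j => (m j : ℝ)) (Sum.inr i))) ∧
        V₀ * |S.det| ≤ (((1 - 2 / (n : ℝ))⁻¹) ^ d * 2 ^ (efin d + 2)) * |A₂.det| := by
  obtain ⟨d₀, hd₀⟩ := lattice_data2
  refine ⟨d₀, fun d hd t n hn hn8 hnum1 hnum2 K₂ hc hK S V₀ hS hV₀ hwin => ?_⟩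
  obtain ⟨K', hK'c, hK'K, hK'def, hwin'⟩ := window_body2 K₂ hc hK S V₀ hS hwin
  obtain ⟨B, R, hR, hcover, hdetB⟩ := hd₀ d hd t n hn hn8 hnum1 hnum2 K' hK'c hK'K V₀ hV₀ hwin'
  obtain ⟨A₂, hdetA, hcov⟩ := core_step K₂ S 0 hS K' hK'def B R hR hcover
  have hnR : (1000 : ℝ) ≤ n := by exact_mod_cast hn8
  have hκ0 : 0 < 1 - 2 / (n : ℝ) := by
    have : 2 / (n : ℝ) ≤ 2 / 1000 := by
      apply div_le_div_of_nonneg_left (by norm_num) (by norm_num) hnR
    linarith
  have hR0 : (0 : ℝ) < R := by exact_mod_cast hR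
  have hRd : (0 : ℝ) < (R : ℝ) ^ d := by positivity
  have hκd : 0 < (1 - 2 / (n : ℝ)) ^ d := by positivity
  have hE : (0 : ℝ) < 2 ^ (efin d + 2) := by positivity
  have hSpos : 0 < |S.det| := abs_pos.mpr hS
  have hV := num_final_w _ _ V₀ _ _ hRd hκd hE hdetB
  have hbpos : 0 < |(B.det : ℝ)| := by
    refine lt_of_lt_of_le ?_ hdetB
    positivity
  refine ⟨A₂, ?_, hcov, ?_⟩
  · have : 0 < |A₂.det| := by
      rw [hdetA]
      positivity
    exact abs_pos.mp this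
  · rw [hdetA, inv_pow]
    calc V₀ * |S.det|
        ≤ (((1 - 2 / (n : ℝ)) ^ d)⁻¹ * 2 ^ (efin d + 2) *
            (((R : ℝ) ^ d)⁻¹ * |(B.det : ℝ)|)) * |S.det| :=
          mul_le_mul_of_nonneg_right hV hSpos.le
      _ = _ := by ring

/-- The main theorem: for all large `n`, every convex body has lattice covering density at most
`n (log n)^2`. -/
theorem ball_main : ∃ n₀ : ℕ, ∀ n ≥ n₀, ∀ K : Set (Fin n → ℝ),
    Convex ℝ K → IsCompact K → (interior K).Nonempty →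
    ∃ A : Matrix (Fin n) (Fin n) ℝ, A.det ≠ 0 ∧
      (∀ x : Fin n → ℝ, ∃ u ∈ K, ∃ m : Fin n → ℤ, x = u + A.mulVec (fun i => (m i : ℝ))) ∧
      (volume K).toReal ≤ (n : ℝ) * (Real.log n) ^ 2 * |A.det| := by
  obtain ⟨d₀, hcw⟩ := core_window2
  obtain ⟨n₀, hp⟩ := params_ball d₀
  refine ⟨n₀, fun n hn K hc hK hi => ?_⟩
  obtain ⟨d, t, rfl, ht, hd, h8, h1, h2, hgrid, hfinal⟩ := hp n hn
  obtain ⟨L, K₀, hL, hK₀c, hK₀K, hsub, hK₀pos, hvle, hrad, hiso, hmean⟩ :=
    truncated_position (by omega) K hc hK hi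
  obtain ⟨E, V₀, hE, hV₀, hwin, hVle⟩ :=
    window_ball ht K₀ hK₀c hK₀K hK₀pos hrad hiso hmean hgrid
  set Kst : Set (Fin (d + t) → ℝ) := E.mulVec '' K₀ with hKst
  set K₂ : Set ((Fin d → ℝ) × (Fin t → ℝ)) := splitMap d t '' Kst with hK₂
  have hKstc : Convex ℝ Kst := hK₀c.is_linear_image (mulVec_isLinear E)
  have hKstK : IsCompact Kst := hK₀K.image (mulVec_continuous E)
  have hK₂c : Convex ℝ K₂ := hKstc.is_linear_image splitMap_isLinear
  have hK₂K : IsCompact K₂ := hKstK.image splitMap_continuous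
  -- the window matrix
  set S : Matrix (Fin t) (Fin t) ℝ := (97 / 50 : ℝ) • (1 : Matrix (Fin t) (Fin t) ℝ) with hS
  have hSdet : S.det = (97 / 50 : ℝ) ^ t := by
    rw [hS, Matrix.det_smul, Matrix.det_one, mul_one, Fintype.card_fin]
  have hSne : S.det ≠ 0 := by
    rw [hSdet]
    positivity
  have hSmul : ∀ x : Fin t → ℝ, S.mulVec x = (97 / 50 : ℝ) • x := by
    intro x
    rw [hS, Matrix.smul_mulVec, Matrix.one_mulVec]
  have hwin' : ∀ x : Fin t → ℝ, ∑ i, x i ^ 2 ≤ (13 / 50) * (t : ℝ) → V₀ ≤ secVol K₂ (S.mulVec x) := by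
    intro x hx
    apply hwin
    rw [hSmul]
    have ht0 : (0 : ℝ) ≤ t := Nat.cast_nonneg t
    have e : ∑ i, ((97 / 50 : ℝ) • x) i ^ 2 = (97 / 50 : ℝ) ^ 2 * ∑ i, x i ^ 2 := by
      rw [Finset.mul_sum]
      apply Finset.sum_congr rfl
      intro i _
      simp only [Pi.smul_apply, smul_eq_mul]
      ring
    rw [e]
    nlinarith
  obtain ⟨A₂, hA₂, hcov, hbound⟩ := hcw d hd t (d + t) rfl h8 h1 h2 K₂ hK₂c hK₂K S V₀ hSne hV₀ hwin'
  set κ : ℝ := ((1 - 2 / ((d + t : ℕ) : ℝ))⁻¹) ^ d * 2 ^ (efin d + 2) with hκ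
  have hle : (volume K₂).toReal ≤ (16000000 * (208 / 97) ^ t * κ) * |A₂.det| := by
    refine hVle.trans ?_
    rw [abs_of_pos (by rw [hSdet]; positivity : 0 < S.det), hSdet] at hbound
    have h5 : (416 / 100 : ℝ) ^ t = (208 / 97 : ℝ) ^ t * (97 / 50 : ℝ) ^ t := by
      rw [← mul_pow]
      norm_num
    calc 16000000 * (416 / 100 : ℝ) ^ t * V₀ = 16000000 * (208 / 97 : ℝ) ^ t * (V₀ * (97 / 50 : ℝ) ^ t) := by
          rw [h5]
          ring
      _ ≤ 16000000 * (208 / 97 : ℝ) ^ t * (κ * |A₂.det|) := by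
          gcongr
      _ = _ := by ring
  obtain ⟨A', hA', hcov', hvolst⟩ := wrap_at (16000000 * (208 / 97) ^ t * κ) Kst K₂ rfl A₂ hA₂ hcov hle
  -- back to `K`
  set M : Matrix (Fin (d + t)) (Fin (d + t)) ℝ := E * L with hM
  have hMdet : M.det ≠ 0 := by
    rw [hM, Matrix.det_mul]
    exact mul_ne_zero hE hL
  have hMunit : IsUnit M.det := isUnit_iff_ne_zero.mpr hMdet
  refine ⟨M⁻¹ * A', ?_, ?_, ?_⟩
  · rw [Matrix.det_mul, Matrix.det_nonsing_inv, Ring.inverse_eq_inv']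
    exact mul_ne_zero (inv_ne_zero hMdet) hA'
  · intro x
    obtain ⟨u, hu, m, hx⟩ := hcov' (M.mulVec x)
    obtain ⟨w, hw, rfl⟩ := hu
    obtain ⟨v, hv, rfl⟩ := hsub hw
    refine ⟨v, hv, m, ?_⟩
    have e1 : E.mulVec (L.mulVec v) = M.mulVec v := by
      rw [hM, Matrix.mulVec_mulVec]
    rw [e1] at hx
    have e2 : x = M⁻¹.mulVec (M.mulVec x) := by
      rw [Matrix.mulVec_mulVec, Matrix.nonsing_inv_mul _ hMunit, Matrix.one_mulVec]
    rw [e2, hx, Matrix.mulVec_add, Matrix.mulVec_mulVec, Matrix.nonsing_inv_mul _ hMunit,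
      Matrix.one_mulVec, Matrix.mulVec_mulVec]
  · have hdetE : 0 < |E.det| := abs_pos.mpr hE
    have hdetL : 0 < |L.det| := abs_pos.mpr hL
    have hdetM : |M.det| = |E.det| * |L.det| := by
      rw [hM, Matrix.det_mul, abs_mul]
    have hA : |(M⁻¹ * A').det| = |A'.det| / (|E.det| * |L.det|) := by
      rw [Matrix.det_mul, Matrix.det_nonsing_inv, Ring.inverse_eq_inv', abs_mul, abs_inv, hdetM]
      field_simp
    have hvolst' : (volume Kst).toReal = |E.det| * (volume K₀).toReal := by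
      rw [hKst, vol_image_mulVec, ENNReal.toReal_mul, ENNReal.toReal_ofReal (abs_nonneg _)]
    have hfinal' : (10 / 9) * (16000000 * (208 / 97) ^ t * κ) ≤
        ((d + t : ℕ) : ℝ) * (Real.log ((d + t : ℕ) : ℝ)) ^ 2 := by
      calc (10 / 9) * (16000000 * (208 / 97) ^ t * κ) =
          (10 / 9) * (16000000 * (208 / 97) ^ t) * ((1 - 2 / ((d + t : ℕ) : ℝ))⁻¹) ^ d * 2 ^ (efin d + 2) := by
            rw [hκ]
            ring
        _ ≤ _ := hfinal
    rw [hA]
    have hAprime : 0 ≤ |A'.det| := abs_nonneg _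
    have hkey : (volume K).toReal * (|E.det| * |L.det|) ≤ (10 / 9) * (16000000 * (208 / 97) ^ t * κ) * |A'.det| := by
      calc (volume K).toReal * (|E.det| * |L.det|) = |E.det| * (|L.det| * (volume K).toReal) := by ring
        _ ≤ |E.det| * ((10 / 9) * (volume K₀).toReal) := mul_le_mul_of_nonneg_left hvle hdetE.le
        _ = (10 / 9) * (|E.det| * (volume K₀).toReal) := by ring
        _ = (10 / 9) * (volume Kst).toReal := by rw [hvolst']
        _ ≤ (10 / 9) * ((16000000 * (208 / 97) ^ t * κ) * |A'.det|) :=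
            mul_le_mul_of_nonneg_left hvolst (by norm_num)
        _ = _ := by ring
    have hpos : 0 < |E.det| * |L.det| := mul_pos hdetE hdetL
    calc (volume K).toReal ≤ ((10 / 9) * (16000000 * (208 / 97) ^ t * κ) * |A'.det|) / (|E.det| * |L.det|) := by
          rwa [le_div_iff₀ hpos]
      _ = (10 / 9) * (16000000 * (208 / 97) ^ t * κ) * (|A'.det| / (|E.det| * |L.det|)) := by ring
      _ ≤ _ := by
          apply mul_le_mul_of_nonneg_right hfinal' (by positivity)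

end Vale.Agent.Lib.P230.Ball
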