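import Vale.Agent.Lib.P230.Ball.Defs

/-!
# P230 ball route, module B3: a log-concave function which is at least `V₀` on a finite set with
large support function in every direction is at least `V₀` on a ball.
-/

set_option autoImplicit false

open MeasureTheory Finset
open scoped ENNReal Matrix

namespace Vale.Agent.Lib.P230.Ball

variable {t : ℕ}

/-- The level sets of a nonnegative log-concave function are convex. -/
lemma convex_level_set {A : (Fin t → ℝ) → ℝ} (hl : LogConc A) {V₀ : ℝ} (hV₀ : 0 < V₀) :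
    Convex ℝ {z | V₀ ≤ A z} := by
  intro a ha b hb p q hp hq hpq
  have ha' : V₀ ≤ A a := ha
  have hb' : V₀ ≤ A b := hb
  show V₀ ≤ A (p • a + q • b)
  rcases hp.eq_or_lt with h | hp'
  · have hq1 : q = 1 := by linarith
    rw [← h, hq1, zero_smul, one_smul, zero_add]
    exact hb'
  rcases hq.eq_or_lt with h | hq'
  · have hp1 : p = 1 := by linarith
    rw [← h, hp1, zero_smul, one_smul, add_zero]
    exact ha'
  have hp1 : p = 1 - q := by linarith
  have h := hl a b q hq' (by linarith)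
  rw [← hp1] at h
  refine le_trans ?_ h
  have h1 : V₀ ^ p ≤ A a ^ p := Real.rpow_le_rpow hV₀.le ha' hp
  have h2 : V₀ ^ q ≤ A b ^ q := Real.rpow_le_rpow hV₀.le hb' hq
  have h3 : V₀ = V₀ ^ p * V₀ ^ q := by
    rw [← Real.rpow_add hV₀, hpq, Real.rpow_one]
  calc V₀ = V₀ ^ p * V₀ ^ q := h3
    _ ≤ A a ^ p * A b ^ q := mul_le_mul h1 h2 (Real.rpow_nonneg hV₀.le _)
        (Real.rpow_nonneg (hV₀.le.trans ha') _)

/-- MODULE B3: a log-concave function `≥ V₀` on a finite set `U` with support function `≥ ρ` in every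
direction is `≥ V₀` on the ball of radius `ρ` (finite hull is compact, Hahn-Banach). -/
theorem ball_of_points (ht : 1 ≤ t) (A : (Fin t → ℝ) → ℝ) (hl : LogConc A) (h0 : ∀ z, 0 ≤ A z) (V₀ : ℝ)
    (hV₀ : 0 < V₀) (U : Finset (Fin t → ℝ)) (hU : ∀ u ∈ U, V₀ ≤ A u) (ρ : ℝ) (hρ : 0 ≤ ρ)
    (hdir : ∀ b : Fin t → ℝ, ∑ i, b i ^ 2 = 1 → ∃ u ∈ U, ρ ≤ ∑ i, u i * b i) :
    ∀ v : Fin t → ℝ, ∑ i, v i ^ 2 ≤ ρ ^ 2 → V₀ ≤ A v := by
  classical
  intro v hv
  -- `v` is in the convex hull of `U`
  have hclosed : IsClosed (convexHull ℝ (U : Set (Fin t → ℝ))) :=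
    (U.finite_toSet.isCompact_convexHull (𝕜 := ℝ)).isClosed
  have hmem : v ∈ convexHull ℝ (U : Set (Fin t → ℝ)) := by
    by_contra hnot
    obtain ⟨f, u, h1, h2⟩ := geometric_hahn_banach_closed_point (convex_convexHull ℝ _) hclosed hnot
    set b : Fin t → ℝ := fun i => f fun j => if i = j then 1 else 0 with hb
    have hf : ∀ x : Fin t → ℝ, f x = ∑ i, x i * b i := by
      intro x
      have := LinearMap.pi_apply_eq_sum_univ (f : (Fin t → ℝ) →ₗ[ℝ] ℝ) x
      simpa [hb, smul_eq_mul] using this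
    -- a point of `U`
    have i0 : Fin t := ⟨0, ht⟩
    obtain ⟨u₀, hu₀, -⟩ := hdir (fun j => if i0 = j then 1 else 0) (by simp)
    have h3 := h1 u₀ (subset_convexHull ℝ _ hu₀)
    -- `b` is nonzero
    have hNpos : 0 < ∑ i, b i ^ 2 := by
      have hne : b ≠ 0 := by
        intro h
        have e1 : ∀ x, f x = 0 := fun x => by
          rw [hf x]
          simp [h]
        rw [e1] at h3 h2
        linarith
      obtain ⟨i, hi⟩ := Function.ne_iff.1 hne
      have : 0 < b i ^ 2 := by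
        have : b i ≠ 0 := hi
        positivity
      exact lt_of_lt_of_le this (Finset.single_le_sum (f := fun i => b i ^ 2)
        (fun _ _ => sq_nonneg _) (Finset.mem_univ i))
    set N : ℝ := Real.sqrt (∑ i, b i ^ 2) with hN
    have hNp : 0 < N := Real.sqrt_pos.2 hNpos
    have hN2 : N ^ 2 = ∑ i, b i ^ 2 := Real.sq_sqrt hNpos.le
    obtain ⟨w, hw, hwρ⟩ := hdir (fun i => b i / N) (by
      have : ∑ i, (b i / N) ^ 2 = (∑ i, b i ^ 2) / N ^ 2 := by
        rw [Finset.sum_div]
        exact Finset.sum_congr rfl fun i _ => div_pow _ _ _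
      rw [this, hN2]
      exact div_self hNpos.ne')
    have h4 := h1 w (subset_convexHull ℝ _ hw)
    have h5 : ∑ i, w i * (b i / N) = (∑ i, w i * b i) / N := by
      rw [Finset.sum_div]
      exact Finset.sum_congr rfl fun i _ => by ring
    rw [h5, le_div_iff₀ hNp] at hwρ
    rw [hf w] at h4
    rw [hf v] at h2
    -- Cauchy-Schwarz
    have hcs := Finset.sum_mul_sq_le_sq_mul_sq Finset.univ v b
    have h6 : (∑ i, v i * b i) ^ 2 ≤ (ρ * N) ^ 2 := by
      rw [mul_pow, hN2]
      exact hcs.trans (mul_le_mul_of_nonneg_right hv hNpos.le)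
    have h7 : ∑ i, v i * b i ≤ ρ * N := abs_le_of_sq_le_sq' h6 (by positivity) |>.2
    linarith
  exact convexHull_min (fun u hu => hU u hu) (convex_level_set hl hV₀) hmem

end Vale.Agent.Lib.P230.Ball
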