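import Vale.Agent.Lib.P230.Ball.GaussCos

/-!
# P230: the second moment of the cosine functional of a Gaussian frame.
-/

set_option autoImplicit false

open MeasureTheory Finset ProbabilityTheory
open scoped ENNReal Matrix NNReal

namespace Vale.Agent.Lib.P230

namespace BallFrame

open Gframe

variable {n t : ℕ}

/-- The cosine functional of the frame. -/
noncomputable def Fw (P : Measure (Fin n → ℝ)) (w : Fin t → ℝ) (c : ℝ) (θ : Fin t × Fin n → ℝ) : ℝ :=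
  ∫ x, Real.cos (∑ p, sx w x p * θ p - c) ∂P

/-- Its mean. -/
noncomputable def mw (P : Measure (Fin n → ℝ)) (v : ℝ≥0) (w : Fin t → ℝ) (c : ℝ) : ℝ :=
  (∫ x, Real.exp (-((v : ℝ) * ((∑ i, w i ^ 2) * ∑ j, x j ^ 2) / 2)) ∂P) * Real.cos c

lemma cos_cont (w : Fin t → ℝ) (c : ℝ) :
    Continuous fun z : (Fin n → ℝ) × (Fin t × Fin n → ℝ) =>
      Real.cos (∑ p, sx w z.1 p * z.2 p - c) := by
  unfold sx
  fun_prop

lemma exp_diff_le {p q : ℝ} (hp : 0 ≤ p) (hq : 0 ≤ q) :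
    |Real.exp (-p) - Real.exp (-q)| ≤ |p - q| := by
  have key : ∀ {p q : ℝ}, 0 ≤ q → q ≤ p → Real.exp (-q) - Real.exp (-p) ≤ p - q := by
    intro p q hq hpq
    have h1 : Real.exp (-p) = Real.exp (-q) * Real.exp (-(p - q)) := by
      rw [← Real.exp_add]
      congr 1
      ring
    have h2 : 1 - (p - q) ≤ Real.exp (-(p - q)) := by
      linarith [Real.add_one_le_exp (-(p - q))]
    have h3 : Real.exp (-q) ≤ 1 := Real.exp_le_one_iff.2 (by linarith)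
    have h4 : 0 < Real.exp (-q) := Real.exp_pos _
    rw [h1]
    nlinarith
  rcases le_total q p with h | h
  · have h1 := key hq h
    have h2 : Real.exp (-p) ≤ Real.exp (-q) := Real.exp_le_exp.2 (by linarith)
    rw [abs_sub_comm, abs_of_nonneg (by linarith), abs_of_nonneg (by linarith)]
    exact h1
  · have h1 := key hp h
    have h2 : Real.exp (-q) ≤ Real.exp (-p) := Real.exp_le_exp.2 (by linarith)
    rw [abs_of_nonneg (by linarith), abs_sub_comm, abs_of_nonneg (by linarith)]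
    exact h1

variable (P : Measure (Fin n → ℝ)) [IsProbabilityMeasure P]

lemma Fw_abs_le (w : Fin t → ℝ) (c : ℝ) (θ : Fin t × Fin n → ℝ) : |Fw P w c θ| ≤ 1 := by
  unfold Fw
  have := norm_integral_le_of_norm_le_const (μ := P) (f := fun x => Real.cos (∑ p, sx w x p * θ p - c))
    (C := 1) (Filter.Eventually.of_forall fun x => by
      simpa using Real.abs_cos_le_one _)
  simpa using this

lemma Fw_sm (w : Fin t → ℝ) (c : ℝ) :
    StronglyMeasurable (Fw P w c (t := t) (n := n)) := by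
  have h : StronglyMeasurable (Function.uncurry fun (θ : Fin t × Fin n → ℝ) (x : Fin n → ℝ) =>
      Real.cos (∑ p, sx w x p * θ p - c)) := by
    have := (cos_cont (n := n) w c).comp continuous_swap
    exact this.stronglyMeasurable
  exact h.integral_prod_right

lemma cos_int_prod {X Y : Type*} [MeasurableSpace X] [MeasurableSpace Y] (μ : Measure X) (ν : Measure Y)
    [IsProbabilityMeasure μ] [IsProbabilityMeasure ν] (f : X × Y → ℝ) (hf : StronglyMeasurable f)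
    (C : ℝ) (hC : ∀ z, |f z| ≤ C) : Integrable f (μ.prod ν) := by
  refine Integrable.of_bound hf.aestronglyMeasurable C (Filter.Eventually.of_forall fun z => ?_)
  simpa using hC z

lemma Fw_mean (v : ℝ≥0) (w : Fin t → ℝ) (c : ℝ) :
    ∫ θ, Fw P w c θ ∂(gam (Fin t × Fin n) v) = mw P v w c := by
  unfold Fw mw
  have hi : Integrable (Function.uncurry fun (θ : Fin t × Fin n → ℝ) (x : Fin n → ℝ) =>
      Real.cos (∑ p, sx w x p * θ p - c)) ((gam (Fin t × Fin n) v).prod P) := by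
    refine cos_int_prod _ _ _ ?_ 1 fun z => Real.abs_cos_le_one _
    exact ((cos_cont (n := n) w c).comp continuous_swap).stronglyMeasurable
  rw [integral_integral_swap hi, ← integral_mul_const]
  refine integral_congr_ae (Filter.Eventually.of_forall fun x => ?_)
  simp only
  rw [gauss_cos, sx_sq]

/-- The pointwise variance inequality. -/
lemma var_pointwise (a X Y I c : ℝ) (ha : 0 ≤ a) (h1 : 0 ≤ X + Y - 2 * I) (h2 : 0 ≤ X + Y + 2 * I) :
    (Real.exp (-(a * (X + Y - 2 * I) / 2)) * 1 + Real.exp (-(a * (X + Y + 2 * I) / 2)) * Real.cos (2 * c)) / 2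
      - Real.exp (-(a * X / 2)) * Real.exp (-(a * Y / 2)) * Real.cos c ^ 2 ≤ a * |I| := by
  have h0 : 0 ≤ X + Y := by linarith
  set p₀ : ℝ := a * (X + Y) / 2 with hp₀
  set p₁ : ℝ := a * (X + Y - 2 * I) / 2 with hp₁
  set p₂ : ℝ := a * (X + Y + 2 * I) / 2 with hp₂
  have hp₀0 : 0 ≤ p₀ := by positivity
  have hp₁0 : 0 ≤ p₁ := by positivity
  have hp₂0 : 0 ≤ p₂ := by positivity
  have e0 : Real.exp (-(a * X / 2)) * Real.exp (-(a * Y / 2)) = Real.exp (-p₀) := by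
    rw [← Real.exp_add, hp₀]
    congr 1
    ring
  rw [e0]
  have hcos : Real.cos c ^ 2 = (1 + Real.cos (2 * c)) / 2 := by
    rw [Real.cos_two_mul]
    ring
  rw [hcos]
  have d1 := exp_diff_le hp₁0 hp₀0
  have d2 := exp_diff_le hp₂0 hp₀0
  have e1 : p₁ - p₀ = -(a * I) := by
    rw [hp₁, hp₀]
    ring
  have e2 : p₂ - p₀ = a * I := by
    rw [hp₂, hp₀]
    ring
  rw [e1, abs_neg, abs_mul, abs_of_nonneg ha] at d1
  rw [e2, abs_mul, abs_of_nonneg ha] at d2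
  have hc := Real.cos_le_one (2 * c)
  have hc' := Real.neg_one_le_cos (2 * c)
  have d1' := abs_le.1 d1
  have d2' := abs_le.1 d2
  have hI : 0 ≤ a * |I| := by positivity
  have h3 : Real.cos (2 * c) * (Real.exp (-p₂) - Real.exp (-p₀)) ≤ a * |I| := by
    nlinarith [d2'.1, d2'.2]
  nlinarith [d1'.1, d1'.2]

lemma sum_sub_sq' (x y : Fin n → ℝ) :
    ∑ j, (x j - y j) ^ 2 = ∑ j, x j ^ 2 + ∑ j, y j ^ 2 - 2 * (x ⬝ᵥ y) := by
  simp only [dotProduct, Finset.mul_sum, ← Finset.sum_add_distrib, ← Finset.sum_sub_distrib]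
  refine Finset.sum_congr rfl fun j _ => ?_
  ring

lemma sum_add_sq' (x y : Fin n → ℝ) :
    ∑ j, (x j + y j) ^ 2 = ∑ j, x j ^ 2 + ∑ j, y j ^ 2 + 2 * (x ⬝ᵥ y) := by
  simp only [dotProduct, Finset.mul_sum, ← Finset.sum_add_distrib]
  refine Finset.sum_congr rfl fun j _ => ?_
  ring

lemma sx_sub_sq (w : Fin t → ℝ) (x y : Fin n → ℝ) :
    ∑ p, (sx w x p - sx w y p) ^ 2 =
      (∑ i, w i ^ 2) * (∑ j, x j ^ 2 + ∑ j, y j ^ 2 - 2 * (x ⬝ᵥ y)) := by
  rw [← sum_sub_sq', Fintype.sum_prod_type, Finset.sum_mul_sum]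
  refine Finset.sum_congr rfl fun i _ => Finset.sum_congr rfl fun j _ => ?_
  simp only [sx]
  ring

lemma sx_add_sq (w : Fin t → ℝ) (x y : Fin n → ℝ) :
    ∑ p, (sx w x p + sx w y p) ^ 2 =
      (∑ i, w i ^ 2) * (∑ j, x j ^ 2 + ∑ j, y j ^ 2 + 2 * (x ⬝ᵥ y)) := by
  rw [← sum_add_sq', Fintype.sum_prod_type, Finset.sum_mul_sum]
  refine Finset.sum_congr rfl fun i _ => Finset.sum_congr rfl fun j _ => ?_
  simp only [sx]
  ring

/-- The inner integral of the product of two cosines. -/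
lemma cos_cos_mean (v : ℝ≥0) (w : Fin t → ℝ) (c : ℝ) (x y : Fin n → ℝ) :
    ∫ θ : Fin t × Fin n → ℝ, Real.cos (∑ p, sx w x p * θ p - c) * Real.cos (∑ p, sx w y p * θ p - c)
        ∂(gam (Fin t × Fin n) v) =
      (Real.exp (-((v : ℝ) * (∑ i, w i ^ 2) * (∑ j, x j ^ 2 + ∑ j, y j ^ 2 - 2 * (x ⬝ᵥ y)) / 2)) * 1 +
        Real.exp (-((v : ℝ) * (∑ i, w i ^ 2) * (∑ j, x j ^ 2 + ∑ j, y j ^ 2 + 2 * (x ⬝ᵥ y)) / 2)) *
          Real.cos (2 * c)) / 2 := by
  have e : ∀ θ : Fin t × Fin n → ℝ,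
      Real.cos (∑ p, sx w x p * θ p - c) * Real.cos (∑ p, sx w y p * θ p - c) =
      (Real.cos (∑ p, (sx w x p - sx w y p) * θ p - 0) +
        Real.cos (∑ p, (sx w x p + sx w y p) * θ p - 2 * c)) / 2 := by
    intro θ
    have e1 : ∑ p, (sx w x p - sx w y p) * θ p - 0 =
        (∑ p, sx w x p * θ p - c) - (∑ p, sx w y p * θ p - c) := by
      simp only [sub_mul, Finset.sum_sub_distrib]
      ring
    have e2 : ∑ p, (sx w x p + sx w y p) * θ p - 2 * c =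
        (∑ p, sx w x p * θ p - c) + (∑ p, sx w y p * θ p - c) := by
      simp only [add_mul, Finset.sum_add_distrib]
      ring
    have hh : ∀ a b : ℝ, Real.cos a * Real.cos b = (Real.cos (a - b) + Real.cos (a + b)) / 2 := by
      intro a b
      rw [Real.cos_sub, Real.cos_add]
      ring
    rw [e1, e2]
    exact hh _ _
  simp_rw [e]
  have hi : ∀ (s : Fin t × Fin n → ℝ) (c : ℝ),
      Integrable (fun θ : Fin t × Fin n → ℝ => Real.cos (∑ p, s p * θ p - c))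
        (gam (Fin t × Fin n) v) := by
    intro s c
    refine Integrable.of_bound (Continuous.aestronglyMeasurable (by fun_prop)) 1
      (Filter.Eventually.of_forall fun θ => ?_)
    simpa using Real.abs_cos_le_one _
  rw [integral_div, integral_add (hi _ _) (hi _ _), gauss_cos, gauss_cos, sx_sub_sq, sx_add_sq,
    Real.cos_zero]
  congr 3
  · ring_nf
  · ring_nf

/-- The variance of the cosine functional over the frame. -/
lemma Fw_var (v : ℝ≥0) (w : Fin t → ℝ) (c D : ℝ)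
    (hI : Integrable (fun z : (Fin n → ℝ) × (Fin n → ℝ) => |z.1 ⬝ᵥ z.2|) (P.prod P))
    (hD : ∫ z, |z.1 ⬝ᵥ z.2| ∂(P.prod P) ≤ D) :
    ∫ θ, (Fw P w c θ - mw P v w c) ^ 2 ∂(gam (Fin t × Fin n) v) ≤ (v : ℝ) * (∑ i, w i ^ 2) * D := by
  set a : ℝ := (v : ℝ) * ∑ i, w i ^ 2 with ha
  have ha0 : 0 ≤ a := by positivity
  set ρ := P.prod P with hρ
  set γ := gam (Fin t × Fin n) v with hγ
  have hFint : Integrable (Fw P w c (t := t) (n := n)) γ := by
    refine Integrable.of_bound (Fw_sm P w c).aestronglyMeasurable 1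
      (Filter.Eventually.of_forall fun θ => ?_)
    simpa using Fw_abs_le P w c θ
  have hF2int : Integrable (fun θ => Fw P w c θ ^ 2) γ := by
    refine Integrable.of_bound ((Fw_sm P w c).pow 2).aestronglyMeasurable 1
      (Filter.Eventually.of_forall fun θ => ?_)
    have h1 := Fw_abs_le P w c θ
    rw [Real.norm_eq_abs, abs_pow]
    exact pow_le_one₀ (abs_nonneg _) h1
  set m : ℝ := mw P v w c with hm
  have hmean : ∫ θ, Fw P w c θ ∂γ = m := Fw_mean P v w c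
  have hexp : ∫ θ, (Fw P w c θ - m) ^ 2 ∂γ = ∫ θ, Fw P w c θ ^ 2 ∂γ - m ^ 2 := by
    have e : (fun θ => (Fw P w c θ - m) ^ 2) = fun θ => Fw P w c θ ^ 2 - (2 * m) * Fw P w c θ + m ^ 2 := by
      funext θ
      ring
    have h1 : ∫ θ, (Fw P w c θ ^ 2 - (2 * m) * Fw P w c θ + m ^ 2) ∂γ =
        ∫ θ, (Fw P w c θ ^ 2 - (2 * m) * Fw P w c θ) ∂γ + ∫ _θ, m ^ 2 ∂γ :=
      integral_add (hF2int.sub (hFint.const_mul _)) (integrable_const _)
    have h2 : ∫ θ, (Fw P w c θ ^ 2 - (2 * m) * Fw P w c θ) ∂γ =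
        ∫ θ, Fw P w c θ ^ 2 ∂γ - ∫ θ, (2 * m) * Fw P w c θ ∂γ :=
      integral_sub hF2int (hFint.const_mul _)
    rw [e, h1, h2, integral_const_mul, hmean]
    simp
    ring
  rw [hexp]
  -- the square of the functional
  let G : (Fin t × Fin n → ℝ) → (Fin n → ℝ) × (Fin n → ℝ) → ℝ := fun θ z =>
    Real.cos (∑ p, sx w z.1 p * θ p - c) * Real.cos (∑ p, sx w z.2 p * θ p - c)
  have hGc : Continuous (Function.uncurry G) := by
    show Continuous fun q : (Fin t × Fin n → ℝ) × (Fin n → ℝ) × (Fin n → ℝ) =>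
      Real.cos (∑ p, sx w q.2.1 p * q.1 p - c) * Real.cos (∑ p, sx w q.2.2 p * q.1 p - c)
    unfold sx
    fun_prop
  have hGint : Integrable (Function.uncurry G) (γ.prod ρ) := by
    refine cos_int_prod _ _ _ hGc.stronglyMeasurable 1 fun q => ?_
    simp only [Function.uncurry, G, abs_mul]
    exact mul_le_one₀ (Real.abs_cos_le_one _) (abs_nonneg _) (Real.abs_cos_le_one _)
  have hFsq : ∀ θ, Fw P w c θ ^ 2 = ∫ z, G θ z ∂ρ := by
    intro θ
    unfold Fw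
    rw [sq, hρ]
    exact (integral_prod_mul (fun x : Fin n → ℝ => Real.cos (∑ p, sx w x p * θ p - c))
      (fun x : Fin n → ℝ => Real.cos (∑ p, sx w x p * θ p - c))).symm
  have hE1 : ∫ θ, Fw P w c θ ^ 2 ∂γ = ∫ z : (Fin n → ℝ) × (Fin n → ℝ),
      (Real.exp (-(a * (∑ j, z.1 j ^ 2 + ∑ j, z.2 j ^ 2 - 2 * (z.1 ⬝ᵥ z.2)) / 2)) * 1 +
        Real.exp (-(a * (∑ j, z.1 j ^ 2 + ∑ j, z.2 j ^ 2 + 2 * (z.1 ⬝ᵥ z.2)) / 2)) *
          Real.cos (2 * c)) / 2 ∂ρ := by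
    simp_rw [hFsq]
    rw [integral_integral_swap hGint]
    refine integral_congr_ae (Filter.Eventually.of_forall fun z => ?_)
    exact cos_cos_mean v w c z.1 z.2
  have hE2 : m ^ 2 = ∫ z : (Fin n → ℝ) × (Fin n → ℝ),
      Real.exp (-(a * (∑ j, z.1 j ^ 2) / 2)) * Real.exp (-(a * (∑ j, z.2 j ^ 2) / 2)) *
        Real.cos c ^ 2 ∂ρ := by
    rw [hm]
    unfold mw
    rw [integral_mul_const, hρ,
      integral_prod_mul (fun x : Fin n → ℝ => Real.exp (-(a * (∑ j, x j ^ 2) / 2)))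
      (fun x : Fin n → ℝ => Real.exp (-(a * (∑ j, x j ^ 2) / 2)))]
    have e : ∀ x : Fin n → ℝ, (v : ℝ) * ((∑ i, w i ^ 2) * ∑ j, x j ^ 2) / 2 = a * (∑ j, x j ^ 2) / 2 := by
      intro x
      rw [ha]
      ring
    simp_rw [e]
    ring
  have hXc : Continuous fun z : (Fin n → ℝ) × (Fin n → ℝ) => ∑ j, z.1 j ^ 2 := by fun_prop
  have hYc : Continuous fun z : (Fin n → ℝ) × (Fin n → ℝ) => ∑ j, z.2 j ^ 2 := by fun_prop
  have hIc : Continuous fun z : (Fin n → ℝ) × (Fin n → ℝ) => z.1 ⬝ᵥ z.2 := by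
    unfold dotProduct
    fun_prop
  have hnn1 : ∀ z : (Fin n → ℝ) × (Fin n → ℝ), 0 ≤ ∑ j, z.1 j ^ 2 + ∑ j, z.2 j ^ 2 - 2 * (z.1 ⬝ᵥ z.2) := by
    intro z
    rw [← sum_sub_sq']
    exact Finset.sum_nonneg fun j _ => sq_nonneg _
  have hnn2 : ∀ z : (Fin n → ℝ) × (Fin n → ℝ), 0 ≤ ∑ j, z.1 j ^ 2 + ∑ j, z.2 j ^ 2 + 2 * (z.1 ⬝ᵥ z.2) := by
    intro z
    rw [← sum_add_sq']
    exact Finset.sum_nonneg fun j _ => sq_nonneg _
  have hexple : ∀ p : ℝ, 0 ≤ p → |Real.exp (-p)| ≤ 1 := by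
    intro p hp
    rw [Real.abs_exp]
    exact Real.exp_le_one_iff.2 (by linarith)
  have hi1 : Integrable (fun z : (Fin n → ℝ) × (Fin n → ℝ) =>
      (Real.exp (-(a * (∑ j, z.1 j ^ 2 + ∑ j, z.2 j ^ 2 - 2 * (z.1 ⬝ᵥ z.2)) / 2)) * 1 +
        Real.exp (-(a * (∑ j, z.1 j ^ 2 + ∑ j, z.2 j ^ 2 + 2 * (z.1 ⬝ᵥ z.2)) / 2)) *
          Real.cos (2 * c)) / 2) ρ := by
    refine cos_int_prod _ _ _ (Continuous.stronglyMeasurable (by fun_prop)) 1 fun z => ?_
    have h1 := hexple _ (by have := hnn1 z; positivity :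
      0 ≤ a * (∑ j, z.1 j ^ 2 + ∑ j, z.2 j ^ 2 - 2 * (z.1 ⬝ᵥ z.2)) / 2)
    have h2 := hexple _ (by have := hnn2 z; positivity :
      0 ≤ a * (∑ j, z.1 j ^ 2 + ∑ j, z.2 j ^ 2 + 2 * (z.1 ⬝ᵥ z.2)) / 2)
    have h3 := Real.abs_cos_le_one (2 * c)
    rw [abs_div, abs_of_pos (by norm_num : (0 : ℝ) < 2)]
    have h4 := abs_add_le (Real.exp (-(a * (∑ j, z.1 j ^ 2 + ∑ j, z.2 j ^ 2 - 2 * (z.1 ⬝ᵥ z.2)) / 2)) * 1)
      (Real.exp (-(a * (∑ j, z.1 j ^ 2 + ∑ j, z.2 j ^ 2 + 2 * (z.1 ⬝ᵥ z.2)) / 2)) * Real.cos (2 * c))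
    rw [abs_mul, abs_mul, abs_one] at h4
    have h5 := mul_le_one₀ h2 (abs_nonneg _) h3
    linarith
  have hi2 : Integrable (fun z : (Fin n → ℝ) × (Fin n → ℝ) =>
      Real.exp (-(a * (∑ j, z.1 j ^ 2) / 2)) * Real.exp (-(a * (∑ j, z.2 j ^ 2) / 2)) *
        Real.cos c ^ 2) ρ := by
    refine cos_int_prod _ _ _ (Continuous.stronglyMeasurable (by fun_prop)) 1 fun z => ?_
    have hX : 0 ≤ ∑ j, z.1 j ^ 2 := Finset.sum_nonneg fun j _ => sq_nonneg _
    have hY : 0 ≤ ∑ j, z.2 j ^ 2 := Finset.sum_nonneg fun j _ => sq_nonneg _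
    have h1 := hexple _ (by positivity : 0 ≤ a * (∑ j, z.1 j ^ 2) / 2)
    have h2 := hexple _ (by positivity : 0 ≤ a * (∑ j, z.2 j ^ 2) / 2)
    have h3 : |Real.cos c ^ 2| ≤ 1 := by
      rw [abs_pow]
      exact pow_le_one₀ (abs_nonneg _) (Real.abs_cos_le_one c)
    rw [abs_mul, abs_mul]
    exact mul_le_one₀ (mul_le_one₀ h1 (abs_nonneg _) h2) (abs_nonneg _) h3
  rw [hE1, hE2, ← integral_sub hi1 hi2]
  calc _ ≤ ∫ z : (Fin n → ℝ) × (Fin n → ℝ), a * |z.1 ⬝ᵥ z.2| ∂ρ := by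
        refine integral_mono (hi1.sub hi2) (hI.const_mul a) fun z => ?_
        exact var_pointwise a _ _ _ c ha0 (hnn1 z) (hnn2 z)
    _ = a * ∫ z : (Fin n → ℝ) × (Fin n → ℝ), |z.1 ⬝ᵥ z.2| ∂ρ := integral_const_mul _ _
    _ ≤ a * D := mul_le_mul_of_nonneg_left hD ha0

end BallFrame

end Vale.Agent.Lib.P230
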