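import Vale.Agent.Lib.P230.Ball.Defs

/-! Module B2 of the ball route of P230: localisation of a Gaussian bump to a point. -/

set_option autoImplicit false

open MeasureTheory Finset
open scoped ENNReal Matrix

namespace Vale.Agent.Lib.P230.Ball

variable {t : ℕ}

lemma bump_eq_prod (σ : ℝ) (y u : Fin t → ℝ) :
    bump σ y u = ∏ i, Real.exp (-(1 / (2 * σ ^ 2)) * (u i - y i) ^ 2) := by
  unfold bump
  rw [← Real.exp_sum]
  congr 1
  rw [← Finset.mul_sum]
  ring

lemma integrable_one_dim (σ : ℝ) (hσ : 0 < σ) (c : ℝ) :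
    Integrable fun x : ℝ => Real.exp (-(1 / (2 * σ ^ 2)) * (x - c) ^ 2) := by
  have hb : 0 < 1 / (2 * σ ^ 2) := by positivity
  exact (integrable_exp_neg_mul_sq hb).comp_sub_right c

lemma integral_one_dim (σ : ℝ) (hσ : 0 < σ) (c : ℝ) :
    ∫ x : ℝ, Real.exp (-(1 / (2 * σ ^ 2)) * (x - c) ^ 2) = Real.sqrt (2 * Real.pi) * σ := by
  have hb : 0 < 1 / (2 * σ ^ 2) := by positivity
  rw [integral_sub_right_eq_self (fun x : ℝ => Real.exp (-(1 / (2 * σ ^ 2)) * x ^ 2)) c,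
    integral_gaussian]
  have e : Real.pi / (1 / (2 * σ ^ 2)) = (2 * Real.pi) * σ ^ 2 := by
    field_simp
  rw [e, Real.sqrt_mul (by positivity), Real.sqrt_sq hσ.le]

lemma integrable_bump (σ : ℝ) (hσ : 0 < σ) (y : Fin t → ℝ) :
    Integrable (bump σ y) := by
  have h : bump σ y = fun u : Fin t → ℝ =>
      ∏ i, (fun (i : Fin t) (x : ℝ) => Real.exp (-(1 / (2 * σ ^ 2)) * (x - y i) ^ 2)) i (u i) := by
    funext u
    exact bump_eq_prod σ y u
  rw [h]
  exact Integrable.fintype_prod (fun i => integrable_one_dim σ hσ (y i))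

lemma integral_bump (σ : ℝ) (hσ : 0 < σ) (y : Fin t → ℝ) :
    ∫ u, bump σ y u = (Real.sqrt (2 * Real.pi) * σ) ^ t := by
  have h : (fun u : Fin t → ℝ => bump σ y u) = fun u : Fin t → ℝ =>
      ∏ i, (fun (i : Fin t) (x : ℝ) => Real.exp (-(1 / (2 * σ ^ 2)) * (x - y i) ^ 2)) i (u i) := by
    funext u
    exact bump_eq_prod σ y u
  rw [h, volume_pi]
  have := integral_fintype_prod_eq_prod (𝕜 := ℝ) (E := fun _ : Fin t => ℝ)
    (μ := fun _ : Fin t => (volume : Measure ℝ))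
    (fun (i : Fin t) (x : ℝ) => Real.exp (-(1 / (2 * σ ^ 2)) * (x - y i) ^ 2))
  rw [this]
  simp_rw [integral_one_dim σ hσ]
  simp

lemma bump_nonneg (σ : ℝ) (y u : Fin t → ℝ) : 0 ≤ bump σ y u := (Real.exp_pos _).le

lemma bump_le_of_far (σ R : ℝ) (hσ : 0 < σ) (y u : Fin t → ℝ)
    (hu : R ^ 2 < ∑ i, (u i - y i) ^ 2) :
    bump σ y u ≤ Real.exp (-(R ^ 2) / (2 * σ ^ 2)) := by
  unfold bump
  apply Real.exp_le_exp.2
  apply div_le_div_of_nonneg_right _ (by positivity)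
  linarith

/-- MODULE B2: localisation of a bump to a point. `∫ bump = (√(2π) σ)^t`. If `A < V₀` on `B(y,R)`:
`∫ bump A ≤ V₀ (√(2π)σ)^t + exp(-R²/(2σ²)) V ≤ (m/2) V`, contradiction. -/
theorem bump_point (A : (Fin t → ℝ) → ℝ) (h0 : ∀ z, 0 ≤ A z) (hm : Measurable A) (hint : Integrable A)
    (V : ℝ) (hV0 : 0 < V) (hV : ∫ z, A z = V) (y : Fin t → ℝ) (σ R m : ℝ) (hσ : 0 < σ) (hR0 : 0 ≤ R)
    (hm0 : 0 < m) (hb : m * V ≤ ∫ z, bump σ y z * A z)
    (hR : Real.exp (-(R ^ 2) / (2 * σ ^ 2)) ≤ m / 4) :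
    ∃ u : Fin t → ℝ, ∑ i, (u i - y i) ^ 2 ≤ R ^ 2 ∧
      (m / 4) * V / (Real.sqrt (2 * Real.pi) * σ) ^ t ≤ A u := by
  by_contra hno
  push Not at hno
  set D : ℝ := (Real.sqrt (2 * Real.pi) * σ) ^ t with hD
  have hDpos : 0 < D := by
    have : 0 < Real.sqrt (2 * Real.pi) := Real.sqrt_pos.2 (by positivity)
    positivity
  set V₀ : ℝ := (m / 4) * V / D with hV₀
  have hV₀0 : 0 ≤ V₀ := by positivity
  set c : ℝ := Real.exp (-(R ^ 2) / (2 * σ ^ 2)) with hc
  have hc0 : 0 ≤ c := (Real.exp_pos _).le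
  have hpt : ∀ z, bump σ y z * A z ≤ V₀ * bump σ y z + c * A z := by
    intro z
    by_cases hz : ∑ i, (z i - y i) ^ 2 ≤ R ^ 2
    · have h1 := (hno z hz).le
      have h2 := bump_nonneg σ y z
      have h3 : bump σ y z * A z ≤ bump σ y z * V₀ := mul_le_mul_of_nonneg_left h1 h2
      have h4 : 0 ≤ c * A z := mul_nonneg hc0 (h0 z)
      linarith
    · have h1 := bump_le_of_far σ R hσ y z (not_le.mp hz)
      have h2 : bump σ y z * A z ≤ c * A z := mul_le_mul_of_nonneg_right h1 (h0 z)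
      have h3 : 0 ≤ V₀ * bump σ y z := mul_nonneg hV₀0 (bump_nonneg σ y z)
      linarith
  have hib := integrable_bump σ hσ y
  have hup : ∫ z, bump σ y z * A z ≤ V₀ * D + c * V := by
    have h1 : ∫ z, bump σ y z * A z ≤ ∫ z, (V₀ * bump σ y z + c * A z) :=
      integral_mono_of_nonneg
        (Filter.Eventually.of_forall fun z => mul_nonneg (bump_nonneg σ y z) (h0 z))
        ((hib.const_mul _).add (hint.const_mul _)) (Filter.Eventually.of_forall hpt)
    have h2 : ∫ z, (V₀ * bump σ y z + c * A z) = V₀ * D + c * V := by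
      rw [integral_add (hib.const_mul _) (hint.const_mul _), integral_const_mul, integral_const_mul,
        integral_bump σ hσ y, hV]
    linarith
  have h3 : V₀ * D = (m / 4) * V := by
    rw [hV₀]
    field_simp
  have h4 : c * V ≤ (m / 4) * V := mul_le_mul_of_nonneg_right hR hV0.le
  have h5 : 0 < m * V := by positivity
  nlinarith

end Vale.Agent.Lib.P230.Ball
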