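import Vale.Agent.Lib.P230.Defs

/-!
# P230 ball route: definitions.

Target: `Theta_L(n) ≤ n (log n)^2`. See findings of helper40.
Gaussian bump `ψ_y(u) = exp(-|u-y|²/(2σ²))`, its mean under a Gaussian frame, the grid of centres.
-/

set_option autoImplicit false

open MeasureTheory Finset
open scoped ENNReal Matrix

namespace Vale.Agent.Lib.P230.Ball

variable {n t : ℕ}

/-- The Gaussian bump of width `σ` at `y`. -/
noncomputable def bump (σ : ℝ) (y u : Fin t → ℝ) : ℝ :=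
  Real.exp (-(∑ i, (u i - y i) ^ 2) / (2 * σ ^ 2))

/-- Mean of `∫ bump σ y (θ x) dP(x)` over Gaussian frames `θ` with entries `N(0, κ²)`: with
`v = κ²|x|²`, `E_θ bump σ y (θ x) = (σ/√(σ²+v))^t exp(-|y|²/(2(σ²+v)))`. -/
noncomputable def bumpMean (P : Measure (Fin n → ℝ)) (κ σ : ℝ) (y : Fin t → ℝ) : ℝ :=
  ∫ x, (σ / Real.sqrt (σ ^ 2 + κ ^ 2 * ∑ j, x j ^ 2)) ^ t *
    Real.exp (-(∑ i, y i ^ 2) / (2 * (σ ^ 2 + κ ^ 2 * ∑ j, x j ^ 2))) ∂P

/-- The grid of centres: coordinates in `(1/200) ℤ`, `|y|² ≤ (401/400)² t`. -/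
noncomputable def ballGrid (t : ℕ) : Finset (Fin t → ℝ) :=
  open Classical in
  ((Fintype.piFinset fun _ : Fin t => Finset.Icc (-(200 * (t : ℤ) + 1)) (200 * (t : ℤ) + 1)).image
    (fun k i => (k i : ℝ) / 200)).filter (fun y => ∑ i, y i ^ 2 ≤ (401 / 400) ^ 2 * (t : ℝ))

/-- Number of good leaves guaranteed by `leaf_count`. -/
noncomputable def leafN (t : ℕ) : ℕ := ⌈(1 / 2500000 : ℝ) * (169 / 100) ^ t⌉₊

end Vale.Agent.Lib.P230.Ball
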