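import Vale.Agent.Lib.P230.Layer

/-!
# P230: the layering step with weights: the final void is bounded by the product over all
leaves of the void fractions of the leaves (`layering_leaf`). Averaging is weighted by the inverse
of the expected size, so that leaves with trivial void fraction `1` are allowed.
-/

set_option autoImplicit false

open Finset

namespace Vale.Agent.Lib.P230

variable {G : Type*} [AddCommGroup G] [Fintype G] [DecidableEq G]

/-- Weighted averaging over the shift. -/
lemma exists_shift_w {Z : Type*} (ZZ : Finset Z) (X Y : Z → Finset G) (c : Z → ℝ)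
    (_hc : ∀ z, 0 ≤ c z) :
    ∃ w : G, (∑ z ∈ ZZ, c z * (((X z).filter fun τ => τ - w ∈ Y z).card : ℝ)) * Fintype.card G ≤
      ∑ z ∈ ZZ, c z * (((X z).card : ℝ) * (Y z).card) := by
  classical
  have hcard : 0 < Fintype.card G := Fintype.card_pos
  have key : ∑ w : G, ∑ z ∈ ZZ, c z * (((X z).filter fun τ => τ - w ∈ Y z).card : ℝ) =
      ∑ z ∈ ZZ, c z * (((X z).card : ℝ) * (Y z).card) := by
    rw [Finset.sum_comm]
    apply Finset.sum_congr rfl
    intro z _
    rw [← Finset.mul_sum]
    congr 1
    have h1 : ∀ w : G, (((X z).filter fun τ => τ - w ∈ Y z).card : ℝ) =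
        ∑ τ ∈ X z, if τ - w ∈ Y z then (1 : ℝ) else 0 := by
      intro w
      rw [Finset.card_filter]
      push_cast
      rfl
    simp_rw [h1]
    rw [Finset.sum_comm]
    have h2 : ∀ τ ∈ X z, ∑ w : G, (if τ - w ∈ Y z then (1 : ℝ) else 0) = (Y z).card := by
      intro τ _
      have : ∑ w : G, (if τ - w ∈ Y z then (1 : ℝ) else 0) =
          ∑ w : G, (if w ∈ Y z then (1 : ℝ) else 0) := by
        apply Fintype.sum_equiv (Equiv.subLeft τ)
        intro w
        simp
      rw [this]
      simp
    rw [Finset.sum_congr rfl h2]
    simp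
  by_contra hcon
  push Not at hcon
  have h0 : ∑ _w : G, (∑ z ∈ ZZ, c z * (((X z).card : ℝ) * (Y z).card)) <
      ∑ w : G, (∑ z ∈ ZZ, c z * (((X z).filter fun τ => τ - w ∈ Y z).card : ℝ)) * Fintype.card G :=
    Finset.sum_lt_sum_of_nonempty Finset.univ_nonempty (fun w _ => hcon w)
  rw [Finset.sum_const, Finset.card_univ, nsmul_eq_mul, ← Finset.sum_mul, key] at h0
  linarith [mul_comm (Fintype.card G : ℝ) (∑ z ∈ ZZ, c z * (((X z).card : ℝ) * (Y z).card))]

/-- Cube vertices supported on the first `i` coordinates. -/
def Qi (t i : ℕ) : Finset (Fin t → Bool) :=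
  univ.filter fun q => ∀ l, q l = true → l.val < i

lemma Qi_zero (t : ℕ) : Qi t 0 = {fun _ => false} := by
  ext q
  simp only [Qi, mem_filter, mem_univ, true_and, mem_singleton, not_lt_zero]
  constructor
  · intro h
    funext l
    by_contra hne
    exact h l (by simpa using hne)
  · rintro rfl l hl
    simp at hl

lemma Qi_all (t : ℕ) : Qi t t = univ := by
  ext q
  simp [Qi, Fin.is_lt]

lemma prod_Qi_succ {t : ℕ} (N : ℤ) (f : (Fin t → ℤ) → ℝ) (I : Fin t) (u : Fin t → ℤ) :
    ∏ q ∈ Qi t (I.val + 1), f (u - qshift N q) =
      (∏ q ∈ Qi t I.val, f (u - qshift N q)) *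
        ∏ q ∈ Qi t I.val, f ((u - Function.update (0 : Fin t → ℤ) I N) - qshift N q) := by
  classical
  have hfalse : ∀ q ∈ Qi t I.val, q I = false := by
    intro q hq
    have h := (Finset.mem_filter.1 hq).2
    by_contra hne
    have := h I (by simpa using hne)
    exact lt_irrefl _ this
  have hset : Qi t (I.val + 1) = Qi t I.val ∪ (Qi t I.val).image (fun q => Function.update q I true) := by
    ext q
    simp only [Qi, mem_filter, mem_univ, true_and, mem_union, mem_image]
    constructor
    · intro h
      by_cases hqi : q I = true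
      · right
        refine ⟨Function.update q I false, ?_, ?_⟩
        · intro l hl
          by_cases hli : l = I
          · subst hli
            simp at hl
          · rw [Function.update_of_ne hli] at hl
            have h1 := h l hl
            have hne : l.val ≠ I.val := fun he => hli (Fin.ext he)
            omega
        · funext l
          by_cases hli : l = I
          · subst hli
            simp [hqi]
          · simp [Function.update_of_ne hli]
      · left
        intro l hl
        have h1 := h l hl
        have hne : l.val ≠ I.val := by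
          intro he
          have : l = I := Fin.ext he
          subst this
          exact hqi hl
        omega
    · rintro (h | ⟨q', hq', rfl⟩)
      · intro l hl
        exact Nat.lt_succ_of_lt (h l hl)
      · intro l hl
        by_cases hli : l = I
        · subst hli
          exact Nat.lt_succ_self _
        · rw [Function.update_of_ne hli] at hl
          exact Nat.lt_succ_of_lt (hq' l hl)
  have hdisj : Disjoint (Qi t I.val) ((Qi t I.val).image (fun q => Function.update q I true)) := by
    rw [Finset.disjoint_left]
    intro q hq hq2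
    obtain ⟨q', _, rfl⟩ := Finset.mem_image.1 hq2
    have := hfalse _ hq
    simp at this
  have hinj : Set.InjOn (fun q : Fin t → Bool => Function.update q I true) (Qi t I.val : Set (Fin t → Bool)) := by
    intro q hq q' hq' he
    funext l
    by_cases hli : l = I
    · subst hli
      rw [hfalse q hq, hfalse q' hq']
    · have := congrFun he l
      simpa [Function.update_of_ne hli] using this
  rw [hset, Finset.prod_union hdisj, Finset.prod_image hinj]
  congr 1
  refine Finset.prod_congr rfl fun q hq => ?_
  rw [qshift_update_true N q I (hfalse q hq)]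

/-- The layering with weights: the final void is at most the product of the void fractions of the
leaves, times the size of the family raised to `2 ^ t - 1`. -/
theorem layering_leaf {t : ℕ} (N : ℕ) (hN : 0 < N) (S : (Fin t → ℤ) → Finset G)
    (σ : (Fin t → ℤ) → ℝ) (hσ : ∀ u, 0 < σ u)
    (hS : ∀ u : Fin t → ℤ, (∀ i, -(N : ℤ) ≤ u i ∧ u i < N) →
      ((S u).card : ℝ) ≤ σ u * Fintype.card G) :
    ∃ v : Fin t → G, ∀ u : Fin t → ℤ, (∀ i, 0 ≤ u i ∧ u i < (N : ℤ)) →
      ((interU (N : ℤ) S v u).card : ℝ) ≤
        ((2 * (N : ℝ)) ^ t) ^ (2 ^ t - 1) * (∏ q : Fin t → Bool, σ (u - qshift (N : ℤ) q)) *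
          Fintype.card G := by
  classical
  set Zc : ℝ := (2 * (N : ℝ)) ^ t with hZc
  have hN0 : (0 : ℝ) < N := by exact_mod_cast hN
  have hZc0 : 0 < Zc := by positivity
  have hG : (0 : ℝ) < Fintype.card G := by exact_mod_cast Fintype.card_pos
  let pr : ℕ → (Fin t → ℤ) → ℝ := fun i u => ∏ q ∈ Qi t i, σ (u - qshift (N : ℤ) q)
  have hpr0 : ∀ i u, 0 < pr i u := fun i u => Finset.prod_pos fun q _ => hσ _
  -- main induction
  have main : ∀ i : ℕ, i ≤ t → ∃ v : Fin t → G, ∀ u : Fin t → ℤ, Zi (N : ℤ) i u →
      ((partU (N : ℤ) S v i u).card : ℝ) ≤ Zc ^ (2 ^ i - 1) * pr i u * Fintype.card G := by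
    intro i
    induction i with
    | zero =>
      intro _
      refine ⟨fun _ => 0, ?_⟩
      intro u hu
      have hsub : partU (N : ℤ) S (fun _ => (0 : G)) 0 u ⊆ S u := by
        intro τ hτ
        simp only [partU, mem_filter, mem_univ, true_and] at hτ
        have := hτ (fun _ => false) (by simp)
        have h0 : qshift (N : ℤ) (fun _ : Fin t => false) = 0 := by
          funext l
          simp [qshift]
        rw [h0] at this
        simpa [qsum] using this
      have h1 := hS u (fun l => (hu l).2 (Nat.zero_le _))
      have h2 : ((partU (N : ℤ) S (fun _ => (0 : G)) 0 u).card : ℝ) ≤ (S u).card := by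
        exact_mod_cast Finset.card_le_card hsub
      have h0 : qshift (N : ℤ) (fun _ : Fin t => false) = 0 := by
        funext l
        simp [qshift]
      have hpr : pr 0 u = σ u := by
        show ∏ q ∈ Qi t 0, σ (u - qshift (N : ℤ) q) = σ u
        rw [Qi_zero, Finset.prod_singleton, h0, sub_zero]
      rw [hpr]
      simp only [pow_zero, Nat.sub_self, one_mul]
      linarith
    | succ i ih =>
      intro hit
      obtain ⟨v, hv⟩ := ih (by omega)
      set I : Fin t := ⟨i, by omega⟩ with hI
      set e : Fin t → ℤ := Function.update (0 : Fin t → ℤ) I (N : ℤ) with he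
      set box : Finset (Fin t → ℤ) :=
        Fintype.piFinset (fun _ => Finset.Ico (-(N : ℤ)) (N : ℤ)) with hbox
      set ZZ : Finset (Fin t → ℤ) := box.filter (Zi (N : ℤ) (i + 1)) with hZZ
      let bd : (Fin t → ℤ) → ℝ := fun u => Zc ^ (2 ^ i - 1) * pr i u * Fintype.card G
      have hbd0 : ∀ u, 0 < bd u := fun u => by
        have := hpr0 i u
        positivity
      obtain ⟨w, hw⟩ := exists_shift_w ZZ (fun u => partU (N : ℤ) S v i u)
        (fun u => partU (N : ℤ) S v i (u - e)) (fun u => (bd u * bd (u - e))⁻¹)
        (fun u => inv_nonneg.2 (mul_pos (hbd0 u) (hbd0 _)).le)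
      have hcardbox : (box.card : ℝ) = Zc := by
        rw [hbox, Fintype.card_piFinset]
        simp only [Int.card_Ico, prod_const, card_univ, Fintype.card_fin]
        rw [hZc]
        push_cast
        congr 1
        have : ((N : ℤ) - -(N : ℤ)).toNat = 2 * N := by omega
        rw [this]
        push_cast
        ring
      have hZZcard : (ZZ.card : ℝ) ≤ Zc := by
        rw [← hcardbox]
        exact_mod_cast Finset.card_filter_le _ _
      have hmem1 : ∀ u ∈ ZZ, Zi (N : ℤ) i u := by
        intro u hu l
        have hu2 := (Finset.mem_filter.mp hu).2 l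
        refine ⟨fun hl => hu2.1 (by omega), fun hl => ?_⟩
        by_cases hl' : l.val = i
        · have := hu2.1 (by omega)
          omega
        · exact hu2.2 (by omega)
      have hmem2 : ∀ u ∈ ZZ, Zi (N : ℤ) i (u - e) := by
        intro u hu l
        have hu2 := (Finset.mem_filter.mp hu).2 l
        by_cases hl' : l = I
        · subst hl'
          have h3 := hu2.1 (by simp [hI])
          have he1 : e I = (N : ℤ) := by simp [he]
          refine ⟨fun hl => ?_, fun _ => ?_⟩
          · simp [hI] at hl
          · simp only [Pi.sub_apply, he1]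
            constructor <;> omega
        · have he0 : e l = 0 := by simp [he, Function.update_of_ne hl']
          simp only [Pi.sub_apply, he0, sub_zero]
          have hne : l.val ≠ i := fun h => hl' (Fin.ext h)
          refine ⟨fun hl => hu2.1 (by omega), fun hl => hu2.2 (by omega)⟩
      refine ⟨Function.update v I w, ?_⟩
      intro u hu
      have hboxu : u ∈ ZZ := by
        rw [hZZ, Finset.mem_filter]
        refine ⟨?_, hu⟩
        rw [hbox, Fintype.mem_piFinset]
        intro l
        rw [Finset.mem_Ico]
        have h1 := hu l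
        by_cases hl : l.val < i + 1
        · have := h1.1 hl
          constructor <;> omega
        · have := h1.2 (by omega)
          exact this
      -- identify the set
      have hset : partU (N : ℤ) S (Function.update v I w) (i + 1) u =
          (partU (N : ℤ) S v i u).filter fun τ => τ - w ∈ partU (N : ℤ) S v i (u - e) := by
        ext τ
        rw [Finset.mem_filter]
        exact mem_partU_succ (N : ℤ) S v I w u τ
      rw [hset]
      set F : ℝ := (((partU (N : ℤ) S v i u).filter
          fun τ => τ - w ∈ partU (N : ℤ) S v i (u - e)).card : ℝ) with hF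
      have h1 : (bd u * bd (u - e))⁻¹ * F ≤
          ∑ z ∈ ZZ, (bd z * bd (z - e))⁻¹ * (((partU (N : ℤ) S v i z).filter
            fun τ => τ - w ∈ partU (N : ℤ) S v i (z - e)).card : ℝ) := by
        exact Finset.single_le_sum
          (f := fun z => (bd z * bd (z - e))⁻¹ * (((partU (N : ℤ) S v i z).filter
            fun τ => τ - w ∈ partU (N : ℤ) S v i (z - e)).card : ℝ))
          (fun z _ => mul_nonneg (inv_nonneg.2 (mul_pos (hbd0 z) (hbd0 _)).le) (by positivity)) hboxu
      have h2 : ∑ z ∈ ZZ, (bd z * bd (z - e))⁻¹ *
          (((partU (N : ℤ) S v i z).card : ℝ) * (partU (N : ℤ) S v i (z - e)).card) ≤ Zc := by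
        calc _ ≤ ∑ _z ∈ ZZ, (1 : ℝ) := by
              apply Finset.sum_le_sum
              intro z hz
              have hbb := mul_pos (hbd0 z) (hbd0 (z - e))
              rw [inv_mul_le_iff₀ hbb, mul_one]
              exact mul_le_mul (hv z (hmem1 z hz)) (hv _ (hmem2 z hz)) (by positivity)
                (hbd0 z).le
          _ = ZZ.card := by simp
          _ ≤ _ := hZZcard
      have h3 : (bd u * bd (u - e))⁻¹ * F * Fintype.card G ≤ Zc :=
        (mul_le_mul_of_nonneg_right h1 hG.le).trans (hw.trans h2)
      have hbb := mul_pos (hbd0 u) (hbd0 (u - e))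
      have h4 : F * Fintype.card G ≤ Zc * (bd u * bd (u - e)) := by
        have e1 : F * Fintype.card G =
            ((bd u * bd (u - e))⁻¹ * F * Fintype.card G) * (bd u * bd (u - e)) := by
          have hne : bd u * bd (u - e) ≠ 0 := hbb.ne'
          rw [mul_assoc ((bd u * bd (u - e))⁻¹), mul_comm ((bd u * bd (u - e))⁻¹), mul_assoc,
            inv_mul_cancel₀ hne, mul_one]
        rw [e1]
        exact mul_le_mul_of_nonneg_right h3 hbb.le
      have hprod : pr (i + 1) u = pr i u * pr i (u - e) := by
        show ∏ q ∈ Qi t (i + 1), σ (u - qshift (N : ℤ) q) = _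
        exact prod_Qi_succ (N : ℤ) σ I u
      have h21 : 2 ^ (i + 1) - 1 = 2 * (2 ^ i - 1) + 1 := by
        have : 1 ≤ 2 ^ i := Nat.one_le_two_pow
        rw [pow_succ]
        omega
      have h5 : Zc * (bd u * bd (u - e)) =
          (Zc ^ (2 ^ (i + 1) - 1) * pr (i + 1) u * Fintype.card G) * Fintype.card G := by
        rw [hprod, h21, pow_succ, pow_mul]
        show Zc * ((Zc ^ (2 ^ i - 1) * pr i u * Fintype.card G) *
          (Zc ^ (2 ^ i - 1) * pr i (u - e) * Fintype.card G)) = _
        ring
      rw [h5] at h4
      exact le_of_mul_le_mul_right h4 hG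
  obtain ⟨v, hv⟩ := main t le_rfl
  refine ⟨v, ?_⟩
  intro u hu
  have h1 := hv u (fun l => ⟨fun _ => hu l, fun hl => absurd l.isLt (by omega)⟩)
  have hsub : interU (N : ℤ) S v u ⊆ partU (N : ℤ) S v t u := by
    intro τ hτ
    simp only [interU, partU, mem_filter, mem_univ, true_and] at hτ ⊢
    exact fun q _ => hτ q
  have h2 : ((interU (N : ℤ) S v u).card : ℝ) ≤ (partU (N : ℤ) S v t u).card := by
    exact_mod_cast Finset.card_le_card hsub
  have hpr : pr t u = ∏ q : Fin t → Bool, σ (u - qshift (N : ℤ) q) := by
    show ∏ q ∈ Qi t t, σ (u - qshift (N : ℤ) q) = _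
    rw [Qi_all]
  rw [hpr] at h1
  linarith

end Vale.Agent.Lib.P230
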