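import Vale.Agent.Lib.P230.Gframe

/-!
# P230: cosine integrals against product Gaussian measures.
-/

set_option autoImplicit false

open MeasureTheory Finset ProbabilityTheory
open scoped ENNReal Matrix NNReal

namespace Vale.Agent.Lib.P230

namespace BallFrame

open Gframe

variable {ι : Type*} [Fintype ι]

lemma gauss_cexp_one (v : ℝ≥0) (s : ℝ) :
    ∫ x : ℝ, Complex.exp (Complex.I * ((s * x : ℝ) : ℂ)) ∂(gaussianReal 0 v) =
      ((Real.exp (-((v : ℝ) * s ^ 2 / 2)) : ℝ) : ℂ) := by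
  have h := charFun_gaussianReal (μ := 0) (v := v) s
  rw [charFun_apply_real] at h
  have e : (fun x : ℝ => Complex.exp (Complex.I * ((s * x : ℝ) : ℂ))) =
      fun x : ℝ => Complex.exp ((s : ℂ) * (x : ℂ) * Complex.I) := by
    funext x
    congr 1
    push_cast
    ring
  rw [e, h]
  push_cast
  congr 1
  ring

lemma gauss_cexp (v : ℝ≥0) (s : ι → ℝ) :
    ∫ θ : ι → ℝ, Complex.exp (Complex.I * ((∑ p, s p * θ p : ℝ) : ℂ)) ∂(gam ι v) =
      ((Real.exp (-((v : ℝ) * (∑ p, s p ^ 2) / 2)) : ℝ) : ℂ) := by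
  have h : (fun θ : ι → ℝ => Complex.exp (Complex.I * ((∑ p, s p * θ p : ℝ) : ℂ))) =
      fun θ => ∏ p, (fun p x => Complex.exp (Complex.I * ((s p * x : ℝ) : ℂ))) p (θ p) := by
    funext θ
    rw [← Complex.exp_sum]
    congr 1
    push_cast
    rw [Finset.mul_sum]
  rw [h]
  unfold gam
  rw [integral_fintype_prod_eq_prod (𝕜 := ℂ) (E := fun _ => ℝ)
    (fun p x => Complex.exp (Complex.I * ((s p * x : ℝ) : ℂ))) (μ := fun _ => gaussianReal 0 v)]
  simp_rw [gauss_cexp_one]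
  rw [← Complex.ofReal_prod, ← Real.exp_sum]
  congr 2
  rw [Finset.mul_sum, Finset.sum_div, Finset.sum_neg_distrib]

lemma cos_eq_re (A c : ℝ) :
    Real.cos (A - c) = (Complex.exp (Complex.I * (A : ℂ)) * Complex.exp (-(Complex.I * (c : ℂ)))).re := by
  rw [← Complex.exp_add]
  have e : Complex.I * (A : ℂ) + -(Complex.I * (c : ℂ)) = ((A - c : ℝ) : ℂ) * Complex.I := by
    push_cast
    ring
  rw [e, Complex.exp_ofReal_mul_I_re]

/-- Cosine integral against a product Gaussian measure. -/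
lemma gauss_cos (v : ℝ≥0) (s : ι → ℝ) (c : ℝ) :
    ∫ θ : ι → ℝ, Real.cos (∑ p, s p * θ p - c) ∂(gam ι v) =
      Real.exp (-((v : ℝ) * (∑ p, s p ^ 2) / 2)) * Real.cos c := by
  have hint : Integrable (fun θ : ι → ℝ => Complex.exp (Complex.I * ((∑ p, s p * θ p : ℝ) : ℂ)) *
      Complex.exp (-(Complex.I * (c : ℂ)))) (gam ι v) := by
    refine Integrable.of_bound ?_ (1 * ‖Complex.exp (-(Complex.I * (c : ℂ)))‖) ?_
    · refine Continuous.aestronglyMeasurable ?_
      fun_prop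
    · refine Filter.Eventually.of_forall fun θ => ?_
      rw [norm_mul]
      apply mul_le_mul_of_nonneg_right _ (norm_nonneg _)
      have e : Complex.I * ((∑ p, s p * θ p : ℝ) : ℂ) = ((∑ p, s p * θ p : ℝ) : ℂ) * Complex.I := by
        ring
      rw [e, Complex.norm_exp_ofReal_mul_I]
  have h1 : ∫ θ : ι → ℝ, Real.cos (∑ p, s p * θ p - c) ∂(gam ι v) =
      (∫ θ : ι → ℝ, Complex.exp (Complex.I * ((∑ p, s p * θ p : ℝ) : ℂ)) *
        Complex.exp (-(Complex.I * (c : ℂ))) ∂(gam ι v)).re := by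
    have := Complex.reCLM.integral_comp_comm hint
    simp only [Complex.reCLM_apply] at this
    rw [← this]
    refine integral_congr_ae (Filter.Eventually.of_forall fun θ => ?_)
    exact cos_eq_re _ _
  rw [h1, integral_mul_const, gauss_cexp]
  rw [Complex.re_ofReal_mul]
  congr 1
  have e : -(Complex.I * (c : ℂ)) = ((-c : ℝ) : ℂ) * Complex.I := by
    push_cast
    ring
  rw [e, Complex.exp_ofReal_mul_I_re, Real.cos_neg]

lemma damp_pdf (a g : ℝ) (ha : 0 ≤ a) (v' : ℝ≥0) (hv' : (v' : ℝ) = 1 / (1 + a)) :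
    gaussianPDFReal 0 1 g * Real.exp (-(a / 2 * g ^ 2)) =
      Real.sqrt (1 / (1 + a)) * gaussianPDFReal 0 v' g := by
  have h1a : 0 < 1 + a := by linarith
  simp only [gaussianPDFReal, NNReal.coe_one, sub_zero]
  rw [hv']
  have hpi : 0 < 2 * Real.pi := by positivity
  have e : Real.sqrt (2 * Real.pi * (1 / (1 + a))) = Real.sqrt (2 * Real.pi) * Real.sqrt (1 / (1 + a)) :=
    Real.sqrt_mul hpi.le _
  rw [e]
  have hs : 0 < Real.sqrt (1 / (1 + a)) := Real.sqrt_pos.2 (by positivity)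
  have hp : 0 < Real.sqrt (2 * Real.pi) := Real.sqrt_pos.2 hpi
  have hmain : -g ^ 2 / (2 * (1 / (1 + a))) = -g ^ 2 / (2 * 1) + -(a / 2 * g ^ 2) := by
    field_simp
    ring
  rw [hmain, Real.exp_add, mul_one]
  field_simp

/-- One dimensional damped character. -/
lemma damp_one (a b : ℝ) (ha : 0 ≤ a) :
    ∫ g : ℝ, ((Real.exp (-(a / 2 * g ^ 2)) : ℝ) : ℂ) * Complex.exp (Complex.I * ((b * g : ℝ) : ℂ))
        ∂(gaussianReal 0 1) =
      ((Real.sqrt (1 / (1 + a)) * Real.exp (-(b ^ 2 / (2 * (1 + a)))) : ℝ) : ℂ) := by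
  have h1a : 0 < 1 + a := by linarith
  obtain ⟨v', hv'⟩ : ∃ v' : ℝ≥0, (v' : ℝ) = 1 / (1 + a) :=
    ⟨⟨1 / (1 + a), by positivity⟩, rfl⟩
  have hv'0 : v' ≠ 0 := by
    intro h
    rw [h] at hv'
    have h2 : 1 / (1 + a) > 0 := by positivity
    simp only [NNReal.coe_zero] at hv'
    linarith
  rw [integral_gaussianReal_eq_integral_smul (by norm_num : (1 : ℝ≥0) ≠ 0)]
  have h2 := gauss_cexp_one v' b
  rw [integral_gaussianReal_eq_integral_smul hv'0] at h2
  have e : ∀ g : ℝ, gaussianPDFReal 0 1 g • (((Real.exp (-(a / 2 * g ^ 2)) : ℝ) : ℂ) *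
      Complex.exp (Complex.I * ((b * g : ℝ) : ℂ))) =
      ((Real.sqrt (1 / (1 + a)) : ℝ) : ℂ) * (gaussianPDFReal 0 v' g • Complex.exp (Complex.I * ((b * g : ℝ) : ℂ))) := by
    intro g
    have := damp_pdf a g ha v' hv'
    rw [Complex.real_smul, Complex.real_smul, ← mul_assoc, ← mul_assoc, ← Complex.ofReal_mul,
      ← Complex.ofReal_mul, this]
  simp_rw [e]
  rw [integral_const_mul, h2]
  push_cast
  congr 2
  rw [hv']
  push_cast
  field_simp

/-- Product form. -/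
lemma damp_prod (a : ℝ) (b : ι → ℝ) (ha : 0 ≤ a) :
    ∫ g : ι → ℝ, Real.exp (-(a / 2 * ∑ i, g i ^ 2)) * Real.cos (∑ i, b i * g i) ∂(gam ι 1) =
      Real.sqrt (1 / (1 + a)) ^ Fintype.card ι * Real.exp (-((∑ i, b i ^ 2) / (2 * (1 + a)))) := by
  have hprod : ∀ g : ι → ℝ, Real.exp (-(a / 2 * ∑ i, g i ^ 2)) * Real.cos (∑ i, b i * g i) =
      (∏ i, (fun i (x : ℝ) => ((Real.exp (-(a / 2 * x ^ 2)) : ℝ) : ℂ) *
        Complex.exp (Complex.I * ((b i * x : ℝ) : ℂ))) i (g i)).re := by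
    intro g
    have e1 : (∏ i, (fun i (x : ℝ) => ((Real.exp (-(a / 2 * x ^ 2)) : ℝ) : ℂ) *
        Complex.exp (Complex.I * ((b i * x : ℝ) : ℂ))) i (g i)) =
        ((Real.exp (-(a / 2 * ∑ i, g i ^ 2)) : ℝ) : ℂ) *
          Complex.exp (Complex.I * ((∑ i, b i * g i : ℝ) : ℂ)) := by
      simp only
      rw [Finset.prod_mul_distrib, ← Complex.ofReal_prod, ← Real.exp_sum, ← Complex.exp_sum]
      congr 2
      · rw [Finset.mul_sum, Finset.sum_neg_distrib]
      · push_cast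
        rw [Finset.mul_sum]
    rw [e1, Complex.re_ofReal_mul]
    congr 1
    have e2 : Complex.I * ((∑ i, b i * g i : ℝ) : ℂ) = ((∑ i, b i * g i : ℝ) : ℂ) * Complex.I := by ring
    rw [e2, Complex.exp_ofReal_mul_I_re]
  simp_rw [hprod]
  have hint : Integrable (fun g : ι → ℝ => ∏ i, (fun i (x : ℝ) => ((Real.exp (-(a / 2 * x ^ 2)) : ℝ) : ℂ) *
        Complex.exp (Complex.I * ((b i * x : ℝ) : ℂ))) i (g i)) (gam ι 1) := by
    unfold gam
    refine Integrable.fintype_prod (𝕜 := ℂ) (E := ℝ) (μ := fun _ => gaussianReal 0 1) (f := fun i (x : ℝ) => ((Real.exp (-(a / 2 * x ^ 2)) : ℝ) : ℂ) *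
        Complex.exp (Complex.I * ((b i * x : ℝ) : ℂ))) fun i => ?_
    refine Integrable.of_bound ?_ 1 ?_
    · refine Continuous.aestronglyMeasurable ?_
      fun_prop
    · refine Filter.Eventually.of_forall fun x => ?_
      rw [norm_mul, Complex.norm_real, Real.norm_eq_abs, Real.abs_exp]
      have e2 : Complex.I * ((b i * x : ℝ) : ℂ) = ((b i * x : ℝ) : ℂ) * Complex.I := by ring
      rw [e2, Complex.norm_exp_ofReal_mul_I, mul_one]
      apply Real.exp_le_one_iff.2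
      have : 0 ≤ a / 2 * x ^ 2 := by positivity
      linarith
  have h := Complex.reCLM.integral_comp_comm hint
  simp only [Complex.reCLM_apply] at h
  rw [h]
  have h3 : ∫ g : ι → ℝ, ∏ i, (fun i (x : ℝ) => ((Real.exp (-(a / 2 * x ^ 2)) : ℝ) : ℂ) *
        Complex.exp (Complex.I * ((b i * x : ℝ) : ℂ))) i (g i) ∂(gam ι 1) =
      ∏ i, ((Real.sqrt (1 / (1 + a)) * Real.exp (-((b i) ^ 2 / (2 * (1 + a)))) : ℝ) : ℂ) := by
    unfold gam
    rw [integral_fintype_prod_eq_prod (𝕜 := ℂ) (E := fun _ => ℝ)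
      (fun i (x : ℝ) => ((Real.exp (-(a / 2 * x ^ 2)) : ℝ) : ℂ) *
        Complex.exp (Complex.I * ((b i * x : ℝ) : ℂ))) (μ := fun _ => gaussianReal 0 1)]
    exact Finset.prod_congr rfl fun i _ => damp_one a (b i) ha
  rw [h3]
  rw [← Complex.ofReal_prod, Complex.ofReal_re, Finset.prod_mul_distrib, Finset.prod_const,
    ← Real.exp_sum, Finset.card_univ]
  congr 2
  rw [Finset.sum_neg_distrib, Finset.sum_div]

end BallFrame

end Vale.Agent.Lib.P230
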