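import Vale.Agent.Lib.P230.Gframe
import Vale.Agent.Lib.P230.Ball.Defs

/-!
# P230 Ball, MODULE B1: the Gaussian frame with characteristic functions, no exponential loss.
-/

set_option autoImplicit false
set_option linter.unusedSectionVars false
set_option linter.unusedVariables false

open MeasureTheory Finset ProbabilityTheory
open scoped ENNReal Matrix NNReal ComplexConjugate

namespace Vale.Agent.Lib.P230

namespace CharFrame

open Gframe

/-- The unit complex number of angle `r`. -/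
noncomputable def osc (r : ℝ) : ℂ := Complex.exp ((r : ℂ) * Complex.I)

lemma osc_norm (r : ℝ) : ‖osc r‖ = 1 := Complex.norm_exp_ofReal_mul_I r

lemma osc_cont : Continuous osc := by
  unfold osc
  fun_prop

lemma osc_add (a b : ℝ) : osc (a + b) = osc a * osc b := by
  unfold osc
  rw [← Complex.exp_add]
  congr 1
  push_cast
  ring

lemma osc_conj (a : ℝ) : conj (osc a) = osc (-a) := by
  unfold osc
  rw [← Complex.exp_conj]
  congr 1
  simp

lemma osc_sub (a b : ℝ) : osc (a - b) = osc a * conj (osc b) := by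
  rw [osc_conj, sub_eq_add_neg, osc_add]

section Gauss

variable {ι : Type*} [Fintype ι]

lemma gauss_char_one (v : ℝ≥0) (s : ℝ) :
    ∫ x, osc (s * x) ∂(gaussianReal 0 v) = ((Real.exp (-((v : ℝ) * s ^ 2 / 2)) : ℝ) : ℂ) := by
  have h := charFun_gaussianReal (μ := 0) (v := v) s
  rw [charFun_apply_real] at h
  have e : ∀ x : ℝ, osc (s * x) = Complex.exp ((s : ℂ) * (x : ℂ) * Complex.I) := by
    intro x
    unfold osc
    push_cast
    rfl
  simp_rw [e]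
  rw [h]
  push_cast
  congr 1
  ring

lemma osc_sum (s : ι → ℝ) (θ : ι → ℝ) : osc (∑ p, s p * θ p) = ∏ p, osc (s p * θ p) := by
  unfold osc
  rw [← Complex.exp_sum]
  congr 1
  push_cast
  rw [Finset.sum_mul]

lemma gauss_char (v : ℝ≥0) (s : ι → ℝ) :
    ∫ θ, osc (∑ p, s p * θ p) ∂(gam ι v) =
      ((Real.exp (-((v : ℝ) * (∑ p, s p ^ 2) / 2)) : ℝ) : ℂ) := by
  simp_rw [osc_sum]
  unfold gam
  rw [integral_fintype_prod_eq_prod (𝕜 := ℂ) (E := fun _ => ℝ)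
    (fun p x => osc (s p * x)) (μ := fun _ => gaussianReal 0 v)]
  simp_rw [gauss_char_one]
  rw [← Complex.ofReal_prod, ← Real.exp_sum]
  congr 2
  rw [Finset.sum_neg_distrib, ← Finset.sum_div, ← Finset.mul_sum]

variable {X : Type*} [MeasurableSpace X]

lemma osc_joint_meas (s : X → ι → ℝ) (hs : ∀ p, Measurable fun x => s x p) :
    Measurable fun z : (ι → ℝ) × X => osc (∑ p, s z.2 p * z.1 p) := by
  apply osc_cont.measurable.comp
  apply Finset.measurable_sum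
  intro p _
  exact ((hs p).comp measurable_snd).mul ((measurable_pi_apply p).comp measurable_fst)

lemma osc_joint_int (v : ℝ≥0) (ρ : Measure X) [IsProbabilityMeasure ρ] (s : X → ι → ℝ)
    (hs : ∀ p, Measurable fun x => s x p) :
    Integrable (fun z : (ι → ℝ) × X => osc (∑ p, s z.2 p * z.1 p)) ((gam ι v).prod ρ) := by
  refine Integrable.of_bound (osc_joint_meas s hs).aestronglyMeasurable 1 ?_
  exact Filter.Eventually.of_forall fun z => (osc_norm _).le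

/-- Fubini for the oscillating exponential. -/
lemma osc_fub (v : ℝ≥0) (ρ : Measure X) [IsProbabilityMeasure ρ] (s : X → ι → ℝ)
    (hs : ∀ p, Measurable fun x => s x p) :
    ∫ θ, (∫ x, osc (∑ p, s x p * θ p) ∂ρ) ∂(gam ι v) =
      ∫ x, ((Real.exp (-((v : ℝ) * (∑ p, s x p ^ 2) / 2)) : ℝ) : ℂ) ∂ρ := by
  rw [integral_integral_swap (f := fun (θ : ι → ℝ) (x : X) => osc (∑ p, s x p * θ p))
    (osc_joint_int v ρ s hs)]
  exact integral_congr_ae (Filter.Eventually.of_forall fun x => gauss_char v (s x))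

/-- Under a probability measure the mean is at most the root mean square. -/
lemma int_le_sqrt {Y : Type*} [MeasurableSpace Y] (μ : Measure Y) [IsProbabilityMeasure μ]
    (f : Y → ℝ) (h1 : Integrable f μ) (h2 : Integrable (fun y => f y ^ 2) μ) :
    ∫ y, f y ∂μ ≤ Real.sqrt (∫ y, f y ^ 2 ∂μ) := by
  set c := ∫ y, f y ∂μ with hc
  have hnn : 0 ≤ ∫ y, (f y - c) ^ 2 ∂μ := integral_nonneg fun y => sq_nonneg _
  have e : ∫ y, (f y - c) ^ 2 ∂μ = ∫ y, f y ^ 2 ∂μ - c ^ 2 := by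
    have e1 : (fun y => (f y - c) ^ 2) = fun y => f y ^ 2 - (2 * c) * f y + c ^ 2 := by
      ext y
      ring
    have e2 : ∫ y, (f y ^ 2 - (2 * c) * f y + c ^ 2) ∂μ =
        ∫ y, (f y ^ 2 - (2 * c) * f y) ∂μ + ∫ _y, c ^ 2 ∂μ :=
      integral_add (h2.sub (h1.const_mul _)) (integrable_const _)
    have e3 : ∫ y, (f y ^ 2 - (2 * c) * f y) ∂μ = ∫ y, f y ^ 2 ∂μ - ∫ y, (2 * c) * f y ∂μ :=
      integral_sub h2 (h1.const_mul _)
    rw [e1, e2, e3, integral_const_mul, ← hc]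
    simp
    ring
  exact Real.le_sqrt_of_sq_le (by linarith)

end Gauss

section Main

variable {n t : ℕ} (P : Measure (Fin n → ℝ)) [IsProbabilityMeasure P]

/-- The characteristic function of the frame projection. -/
noncomputable def Phi (w : Fin t → ℝ) (θ : Fin t × Fin n → ℝ) : ℂ :=
  ∫ x, osc (∑ p, sx w x p * θ p) ∂P

/-- Its mean over Gaussian frames. -/
noncomputable def mm (v : ℝ≥0) (w : Fin t → ℝ) : ℝ :=
  ∫ x, Real.exp (-((v : ℝ) * ((∑ i, w i ^ 2) * ∑ j, x j ^ 2) / 2)) ∂P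

lemma sumsq_meas' : Measurable fun x : Fin n → ℝ => ∑ j, x j ^ 2 :=
  Finset.measurable_sum _ fun j _ => (measurable_pi_apply j).pow_const 2

lemma gexp_meas (v : ℝ≥0) (W : ℝ) :
    Measurable fun x : Fin n → ℝ => Real.exp (-((v : ℝ) * (W * ∑ j, x j ^ 2) / 2)) :=
  Real.measurable_exp.comp (((sumsq_meas'.const_mul W).const_mul _).div_const _).neg

lemma mm_int (v : ℝ≥0) (W : ℝ) (hW : 0 ≤ W) :
    Integrable (fun x : Fin n → ℝ => Real.exp (-((v : ℝ) * (W * ∑ j, x j ^ 2) / 2))) P := by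
  refine Integrable.of_bound (gexp_meas v W).aestronglyMeasurable 1 ?_
  refine Filter.Eventually.of_forall fun x => ?_
  rw [Real.norm_eq_abs, Real.abs_exp, Real.exp_le_one_iff]
  have : 0 ≤ (v : ℝ) * (W * ∑ j, x j ^ 2) / 2 := by
    have h1 : 0 ≤ ∑ j, x j ^ 2 := Finset.sum_nonneg fun j _ => sq_nonneg _
    positivity
  linarith

lemma Phi_meas (w : Fin t → ℝ) : Measurable (Phi P w) := by
  have h : StronglyMeasurable (fun z : (Fin t × Fin n → ℝ) × (Fin n → ℝ) =>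
      osc (∑ p, sx w z.2 p * z.1 p)) :=
    (osc_joint_meas (fun x => sx w x) (fun p => sx_meas w p)).stronglyMeasurable
  exact h.integral_prod_right.measurable

lemma Phi_norm_le (w : Fin t → ℝ) (θ : Fin t × Fin n → ℝ) : ‖Phi P w θ‖ ≤ 1 := by
  unfold Phi
  refine (norm_integral_le_integral_norm _).trans ?_
  simp [osc_norm]

lemma Phi_int (v : ℝ≥0) (w : Fin t → ℝ) : Integrable (Phi P w) (gam (Fin t × Fin n) v) :=
  Integrable.of_bound (Phi_meas P w).aestronglyMeasurable 1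
    (Filter.Eventually.of_forall fun θ => Phi_norm_le P w θ)

lemma Phi_mean (v : ℝ≥0) (w : Fin t → ℝ) :
    ∫ θ, Phi P w θ ∂(gam (Fin t × Fin n) v) = ((mm P v w : ℝ) : ℂ) := by
  unfold Phi mm
  rw [osc_fub v P (fun x => sx w x) (fun p => sx_meas w p)]
  simp_rw [sx_sq]
  rw [integral_complex_ofReal]

/-- The pair version of `sx`. -/
lemma sx_sub_sq (w : Fin t → ℝ) (x y : Fin n → ℝ) :
    ∑ p, (sx w x p - sx w y p) ^ 2 = (∑ i, w i ^ 2) * ∑ j, (x j - y j) ^ 2 := by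
  have : ∀ p, sx w x p - sx w y p = sx w (x - y) p := by
    intro p
    simp only [sx, Pi.sub_apply]
    ring
  simp_rw [this]
  rw [sx_sq]
  simp only [Pi.sub_apply]

lemma Phi_normSq (w : Fin t → ℝ) (θ : Fin t × Fin n → ℝ) :
    ((‖Phi P w θ‖ ^ 2 : ℝ) : ℂ) = ∫ z, osc (∑ p, (sx w z.1 p - sx w z.2 p) * θ p) ∂(P.prod P) := by
  have h1 : ((‖Phi P w θ‖ ^ 2 : ℝ) : ℂ) = Phi P w θ * conj (Phi P w θ) := by
    rw [Complex.mul_conj, Complex.normSq_eq_norm_sq]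
  have h2 : conj (Phi P w θ) = ∫ x, conj (osc (∑ p, sx w x p * θ p)) ∂P := by
    unfold Phi
    exact (integral_conj).symm
  rw [h1, h2]
  unfold Phi
  rw [← integral_prod_mul]
  refine integral_congr_ae (Filter.Eventually.of_forall fun z => ?_)
  simp only
  rw [← osc_sub]
  congr 1
  rw [← Finset.sum_sub_distrib]
  refine Finset.sum_congr rfl fun p _ => ?_
  ring

lemma Phi_sq_mean (v : ℝ≥0) (w : Fin t → ℝ) :
    ∫ θ, ‖Phi P w θ‖ ^ 2 ∂(gam (Fin t × Fin n) v) =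
      ∫ z : (Fin n → ℝ) × (Fin n → ℝ),
        Real.exp (-((v : ℝ) * ((∑ i, w i ^ 2) * ∑ j, (z.1 j - z.2 j) ^ 2) / 2)) ∂(P.prod P) := by
  have hs : ∀ p, Measurable fun z : (Fin n → ℝ) × (Fin n → ℝ) => sx w z.1 p - sx w z.2 p :=
    fun p => ((sx_meas w p).comp measurable_fst).sub ((sx_meas w p).comp measurable_snd)
  have h := osc_fub v (P.prod P) (fun z => fun p => sx w z.1 p - sx w z.2 p) hs
  simp_rw [sx_sub_sq] at h
  have h3 : ∫ θ, ((‖Phi P w θ‖ ^ 2 : ℝ) : ℂ) ∂(gam (Fin t × Fin n) v) =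
      ((∫ z : (Fin n → ℝ) × (Fin n → ℝ),
        Real.exp (-((v : ℝ) * ((∑ i, w i ^ 2) * ∑ j, (z.1 j - z.2 j) ^ 2) / 2)) ∂(P.prod P) : ℝ) : ℂ) := by
    simp_rw [Phi_normSq]
    rw [h, integral_complex_ofReal]
  rw [integral_complex_ofReal] at h3
  exact_mod_cast h3

lemma exp_diff_le {a b : ℝ} (ha : a ≤ 0) (hb : b ≤ 0) : Real.exp a - Real.exp b ≤ |a - b| := by
  rcases le_total a b with h | h
  · have : Real.exp a ≤ Real.exp b := Real.exp_le_exp.2 h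
    have h2 := abs_nonneg (a - b)
    linarith
  · have h1 : 1 - Real.exp (b - a) ≤ a - b := by
      have := Real.add_one_le_exp (b - a)
      linarith
    have e : Real.exp a - Real.exp b = Real.exp a * (1 - Real.exp (b - a)) := by
      rw [mul_sub, mul_one, ← Real.exp_add]
      congr 2
      ring
    have h3 : Real.exp a ≤ 1 := Real.exp_le_one_iff.2 ha
    have h4 : 0 ≤ 1 - Real.exp (b - a) := by
      have : Real.exp (b - a) ≤ 1 := Real.exp_le_one_iff.2 (by linarith)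
      linarith
    rw [e, abs_of_nonneg (by linarith)]
    calc Real.exp a * (1 - Real.exp (b - a)) ≤ 1 * (1 - Real.exp (b - a)) :=
          mul_le_mul_of_nonneg_right h3 h4
      _ ≤ a - b := by linarith

lemma Phi_sub_normSq (w : Fin t → ℝ) (θ : Fin t × Fin n → ℝ) (m : ℝ) :
    ‖Phi P w θ - (m : ℂ)‖ ^ 2 = ‖Phi P w θ‖ ^ 2 - 2 * m * (Phi P w θ).re + m ^ 2 := by
  rw [Complex.sq_norm, Complex.sq_norm, Complex.normSq_apply, Complex.normSq_apply]
  simp only [Complex.sub_re, Complex.ofReal_re, Complex.sub_im, Complex.ofReal_im, sub_zero]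
  ring

/-- The variance of the characteristic function over Gaussian frames. -/
lemma var_char (v : ℝ≥0) (w : Fin t → ℝ)
    (hI : Integrable (fun z : (Fin n → ℝ) × (Fin n → ℝ) => |z.1 ⬝ᵥ z.2|) (P.prod P)) :
    ∫ θ, ‖Phi P w θ - (mm P v w : ℂ)‖ ^ 2 ∂(gam (Fin t × Fin n) v) ≤
      (v : ℝ) * (∑ i, w i ^ 2) * ∫ z : (Fin n → ℝ) × (Fin n → ℝ), |z.1 ⬝ᵥ z.2| ∂(P.prod P) := by
  set γ := gam (Fin t × Fin n) v with hγ
  set W : ℝ := ∑ i, w i ^ 2 with hW
  have hW0 : 0 ≤ W := Finset.sum_nonneg fun i _ => sq_nonneg _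
  have hv0 : (0 : ℝ) ≤ (v : ℝ) := v.2
  set m : ℝ := mm P v w with hm
  -- integrability
  have hPhi := Phi_int P v w
  have hn2 : Integrable (fun θ => ‖Phi P w θ‖ ^ 2) γ := by
    refine Integrable.of_bound ((Phi_meas P w).norm.pow_const 2).aestronglyMeasurable 1 ?_
    refine Filter.Eventually.of_forall fun θ => ?_
    rw [Real.norm_eq_abs, abs_of_nonneg (by positivity)]
    have := Phi_norm_le P w θ
    have h0 := norm_nonneg (Phi P w θ)
    nlinarith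
  have hre : Integrable (fun θ => (Phi P w θ).re) γ := hPhi.re
  have hremean : ∫ θ, (Phi P w θ).re ∂γ = m := by
    have h := Complex.reCLM.integral_comp_comm hPhi
    simp only [Complex.reCLM_apply] at h
    rw [h, Phi_mean, Complex.ofReal_re]
  have e1 : ∫ θ, ‖Phi P w θ - (m : ℂ)‖ ^ 2 ∂γ = ∫ θ, ‖Phi P w θ‖ ^ 2 ∂γ - m ^ 2 := by
    simp_rw [Phi_sub_normSq]
    have e2 : ∫ θ, (‖Phi P w θ‖ ^ 2 - 2 * m * (Phi P w θ).re + m ^ 2) ∂γ =
        ∫ θ, (‖Phi P w θ‖ ^ 2 - 2 * m * (Phi P w θ).re) ∂γ + ∫ _θ, m ^ 2 ∂γ :=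
      integral_add (hn2.sub (hre.const_mul _)) (integrable_const _)
    have e3 : ∫ θ, (‖Phi P w θ‖ ^ 2 - 2 * m * (Phi P w θ).re) ∂γ =
        ∫ θ, ‖Phi P w θ‖ ^ 2 ∂γ - ∫ θ, 2 * m * (Phi P w θ).re ∂γ :=
      integral_sub hn2 (hre.const_mul _)
    rw [e2, e3, integral_const_mul, hremean]
    simp
    ring
  rw [e1, hγ, Phi_sq_mean]
  -- the square of the mean
  have e4 : m ^ 2 = ∫ z : (Fin n → ℝ) × (Fin n → ℝ),
      Real.exp (-((v : ℝ) * (W * ∑ j, z.1 j ^ 2) / 2)) *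
        Real.exp (-((v : ℝ) * (W * ∑ j, z.2 j ^ 2) / 2)) ∂(P.prod P) := by
    rw [integral_prod_mul (fun x : Fin n → ℝ => Real.exp (-((v : ℝ) * (W * ∑ j, x j ^ 2) / 2)))
      (fun x : Fin n → ℝ => Real.exp (-((v : ℝ) * (W * ∑ j, x j ^ 2) / 2)))]
    rw [sq]
    rfl
  rw [e4]
  have hcont1 : Continuous fun z : (Fin n → ℝ) × (Fin n → ℝ) =>
      Real.exp (-((v : ℝ) * (W * ∑ j, (z.1 j - z.2 j) ^ 2) / 2)) := by fun_prop
  have hcont2 : Continuous fun z : (Fin n → ℝ) × (Fin n → ℝ) =>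
      Real.exp (-((v : ℝ) * (W * ∑ j, z.1 j ^ 2) / 2)) *
        Real.exp (-((v : ℝ) * (W * ∑ j, z.2 j ^ 2) / 2)) := by fun_prop
  have hb : ∀ q : ℝ, 0 ≤ q → ‖Real.exp (-((v : ℝ) * (W * q) / 2))‖ ≤ 1 := by
    intro q hq
    rw [Real.norm_eq_abs, Real.abs_exp, Real.exp_le_one_iff]
    have : 0 ≤ (v : ℝ) * (W * q) / 2 := by positivity
    linarith
  have hi1 : Integrable (fun z : (Fin n → ℝ) × (Fin n → ℝ) =>
      Real.exp (-((v : ℝ) * (W * ∑ j, (z.1 j - z.2 j) ^ 2) / 2))) (P.prod P) := by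
    refine Integrable.of_bound hcont1.measurable.aestronglyMeasurable 1 ?_
    exact Filter.Eventually.of_forall fun z =>
      hb (∑ j, (z.1 j - z.2 j) ^ 2) (Finset.sum_nonneg fun j _ => sq_nonneg _)
  have hi2 : Integrable (fun z : (Fin n → ℝ) × (Fin n → ℝ) =>
      Real.exp (-((v : ℝ) * (W * ∑ j, z.1 j ^ 2) / 2)) *
        Real.exp (-((v : ℝ) * (W * ∑ j, z.2 j ^ 2) / 2))) (P.prod P) := by
    refine Integrable.of_bound hcont2.measurable.aestronglyMeasurable 1 ?_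
    refine Filter.Eventually.of_forall fun z => ?_
    rw [norm_mul]
    have h1 := hb (∑ j, z.1 j ^ 2) (Finset.sum_nonneg fun j _ => sq_nonneg _)
    have h2 := hb (∑ j, z.2 j ^ 2) (Finset.sum_nonneg fun j _ => sq_nonneg _)
    have h3 := norm_nonneg (Real.exp (-((v : ℝ) * (W * ∑ j, z.1 j ^ 2) / 2)))
    have h4 := norm_nonneg (Real.exp (-((v : ℝ) * (W * ∑ j, z.2 j ^ 2) / 2)))
    nlinarith
  rw [← integral_sub hi1 hi2, ← integral_const_mul]
  refine integral_mono (hi1.sub hi2) (hI.const_mul _) ?_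
  intro z
  simp only
  rw [← Real.exp_add]
  set x := z.1 with hx
  set y := z.2 with hy
  have e5 : ∑ j, (x j - y j) ^ 2 = ∑ j, x j ^ 2 + ∑ j, y j ^ 2 - 2 * (x ⬝ᵥ y) := by
    simp only [dotProduct, Finset.mul_sum, ← Finset.sum_add_distrib, ← Finset.sum_sub_distrib]
    refine Finset.sum_congr rfl fun j _ => ?_
    ring
  have hx0 : 0 ≤ ∑ j, x j ^ 2 := Finset.sum_nonneg fun j _ => sq_nonneg _
  have hy0 : 0 ≤ ∑ j, y j ^ 2 := Finset.sum_nonneg fun j _ => sq_nonneg _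
  have hxy0 : 0 ≤ ∑ j, (x j - y j) ^ 2 := Finset.sum_nonneg fun j _ => sq_nonneg _
  have hvW : 0 ≤ (v : ℝ) * W := by positivity
  have h6 := exp_diff_le (a := -((v : ℝ) * (W * ∑ j, (x j - y j) ^ 2) / 2))
    (b := -((v : ℝ) * (W * ∑ j, x j ^ 2) / 2) + -((v : ℝ) * (W * ∑ j, y j ^ 2) / 2))
    (by have : 0 ≤ (v : ℝ) * (W * ∑ j, (x j - y j) ^ 2) / 2 := by positivity
        linarith)
    (by have h7 : 0 ≤ (v : ℝ) * (W * ∑ j, x j ^ 2) / 2 := by positivity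
        have h8 : 0 ≤ (v : ℝ) * (W * ∑ j, y j ^ 2) / 2 := by positivity
        linarith)
  refine h6.trans (le_of_eq ?_)
  have e6 : -((v : ℝ) * (W * ∑ j, (x j - y j) ^ 2) / 2) -
      (-((v : ℝ) * (W * ∑ j, x j ^ 2) / 2) + -((v : ℝ) * (W * ∑ j, y j ^ 2) / 2)) =
      ((v : ℝ) * W) * (x ⬝ᵥ y) := by
    rw [e5]
    ring
  rw [e6, abs_mul, abs_of_nonneg hvW]

end Main

section Bump

variable {n t : ℕ} (P : Measure (Fin n → ℝ)) [IsProbabilityMeasure P]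

/-- The scaled Gaussian direction. -/
noncomputable def gs (σ : ℝ) (g : Fin t → ℝ) : Fin t → ℝ := fun i => g i / σ

/-- The frame projection in flat coordinates. -/
noncomputable def frm (θ : Fin t × Fin n → ℝ) (x : Fin n → ℝ) : Fin t → ℝ :=
  fun i => ∑ j, θ (i, j) * x j

lemma sum_sx_eq (w : Fin t → ℝ) (θ : Fin t × Fin n → ℝ) (x : Fin n → ℝ) :
    ∑ p, sx w x p * θ p = ∑ i, w i * frm θ x i := by
  rw [Fintype.sum_prod_type]
  refine Finset.sum_congr rfl fun i _ => ?_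
  simp only [frm, sx, Finset.mul_sum]
  refine Finset.sum_congr rfl fun j _ => ?_
  ring

/-- The Gaussian bump as a mean of oscillating exponentials. -/
lemma bump_eq (σ : ℝ) (hσ : σ ≠ 0) (z : Fin t → ℝ) :
    ((Real.exp (-((∑ i, z i ^ 2) / (2 * σ ^ 2))) : ℝ) : ℂ) =
      ∫ g, osc (∑ i, (z i / σ) * g i) ∂(gam (Fin t) 1) := by
  rw [gauss_char]
  congr 2
  simp only [NNReal.coe_one, one_mul, div_pow]
  rw [← Finset.sum_div]
  field_simp

/-- The bump test at a center `y`. -/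
noncomputable def Fy (σ : ℝ) (y : Fin t → ℝ) (θ : Fin t × Fin n → ℝ) : ℝ :=
  ∫ x, Real.exp (-((∑ i, (frm θ x i - y i) ^ 2) / (2 * σ ^ 2))) ∂P

/-- The phase of the center. -/
noncomputable def ee (σ : ℝ) (y : Fin t → ℝ) (g : Fin t → ℝ) : ℂ :=
  osc (-(∑ i, (y i / σ) * g i))

lemma ee_norm (σ : ℝ) (y g : Fin t → ℝ) : ‖ee σ y g‖ = 1 := osc_norm _

lemma ee_cont (σ : ℝ) (y : Fin t → ℝ) : Continuous (ee σ y) := by
  unfold ee
  exact osc_cont.comp (by fun_prop)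

/-- The limit of the bump test. -/
noncomputable def My (v : ℝ≥0) (σ : ℝ) (y : Fin t → ℝ) : ℂ :=
  ∫ g, ee σ y g * (mm P v (gs σ g) : ℂ) ∂(gam (Fin t) 1)

lemma Phi_joint (σ : ℝ) : Measurable fun z : (Fin t → ℝ) × (Fin t × Fin n → ℝ) =>
    Phi P (gs σ z.1) z.2 := by
  have hc : Continuous fun z : ((Fin t → ℝ) × (Fin t × Fin n → ℝ)) × (Fin n → ℝ) =>
      osc (∑ p, sx (gs σ z.1.1) z.2 p * z.1.2 p) := by
    refine osc_cont.comp ?_
    unfold sx gs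
    fun_prop
  exact (hc.stronglyMeasurable.integral_prod_right).measurable

lemma mm_meas (v : ℝ≥0) (σ : ℝ) : Measurable fun g : Fin t → ℝ => mm P v (gs σ g) := by
  have hc : Continuous fun z : (Fin t → ℝ) × (Fin n → ℝ) =>
      Real.exp (-((v : ℝ) * ((∑ i, (gs σ z.1) i ^ 2) * ∑ j, z.2 j ^ 2) / 2)) := by
    unfold gs
    fun_prop
  exact (hc.stronglyMeasurable.integral_prod_right).measurable

lemma mm_abs_le (v : ℝ≥0) (w : Fin t → ℝ) : |mm P v w| ≤ 1 := by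
  unfold mm
  have h : ‖∫ x, Real.exp (-((v : ℝ) * ((∑ i, w i ^ 2) * ∑ j, x j ^ 2) / 2)) ∂P‖ ≤ 1 := by
    refine (norm_integral_le_of_norm_le_const (C := 1) ?_).trans (by simp)
    refine Filter.Eventually.of_forall fun x => ?_
    rw [Real.norm_eq_abs, Real.abs_exp, Real.exp_le_one_iff]
    have h1 : 0 ≤ ∑ i, w i ^ 2 := Finset.sum_nonneg fun i _ => sq_nonneg _
    have h2 : 0 ≤ ∑ j, x j ^ 2 := Finset.sum_nonneg fun j _ => sq_nonneg _
    have h3 : (0 : ℝ) ≤ v := v.2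
    have : 0 ≤ (v : ℝ) * ((∑ i, w i ^ 2) * ∑ j, x j ^ 2) / 2 := by positivity
    linarith
  simpa [Real.norm_eq_abs] using h

/-- The bump test as a mean over the Gaussian directions. -/
lemma Fy_eq (σ : ℝ) (hσ : σ ≠ 0) (y : Fin t → ℝ) (θ : Fin t × Fin n → ℝ) :
    ((Fy P σ y θ : ℝ) : ℂ) = ∫ g, ee σ y g * Phi P (gs σ g) θ ∂(gam (Fin t) 1) := by
  unfold Fy
  rw [← integral_complex_ofReal]
  simp_rw [bump_eq σ hσ]
  have hc : Continuous fun z : (Fin n → ℝ) × (Fin t → ℝ) =>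
      osc (∑ i, ((frm θ z.1 i - y i) / σ) * z.2 i) := by
    refine osc_cont.comp ?_
    unfold frm
    fun_prop
  rw [integral_integral_swap (f := fun (x : Fin n → ℝ) (g : Fin t → ℝ) =>
    osc (∑ i, ((frm θ x i - y i) / σ) * g i))]
  · refine integral_congr_ae (Filter.Eventually.of_forall fun g => ?_)
    simp only
    unfold Phi ee
    rw [← integral_const_mul]
    refine integral_congr_ae (Filter.Eventually.of_forall fun x => ?_)
    simp only
    rw [← osc_add]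
    congr 1
    rw [sum_sx_eq, ← Finset.sum_neg_distrib, ← Finset.sum_add_distrib]
    refine Finset.sum_congr rfl fun i _ => ?_
    simp only [gs]
    field_simp
    ring
  · refine Integrable.of_bound hc.measurable.aestronglyMeasurable 1 ?_
    exact Filter.Eventually.of_forall fun z => (osc_norm _).le

/-- Distance of the bump test to its mean, for a fixed frame. -/
lemma Fy_sub_le (v : ℝ≥0) (σ : ℝ) (hσ : σ ≠ 0) (y : Fin t → ℝ) (θ : Fin t × Fin n → ℝ) :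
    ‖((Fy P σ y θ : ℝ) : ℂ) - My P v σ y‖ ≤
      ∫ g, ‖Phi P (gs σ g) θ - (mm P v (gs σ g) : ℂ)‖ ∂(gam (Fin t) 1) := by
  have hm1 : Measurable fun g : Fin t → ℝ => Phi P (gs σ g) θ := by
    have hc : Continuous fun z : (Fin t → ℝ) × (Fin n → ℝ) =>
        osc (∑ p, sx (gs σ z.1) z.2 p * θ p) := by
      refine osc_cont.comp ?_
      unfold sx gs
      fun_prop
    exact (hc.stronglyMeasurable.integral_prod_right).measurable
  have hm2 : Measurable fun g : Fin t → ℝ => ((mm P v (gs σ g) : ℝ) : ℂ) :=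
    Complex.measurable_ofReal.comp (mm_meas P v σ)
  have he := (ee_cont σ y).measurable
  have hi1 : Integrable (fun g => ee σ y g * Phi P (gs σ g) θ) (gam (Fin t) 1) := by
    refine Integrable.of_bound (he.mul hm1).aestronglyMeasurable 1 ?_
    refine Filter.Eventually.of_forall fun g => ?_
    rw [norm_mul, ee_norm, one_mul]
    exact Phi_norm_le P _ θ
  have hi2 : Integrable (fun g => ee σ y g * (mm P v (gs σ g) : ℂ)) (gam (Fin t) 1) := by
    refine Integrable.of_bound (he.mul hm2).aestronglyMeasurable 1 ?_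
    refine Filter.Eventually.of_forall fun g => ?_
    rw [norm_mul, ee_norm, one_mul, Complex.norm_real, Real.norm_eq_abs]
    exact mm_abs_le P v _
  rw [Fy_eq P σ hσ, My, ← integral_sub hi1 hi2]
  refine (norm_integral_le_integral_norm _).trans (le_of_eq ?_)
  refine integral_congr_ae (Filter.Eventually.of_forall fun g => ?_)
  simp only
  rw [← mul_sub, norm_mul, ee_norm, one_mul]

/-- The square of the mean is at most the mean of the square. -/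
lemma int_sq_le {Y : Type*} [MeasurableSpace Y] (μ : Measure Y) [IsProbabilityMeasure μ]
    (f : Y → ℝ) (h1 : Integrable f μ) (h2 : Integrable (fun y => f y ^ 2) μ) :
    (∫ y, f y ∂μ) ^ 2 ≤ ∫ y, f y ^ 2 ∂μ := by
  set c := ∫ y, f y ∂μ with hc
  have hnn : 0 ≤ ∫ y, (f y - c) ^ 2 ∂μ := integral_nonneg fun y => sq_nonneg _
  have e : ∫ y, (f y - c) ^ 2 ∂μ = ∫ y, f y ^ 2 ∂μ - c ^ 2 := by
    have e1 : (fun y => (f y - c) ^ 2) = fun y => f y ^ 2 - (2 * c) * f y + c ^ 2 := by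
      ext y
      ring
    have e2 : ∫ y, (f y ^ 2 - (2 * c) * f y + c ^ 2) ∂μ =
        ∫ y, (f y ^ 2 - (2 * c) * f y) ∂μ + ∫ _y, c ^ 2 ∂μ :=
      integral_add (h2.sub (h1.const_mul _)) (integrable_const _)
    have e3 : ∫ y, (f y ^ 2 - (2 * c) * f y) ∂μ = ∫ y, f y ^ 2 ∂μ - ∫ y, (2 * c) * f y ∂μ :=
      integral_sub h2 (h1.const_mul _)
    rw [e1, e2, e3, integral_const_mul, ← hc]
    simp
    ring
  linarith

lemma Fy_meas (σ : ℝ) (y : Fin t → ℝ) : Measurable (Fy P σ y) := by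
  have hc : Continuous fun z : (Fin t × Fin n → ℝ) × (Fin n → ℝ) =>
      Real.exp (-((∑ i, (frm z.1 z.2 i - y i) ^ 2) / (2 * σ ^ 2))) := by
    unfold frm
    fun_prop
  exact (hc.stronglyMeasurable.integral_prod_right).measurable

lemma Fy_abs_le (σ : ℝ) (y : Fin t → ℝ) (θ : Fin t × Fin n → ℝ) : ‖Fy P σ y θ‖ ≤ 1 := by
  unfold Fy
  refine (norm_integral_le_of_norm_le_const (C := 1) ?_).trans (by simp)
  refine Filter.Eventually.of_forall fun x => ?_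
  rw [Real.norm_eq_abs, Real.abs_exp, Real.exp_le_one_iff]
  have : 0 ≤ (∑ i, (frm θ x i - y i) ^ 2) / (2 * σ ^ 2) := by
    have h1 : 0 ≤ ∑ i, (frm θ x i - y i) ^ 2 := Finset.sum_nonneg fun i _ => sq_nonneg _
    positivity
  linarith

/-- The joint deviation. -/
noncomputable def Jd (v : ℝ≥0) (σ : ℝ) (z : (Fin t → ℝ) × (Fin t × Fin n → ℝ)) : ℝ :=
  ‖Phi P (gs σ z.1) z.2 - (mm P v (gs σ z.1) : ℂ)‖

lemma Jd_meas (v : ℝ≥0) (σ : ℝ) : Measurable (Jd P (t := t) v σ) := by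
  unfold Jd
  refine Measurable.norm (Measurable.sub (Phi_joint P σ) ?_)
  exact Complex.measurable_ofReal.comp ((mm_meas P v σ).comp measurable_fst)

lemma Jd_le (v : ℝ≥0) (σ : ℝ) (z : (Fin t → ℝ) × (Fin t × Fin n → ℝ)) : Jd P v σ z ≤ 2 := by
  unfold Jd
  refine (norm_sub_le _ _).trans ?_
  have h1 := Phi_norm_le P (gs σ z.1) z.2
  have h2 := mm_abs_le P v (gs σ z.1)
  rw [Complex.norm_real, Real.norm_eq_abs]
  linarith

lemma Jd_nn (v : ℝ≥0) (σ : ℝ) (z : (Fin t → ℝ) × (Fin t × Fin n → ℝ)) : 0 ≤ Jd P v σ z :=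
  norm_nonneg _

lemma gs_sq (σ : ℝ) (g : Fin t → ℝ) : ∑ i, (gs σ g) i ^ 2 = (∑ i, g i ^ 2) / σ ^ 2 := by
  simp only [gs, div_pow]
  rw [Finset.sum_div]

/-- Abstract form of the double mean. -/
lemma abstract_dev {G Θ : Type*} [MeasurableSpace G] [MeasurableSpace Θ] (γ : Measure G) (Γ : Measure Θ)
    [IsProbabilityMeasure γ] [IsProbabilityMeasure Γ] (J : G × Θ → ℝ) (hJ : Measurable J)
    (h0 : ∀ z, 0 ≤ J z) (h2 : ∀ z, J z ≤ 2) (q : G → ℝ) (hq : Integrable q γ)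
    (hsq : ∀ g, ∫ θ, J (g, θ) ^ 2 ∂Γ ≤ q g) :
    Integrable (fun θ => ∫ g, J (g, θ) ∂γ) Γ ∧
      ∫ θ, (∫ g, J (g, θ) ∂γ) ∂Γ ≤ Real.sqrt (∫ g, q g ∂γ) := by
  let H : G → ℝ := fun g => ∫ θ, J (g, θ) ∂Γ
  have hUn : StronglyMeasurable (Function.uncurry fun (g : G) (θ : Θ) => J (g, θ)) := by
    have : Function.uncurry (fun (g : G) (θ : Θ) => J (g, θ)) = J := by
      funext z
      rfl
    rw [this]
    exact hJ.stronglyMeasurable
  have hHm : Measurable H := (hUn.integral_prod_right).measurable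
  have hs1 : ∀ g : G, Measurable fun θ : Θ => J (g, θ) := fun g =>
    hJ.comp (measurable_const.prodMk measurable_id)
  have hslice : ∀ g : G, Integrable (fun θ => J (g, θ)) Γ := by
    intro g
    refine Integrable.of_bound (hs1 g).aestronglyMeasurable 2 ?_
    refine Filter.Eventually.of_forall fun θ => ?_
    rw [Real.norm_eq_abs, abs_of_nonneg (h0 _)]
    exact h2 _
  have hslice2 : ∀ g : G, Integrable (fun θ => J (g, θ) ^ 2) Γ := by
    intro g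
    refine Integrable.of_bound ((hs1 g).pow_const 2).aestronglyMeasurable 4 ?_
    refine Filter.Eventually.of_forall fun θ => ?_
    rw [Real.norm_eq_abs, abs_of_nonneg (by positivity)]
    have h3 := h2 (g, θ)
    have h4 := h0 (g, θ)
    nlinarith
  have hH0 : ∀ g, 0 ≤ H g := fun g => integral_nonneg fun θ => h0 _
  have hH2 : ∀ g, H g ≤ 2 := by
    intro g
    calc H g ≤ ∫ _θ, (2 : ℝ) ∂Γ := integral_mono (hslice g) (integrable_const _) fun θ => h2 _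
      _ = 2 := by simp
  have hHsq : ∀ g, H g ^ 2 ≤ q g := fun g =>
    (int_sq_le Γ _ (hslice g) (hslice2 g)).trans (hsq g)
  have hHi : Integrable H γ := by
    refine Integrable.of_bound hHm.aestronglyMeasurable 2 ?_
    refine Filter.Eventually.of_forall fun g => ?_
    rw [Real.norm_eq_abs, abs_of_nonneg (hH0 g)]
    exact hH2 g
  have hHi2 : Integrable (fun g => H g ^ 2) γ := by
    refine Integrable.of_bound (hHm.pow_const 2).aestronglyMeasurable 4 ?_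
    refine Filter.Eventually.of_forall fun g => ?_
    rw [Real.norm_eq_abs, abs_of_nonneg (by positivity)]
    have h3 := hH2 g
    have h4 := hH0 g
    nlinarith
  have hHmean : ∫ g, H g ∂γ ≤ Real.sqrt (∫ g, q g ∂γ) :=
    (int_le_sqrt γ H hHi hHi2).trans (Real.sqrt_le_sqrt (integral_mono hHi2 hq hHsq))
  have hjoint : Integrable (fun z : Θ × G => J (z.2, z.1)) (Γ.prod γ) := by
    have hm1 : Measurable fun z : Θ × G => J (z.2, z.1) := hJ.comp measurable_swap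
    refine Integrable.of_bound hm1.aestronglyMeasurable 2 ?_
    refine Filter.Eventually.of_forall fun z => ?_
    rw [Real.norm_eq_abs, abs_of_nonneg (h0 _)]
    exact h2 _
  refine ⟨hjoint.integral_prod_left, ?_⟩
  have hswap : ∫ θ, (∫ g, J (g, θ) ∂γ) ∂Γ = ∫ g, H g ∂γ :=
    integral_integral_swap (f := fun (θ : Θ) (g : G) => J (g, θ)) hjoint
  rw [hswap]
  exact hHmean

/-- The sum of squares has mean `t`. -/
lemma sum_sq_int : Integrable (fun g : Fin t → ℝ => ∑ i, g i ^ 2) (gam (Fin t) 1) :=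
  integrable_finsetSum _ fun i _ => coord_int 1 i

lemma sum_sq_mean : ∫ g : Fin t → ℝ, ∑ i, g i ^ 2 ∂(gam (Fin t) 1) = t := by
  rw [integral_finsetSum _ fun i _ => coord_int 1 i]
  have hc : ∀ i : Fin t, ∫ g : Fin t → ℝ, g i ^ 2 ∂(gam (Fin t) 1) = 1 := by
    intro i
    rw [coord_sq]
    simp
  rw [Finset.sum_congr rfl fun i _ => hc i]
  simp

/-- The mean deviation of the bump test over Gaussian frames. -/
lemma Fy_dev (v : ℝ≥0) (σ : ℝ) (hσ : σ ≠ 0) (y : Fin t → ℝ) (D : ℝ) (hD0 : 0 ≤ D)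
    (hI : Integrable (fun z : (Fin n → ℝ) × (Fin n → ℝ) => |z.1 ⬝ᵥ z.2|) (P.prod P))
    (hD : ∫ z : (Fin n → ℝ) × (Fin n → ℝ), |z.1 ⬝ᵥ z.2| ∂(P.prod P) ≤ D) :
    Integrable (fun θ => ‖((Fy P σ y θ : ℝ) : ℂ) - My P v σ y‖) (gam (Fin t × Fin n) v) ∧
    ∫ θ, ‖((Fy P σ y θ : ℝ) : ℂ) - My P v σ y‖ ∂(gam (Fin t × Fin n) v) ≤
      Real.sqrt ((v : ℝ) * D / σ ^ 2 * (t : ℝ)) := by
  have hv0 : (0 : ℝ) ≤ (v : ℝ) := v.2
  have hq : Integrable (fun g : Fin t → ℝ => (v : ℝ) * D / σ ^ 2 * ∑ i, g i ^ 2) (gam (Fin t) 1) :=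
    sum_sq_int.const_mul _
  have hsq : ∀ g : Fin t → ℝ, ∫ θ, Jd P v σ (g, θ) ^ 2 ∂(gam (Fin t × Fin n) v) ≤
      (v : ℝ) * D / σ ^ 2 * ∑ i, g i ^ 2 := by
    intro g
    have h2 := var_char P v (gs σ g) hI
    rw [gs_sq] at h2
    have hg0 : 0 ≤ ∑ i, g i ^ 2 := Finset.sum_nonneg fun i _ => sq_nonneg _
    have h3 : (v : ℝ) * ((∑ i, g i ^ 2) / σ ^ 2) *
        ∫ z : (Fin n → ℝ) × (Fin n → ℝ), |z.1 ⬝ᵥ z.2| ∂(P.prod P) ≤
        (v : ℝ) * ((∑ i, g i ^ 2) / σ ^ 2) * D :=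
      mul_le_mul_of_nonneg_left hD (by positivity)
    refine le_trans h2 (le_trans h3 (le_of_eq ?_))
    ring
  obtain ⟨hinner, hmean⟩ := abstract_dev (gam (Fin t) 1) (gam (Fin t × Fin n) v) (Jd P v σ)
    (Jd_meas P v σ) (Jd_nn P v σ) (Jd_le P v σ) _ hq hsq
  have hmeanq : ∫ g : Fin t → ℝ, (v : ℝ) * D / σ ^ 2 * ∑ i, g i ^ 2 ∂(gam (Fin t) 1) =
      (v : ℝ) * D / σ ^ 2 * (t : ℝ) := by
    rw [integral_const_mul, sum_sq_mean]
  rw [hmeanq] at hmean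
  have hFint : Integrable (fun θ => ‖((Fy P σ y θ : ℝ) : ℂ) - My P v σ y‖) (gam (Fin t × Fin n) v) := by
    have hm1 : Measurable fun θ : Fin t × Fin n → ℝ => ‖((Fy P σ y θ : ℝ) : ℂ) - My P v σ y‖ :=
      ((Complex.measurable_ofReal.comp (Fy_meas P σ y)).sub measurable_const).norm
    refine Integrable.of_bound hm1.aestronglyMeasurable (1 + ‖My P v σ y‖) ?_
    refine Filter.Eventually.of_forall fun θ => ?_
    rw [Real.norm_eq_abs, abs_of_nonneg (norm_nonneg _)]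
    refine (norm_sub_le _ _).trans ?_
    rw [Complex.norm_real]
    linarith [Fy_abs_le P σ y θ]
  refine ⟨hFint, le_trans (integral_mono hFint hinner fun θ => ?_) hmean⟩
  exact Fy_sub_le P v σ hσ y θ

/-- A damped Gaussian oscillation. -/
lemma gauss_damped (c : ℝ) (hc : 0 ≤ c) (b : ℝ) :
    ∫ x, osc (b * x) * ((Real.exp (-(c * x ^ 2 / 2)) : ℝ) : ℂ) ∂(gaussianReal 0 1) =
      ((Real.sqrt ((1 + c)⁻¹) * Real.exp (-((1 + c)⁻¹ * b ^ 2 / 2)) : ℝ) : ℂ) := by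
  have hc1 : 0 < 1 + c := by linarith
  set s : ℝ≥0 := ⟨(1 + c)⁻¹, (inv_pos.2 hc1).le⟩ with hsdef
  have hs : (s : ℝ) = (1 + c)⁻¹ := rfl
  have hspos : (0 : ℝ) < (s : ℝ) := by
    rw [hs]
    exact inv_pos.2 hc1
  have hs0 : s ≠ 0 := by
    intro h
    rw [h] at hspos
    simp at hspos
  have h1 := gauss_char_one s b
  rw [integral_gaussianReal_eq_integral_smul hs0] at h1
  rw [integral_gaussianReal_eq_integral_smul one_ne_zero]
  rw [Complex.ofReal_mul, ← hs, ← h1, ← integral_const_mul]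
  refine integral_congr_ae (Filter.Eventually.of_forall fun x => ?_)
  simp only [Complex.real_smul]
  have hsq : 0 < Real.sqrt (s : ℝ) := Real.sqrt_pos.2 hspos
  have h2pi : 0 < Real.sqrt (2 * Real.pi) := Real.sqrt_pos.2 (by positivity)
  have key : gaussianPDFReal 0 1 x * Real.exp (-(c * x ^ 2 / 2)) =
      Real.sqrt (s : ℝ) * gaussianPDFReal 0 s x := by
    unfold gaussianPDFReal
    have e1 : Real.sqrt (2 * Real.pi * (s : ℝ)) = Real.sqrt (2 * Real.pi) * Real.sqrt (s : ℝ) :=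
      Real.sqrt_mul (by positivity) _
    have e2 : 2 * Real.pi * ((1 : ℝ≥0) : ℝ) = 2 * Real.pi := by simp
    rw [e1, e2]
    have e3 : Real.exp (-(x - 0) ^ 2 / (2 * ((1 : ℝ≥0) : ℝ))) * Real.exp (-(c * x ^ 2 / 2)) =
        Real.exp (-(x - 0) ^ 2 / (2 * (s : ℝ))) := by
      rw [← Real.exp_add]
      congr 1
      rw [hs]
      simp only [NNReal.coe_one]
      field_simp
      ring
    calc (Real.sqrt (2 * Real.pi))⁻¹ * Real.exp (-(x - 0) ^ 2 / (2 * ((1 : ℝ≥0) : ℝ))) *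
          Real.exp (-(c * x ^ 2 / 2))
        = (Real.sqrt (2 * Real.pi))⁻¹ * Real.exp (-(x - 0) ^ 2 / (2 * (s : ℝ))) := by
          rw [mul_assoc, e3]
      _ = _ := by
          field_simp
  have key2 : ((gaussianPDFReal 0 1 x : ℝ) : ℂ) * ((Real.exp (-(c * x ^ 2 / 2)) : ℝ) : ℂ) =
      ((Real.sqrt (s : ℝ) : ℝ) : ℂ) * ((gaussianPDFReal 0 s x : ℝ) : ℂ) := by
    exact_mod_cast key
  calc ((gaussianPDFReal 0 1 x : ℝ) : ℂ) * (osc (b * x) * ((Real.exp (-(c * x ^ 2 / 2)) : ℝ) : ℂ))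
      = (((gaussianPDFReal 0 1 x : ℝ) : ℂ) * ((Real.exp (-(c * x ^ 2 / 2)) : ℝ) : ℂ)) * osc (b * x) := by
        ring
    _ = _ := by
        rw [key2]
        ring

/-- The product form of the inner integral. -/
lemma My_inner (c : ℝ) (hc : 0 ≤ c) (σ : ℝ) (y : Fin t → ℝ) :
    ∫ g, ee σ y g * ((Real.exp (-(c * (∑ i, g i ^ 2) / 2)) : ℝ) : ℂ) ∂(gam (Fin t) 1) =
      (((Real.sqrt ((1 + c)⁻¹)) ^ t * Real.exp (-((1 + c)⁻¹ * (∑ i, (y i / σ) ^ 2) / 2)) : ℝ) : ℂ) := by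
  have e : ∀ g : Fin t → ℝ, ee σ y g * ((Real.exp (-(c * (∑ i, g i ^ 2) / 2)) : ℝ) : ℂ) =
      ∏ i, (osc (-(y i / σ) * g i) * ((Real.exp (-(c * g i ^ 2 / 2)) : ℝ) : ℂ)) := by
    intro g
    rw [Finset.prod_mul_distrib]
    congr 1
    · unfold ee
      rw [← Finset.sum_neg_distrib, ← osc_sum (fun i => -(y i / σ)) g]
      congr 1
      refine Finset.sum_congr rfl fun i _ => ?_
      ring
    · rw [← Complex.ofReal_prod, ← Real.exp_sum]
      congr 2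
      rw [Finset.sum_neg_distrib, ← Finset.sum_div, ← Finset.mul_sum]
  simp_rw [e]
  unfold gam
  rw [integral_fintype_prod_eq_prod (𝕜 := ℂ) (E := fun _ => ℝ)
    (fun i x => osc (-(y i / σ) * x) * ((Real.exp (-(c * x ^ 2 / 2)) : ℝ) : ℂ))
    (μ := fun _ => gaussianReal 0 1)]
  simp_rw [gauss_damped c hc]
  rw [← Complex.ofReal_prod]
  congr 1
  rw [Finset.prod_mul_distrib, Finset.prod_const, Finset.card_univ, Fintype.card_fin, ← Real.exp_sum]
  congr 2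
  simp_rw [neg_sq]
  rw [Finset.sum_neg_distrib, ← Finset.sum_div, ← Finset.mul_sum]

/-- The mean of the bump test is `bumpMean`. -/
lemma My_eq (κ : ℝ) (σ : ℝ) (hσ : 0 < σ) (v : ℝ≥0) (hv : (v : ℝ) = κ ^ 2) (y : Fin t → ℝ) :
    My P v σ y = ((Ball.bumpMean P κ σ y : ℝ) : ℂ) := by
  have hσ2 : σ ^ 2 ≠ 0 := by positivity
  unfold My
  have e1 : ∀ g : Fin t → ℝ, ee σ y g * ((mm P v (gs σ g) : ℝ) : ℂ) =
      ∫ x, ee σ y g * ((Real.exp (-((v : ℝ) * ((∑ i, (gs σ g) i ^ 2) * ∑ j, x j ^ 2) / 2)) : ℝ) : ℂ) ∂P := by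
    intro g
    rw [integral_const_mul, integral_complex_ofReal]
    rfl
  simp_rw [e1]
  have hc : Continuous fun z : (Fin t → ℝ) × (Fin n → ℝ) =>
      ee σ y z.1 * ((Real.exp (-((v : ℝ) * ((∑ i, (gs σ z.1) i ^ 2) * ∑ j, z.2 j ^ 2) / 2)) : ℝ) : ℂ) := by
    have h1 := ee_cont σ y
    have h2 : Continuous fun z : (Fin t → ℝ) × (Fin n → ℝ) =>
        Real.exp (-((v : ℝ) * ((∑ i, (gs σ z.1) i ^ 2) * ∑ j, z.2 j ^ 2) / 2)) := by
      unfold gs
      fun_prop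
    exact (h1.comp continuous_fst).mul (Complex.continuous_ofReal.comp h2)
  rw [integral_integral_swap (f := fun (g : Fin t → ℝ) (x : Fin n → ℝ) =>
    ee σ y g * ((Real.exp (-((v : ℝ) * ((∑ i, (gs σ g) i ^ 2) * ∑ j, x j ^ 2) / 2)) : ℝ) : ℂ))]
  · unfold Ball.bumpMean
    rw [← integral_complex_ofReal]
    refine integral_congr_ae (Filter.Eventually.of_forall fun x => ?_)
    simp only
    set V : ℝ := κ ^ 2 * ∑ j, x j ^ 2 with hV
    have hV0 : 0 ≤ V := by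
      have : 0 ≤ ∑ j, x j ^ 2 := Finset.sum_nonneg fun j _ => sq_nonneg _
      positivity
    have hc0 : 0 ≤ V / σ ^ 2 := by positivity
    have e2 : ∀ g : Fin t → ℝ, ((v : ℝ) * ((∑ i, (gs σ g) i ^ 2) * ∑ j, x j ^ 2) / 2) =
        (V / σ ^ 2) * (∑ i, g i ^ 2) / 2 := by
      intro g
      rw [gs_sq, hv, hV]
      field_simp
    simp_rw [e2]
    rw [My_inner (V / σ ^ 2) hc0 σ y]
    congr 1
    have hpos : 0 < σ ^ 2 + V := by positivity
    have e3 : (1 + V / σ ^ 2)⁻¹ = σ ^ 2 / (σ ^ 2 + V) := by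
      field_simp
    have e4 : Real.sqrt ((1 + V / σ ^ 2)⁻¹) = σ / Real.sqrt (σ ^ 2 + V) := by
      rw [e3, Real.sqrt_div (by positivity), Real.sqrt_sq hσ.le]
    rw [e4]
    congr 2
    rw [e3]
    have e5 : ∑ i, (y i / σ) ^ 2 = (∑ i, y i ^ 2) / σ ^ 2 := by
      simp only [div_pow]
      rw [Finset.sum_div]
    rw [e5]
    field_simp
  · refine Integrable.of_bound hc.measurable.aestronglyMeasurable 1 ?_
    refine Filter.Eventually.of_forall fun z => ?_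
    show ‖ee σ y z.1 * ((Real.exp (-((v : ℝ) * ((∑ i, (gs σ z.1) i ^ 2) * ∑ j, z.2 j ^ 2) / 2)) : ℝ) : ℂ)‖ ≤ 1
    rw [norm_mul, ee_norm, one_mul, Complex.norm_real, Real.norm_eq_abs, Real.abs_exp,
      Real.exp_le_one_iff]
    have h1 : 0 ≤ ∑ i, (gs σ z.1) i ^ 2 := Finset.sum_nonneg fun i _ => sq_nonneg _
    have h2 : 0 ≤ ∑ j, z.2 j ^ 2 := Finset.sum_nonneg fun j _ => sq_nonneg _
    have h3 : (0 : ℝ) ≤ v := v.2
    have : 0 ≤ (v : ℝ) * ((∑ i, (gs σ z.1) i ^ 2) * ∑ j, z.2 j ^ 2) / 2 := by positivity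
    linarith

/-- The mean of `|⟨x, x'⟩|`. -/
lemma dot_bound (B' C : ℝ) (hB' : 0 ≤ B') (hC : 0 ≤ C) (hsupp : ∀ᵐ x ∂P, ∑ j, x j ^ 2 ≤ B')
    (hiso : ∀ a : Fin n → ℝ, ∫ x, (a ⬝ᵥ x) ^ 2 ∂P ≤ C * ∑ j, a j ^ 2) :
    Integrable (fun z : (Fin n → ℝ) × (Fin n → ℝ) => |z.1 ⬝ᵥ z.2|) (P.prod P) ∧
      ∫ z : (Fin n → ℝ) × (Fin n → ℝ), |z.1 ⬝ᵥ z.2| ∂(P.prod P) ≤ Real.sqrt (C * B') := by
  have h1 : ∀ᵐ z ∂(P.prod P), ∑ j, z.1 j ^ 2 ≤ B' :=
    (Measure.quasiMeasurePreserving_fst (μ := P) (ν := P)).ae hsupp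
  have h2 : ∀ᵐ z ∂(P.prod P), ∑ j, z.2 j ^ 2 ≤ B' :=
    (Measure.quasiMeasurePreserving_snd (μ := P) (ν := P)).ae hsupp
  have hbd : ∀ᵐ z ∂(P.prod P), |z.1 ⬝ᵥ z.2| ≤ B' := by
    filter_upwards [h1, h2] with z h3 h4
    have h5 := dot_sq_le z.1 z.2
    have h6 : 0 ≤ ∑ j, z.2 j ^ 2 := Finset.sum_nonneg fun j _ => sq_nonneg _
    have h7 : (z.1 ⬝ᵥ z.2) ^ 2 ≤ B' ^ 2 := by
      calc _ ≤ _ := h5
        _ ≤ B' * B' := mul_le_mul h3 h4 h6 hB'
        _ = _ := by ring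
    exact abs_le_of_sq_le_sq h7 hB'
  have hm1 : Measurable fun z : (Fin n → ℝ) × (Fin n → ℝ) => |z.1 ⬝ᵥ z.2| := dot_meas.abs
  have hm2 : Measurable fun z : (Fin n → ℝ) × (Fin n → ℝ) => |z.1 ⬝ᵥ z.2| ^ 2 := hm1.pow_const 2
  have hi1 : Integrable (fun z : (Fin n → ℝ) × (Fin n → ℝ) => |z.1 ⬝ᵥ z.2|) (P.prod P) := by
    refine Integrable.of_bound hm1.aestronglyMeasurable B' ?_
    filter_upwards [hbd] with z hz
    rw [Real.norm_eq_abs, abs_abs]
    exact hz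
  have hi2 : Integrable (fun z : (Fin n → ℝ) × (Fin n → ℝ) => |z.1 ⬝ᵥ z.2| ^ 2) (P.prod P) := by
    refine Integrable.of_bound hm2.aestronglyMeasurable (B' ^ 2) ?_
    filter_upwards [hbd] with z hz
    rw [Real.norm_eq_abs, abs_of_nonneg (sq_nonneg _)]
    exact pow_le_pow_left₀ (abs_nonneg _) hz 2
  refine ⟨hi1, (int_le_sqrt (P.prod P) _ hi1 hi2).trans (Real.sqrt_le_sqrt ?_)⟩
  have e : (fun z : (Fin n → ℝ) × (Fin n → ℝ) => |z.1 ⬝ᵥ z.2| ^ 2) =
      fun z => (z.1 ⬝ᵥ z.2) ^ 2 := by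
    funext z
    exact sq_abs _
  have hi3 : Integrable (fun z : (Fin n → ℝ) × (Fin n → ℝ) => (z.1 ⬝ᵥ z.2) ^ 2) (P.prod P) := by
    rw [← e]
    exact hi2
  rw [e, integral_prod _ hi3]
  have hae : (fun x : Fin n → ℝ => ∫ y, (x ⬝ᵥ y) ^ 2 ∂P) ≤ᵐ[P] fun _ => C * B' := by
    filter_upwards [hsupp] with x hx
    calc _ ≤ C * ∑ j, x j ^ 2 := hiso x
      _ ≤ _ := mul_le_mul_of_nonneg_left hx hC
  have h0 : 0 ≤ᵐ[P] fun x : Fin n → ℝ => ∫ y, (x ⬝ᵥ y) ^ 2 ∂P :=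
    Filter.Eventually.of_forall fun x => integral_nonneg fun y => sq_nonneg _
  calc _ ≤ ∫ _ : Fin n → ℝ, C * B' ∂P := integral_mono_of_nonneg h0 (integrable_const _) hae
    _ = _ := by simp

end Bump

end CharFrame

namespace Ball

open CharFrame Gframe

variable {n t : ℕ}

/-- MODULE B1: a frame for which all the bump tests are near their means. -/
theorem gaussian_bump (hn : 0 < n) (ht : 1 ≤ t) (P : Measure (Fin n → ℝ)) [IsProbabilityMeasure P]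
    (B C : ℝ) (hB : 0 ≤ B) (hC : 0 ≤ C) (hsupp : ∀ᵐ x ∂P, ∑ j, x j ^ 2 ≤ B * (n : ℝ))
    (hiso : ∀ a : Fin n → ℝ, ∫ x, (a ⬝ᵥ x) ^ 2 ∂P ≤ C * ∑ j, a j ^ 2)
    (κ σ : ℝ) (hκ : 0 < κ) (hσ : 0 < σ) (Y : Finset (Fin t → ℝ)) :
    ∃ θ : Fin t → Fin n → ℝ, ∀ y ∈ Y,
      bumpMean P κ σ y - (Y.card : ℝ) * ((κ / σ) * Real.sqrt t * Real.sqrt (Real.sqrt (C * B * n))) ≤
        ∫ x, bump σ y (fun i => θ i ⬝ᵥ x) ∂P := by
  classical
  set v : ℝ≥0 := ⟨κ ^ 2, sq_nonneg κ⟩ with hv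
  have hvc : (v : ℝ) = κ ^ 2 := rfl
  have hσ0 : σ ≠ 0 := hσ.ne'
  have hN0 : (0 : ℝ) ≤ (n : ℝ) := Nat.cast_nonneg n
  have hBn : 0 ≤ B * (n : ℝ) := by positivity
  obtain ⟨hI, hD⟩ := dot_bound P (B * (n : ℝ)) C hBn hC hsupp hiso
  set D : ℝ := Real.sqrt (C * B * n) with hDdef
  have hD' : ∫ z : (Fin n → ℝ) × (Fin n → ℝ), |z.1 ⬝ᵥ z.2| ∂(P.prod P) ≤ D := by
    rw [hDdef, mul_assoc C B]
    exact hD
  have hD0 : 0 ≤ D := Real.sqrt_nonneg _
  set dev : ℝ := (κ / σ) * Real.sqrt t * Real.sqrt D with hdev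
  have hdev0 : 0 ≤ dev := by positivity
  have hroot : Real.sqrt ((v : ℝ) * D / σ ^ 2 * (t : ℝ)) = dev := by
    have e : (v : ℝ) * D / σ ^ 2 * (t : ℝ) = (κ / σ) ^ 2 * ((t : ℝ) * D) := by
      rw [hvc, div_pow]
      field_simp
    rw [e, Real.sqrt_mul (by positivity), Real.sqrt_sq (by positivity),
      Real.sqrt_mul (by positivity), hdev]
    ring
  have hdevs : ∀ y : Fin t → ℝ,
      Integrable (fun θ => ‖((Fy P σ y θ : ℝ) : ℂ) - My P v σ y‖) (gam (Fin t × Fin n) v) ∧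
      ∫ θ, ‖((Fy P σ y θ : ℝ) : ℂ) - My P v σ y‖ ∂(gam (Fin t × Fin n) v) ≤ dev := by
    intro y
    have h := Fy_dev P v σ hσ0 y D hD0 hI hD'
    rw [hroot] at h
    exact h
  let Bad : (Fin t × Fin n → ℝ) → ℝ := fun θ => ∑ y ∈ Y, ‖((Fy P σ y θ : ℝ) : ℂ) - My P v σ y‖
  have hBadi : Integrable Bad (gam (Fin t × Fin n) v) :=
    integrable_finsetSum _ fun y _ => (hdevs y).1
  have hBadm : ∫ θ, Bad θ ∂(gam (Fin t × Fin n) v) ≤ (Y.card : ℝ) * dev := by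
    simp only [Bad]
    rw [integral_finsetSum _ fun y _ => (hdevs y).1]
    calc _ ≤ ∑ _y ∈ Y, dev := Finset.sum_le_sum fun y _ => (hdevs y).2
      _ = _ := by simp
  obtain ⟨θ, hθ⟩ := exists_le_integral hBadi
  refine ⟨fun i j => θ (i, j), fun y hy => ?_⟩
  have h1 : ‖((Fy P σ y θ : ℝ) : ℂ) - My P v σ y‖ ≤ Bad θ :=
    Finset.single_le_sum (f := fun y => ‖((Fy P σ y θ : ℝ) : ℂ) - My P v σ y‖)
      (fun y _ => norm_nonneg _) hy
  rw [My_eq P κ σ hσ v hvc y, ← Complex.ofReal_sub, Complex.norm_real, Real.norm_eq_abs] at h1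
  have h2 : |Fy P σ y θ - bumpMean P κ σ y| ≤ (Y.card : ℝ) * dev := h1.trans (hθ.trans hBadm)
  have h3 := (abs_le.1 h2).1
  have h4 : ∫ x, bump σ y (fun i => (fun i j => θ (i, j)) i ⬝ᵥ x) ∂P = Fy P σ y θ := by
    unfold Fy bump
    refine integral_congr_ae (Filter.Eventually.of_forall fun x => ?_)
    simp only
    congr 1
    rw [neg_div]
    rfl
  rw [h4]
  linarith

end Ball

end Vale.Agent.Lib.P230
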