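import Vale.Agent.Lib.P230.Ball.Defs
import Vale.Agent.Lib.P230.FineFinal

/-!
# P230 ball route: statements of the modules (stubs, to be replaced by separate files).
-/

set_option autoImplicit false

open MeasureTheory Finset
open scoped ENNReal Matrix

namespace Vale.Agent.Lib.P230.Ball

variable {n t d : ℕ}

/-- MODULE B1 (Gframe bump). `θ = κ G`, `G` iid `N(0,1)`. `Φ(θ,w) = E_P exp(i⟨w,θx⟩)`,
`m(w) = E_P exp(-κ²|w|²|x|²/2)`. `E_θ|Φ-m|² = E_(x,x')[exp(-κ²|w|²|x-x'|²/2) - exp(-κ²|w|²(|x|²+|x'|²)/2)]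
≤ κ²|w|² E|⟨x,x'⟩|` since `|e^a-e^b| ≤ |a-b|` for `a,b ≤ 0`. `E|⟨x,x'⟩|² ≤ C B n`. With
`bump σ y u = E_g exp(i⟨g,u-y⟩/σ)` (`g` standard Gaussian in `ℝ^t`, `charFun_gaussianReal`):
`∫ bump σ y (θx) dP - bumpMean = E_g e^(-i⟨g,y⟩/σ)(Φ(θ,g/σ)-m(g/σ))`, so its `E_θ|·| ≤ (κ/σ) √t √√(C B n)`.
Sum over `y ∈ Y`, take `θ` below the mean. -/
theorem gaussian_bump (hn : 0 < n) (ht : 1 ≤ t) (P : Measure (Fin n → ℝ)) [IsProbabilityMeasure P]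
    (B C : ℝ) (hB : 0 ≤ B) (hC : 0 ≤ C) (hsupp : ∀ᵐ x ∂P, ∑ j, x j ^ 2 ≤ B * (n : ℝ))
    (hiso : ∀ a : Fin n → ℝ, ∫ x, (a ⬝ᵥ x) ^ 2 ∂P ≤ C * ∑ j, a j ^ 2)
    (κ σ : ℝ) (hκ : 0 < κ) (hσ : 0 < σ) (Y : Finset (Fin t → ℝ)) :
    ∃ θ : Fin t → Fin n → ℝ, ∀ y ∈ Y,
      bumpMean P κ σ y - (Y.card : ℝ) * ((κ / σ) * Real.sqrt t * Real.sqrt (Real.sqrt (C * B * n))) ≤
        ∫ x, bump σ y (fun i => θ i ⬝ᵥ x) ∂P := by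
  sorry

/-- MODULE B2: localisation of a bump to a point. `∫ bump = (√(2π) σ)^t`. If `A < V₀` on `B(y,R)`:
`∫ bump A ≤ V₀ (√(2π)σ)^t + exp(-R²/(2σ²)) V ≤ (m/2) V`, contradiction. -/
theorem bump_point (A : (Fin t → ℝ) → ℝ) (h0 : ∀ z, 0 ≤ A z) (hm : Measurable A) (hint : Integrable A)
    (V : ℝ) (hV0 : 0 < V) (hV : ∫ z, A z = V) (y : Fin t → ℝ) (σ R m : ℝ) (hσ : 0 < σ) (hR0 : 0 ≤ R)
    (hm0 : 0 < m) (hb : m * V ≤ ∫ z, bump σ y z * A z)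
    (hR : Real.exp (-(R ^ 2) / (2 * σ ^ 2)) ≤ m / 4) :
    ∃ u : Fin t → ℝ, ∑ i, (u i - y i) ^ 2 ≤ R ^ 2 ∧
      (m / 4) * V / (Real.sqrt (2 * Real.pi) * σ) ^ t ≤ A u := by
  sorry

/-- MODULE B3: a log-concave function `≥ V₀` on a finite set `U` with support function `≥ ρ` in every
direction is `≥ V₀` on the ball of radius `ρ` (finite hull is compact, Hahn-Banach). -/
theorem ball_of_points (ht : 1 ≤ t) (A : (Fin t → ℝ) → ℝ) (hl : LogConc A) (h0 : ∀ z, 0 ≤ A z) (V₀ : ℝ)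
    (hV₀ : 0 < V₀) (U : Finset (Fin t → ℝ)) (hU : ∀ u ∈ U, V₀ ≤ A u) (ρ : ℝ) (hρ : 0 ≤ ρ)
    (hdir : ∀ b : Fin t → ℝ, ∑ i, b i ^ 2 = 1 → ∃ u ∈ U, ρ ≤ ∑ i, u i * b i) :
    ∀ v : Fin t → ℝ, ∑ i, v i ^ 2 ≤ ρ ^ 2 → V₀ ≤ A v := by
  sorry

/-- MODULE B4a: size of the grid. -/
theorem ballGrid_card (t : ℕ) : ((ballGrid t).card : ℝ) ≤ (400 * (t : ℝ) + 3) ^ t := by
  sorry

/-- MODULE B4b: rounding a direction to the grid. `k i = round (200 √t b i)`; `|y - √t b| ≤ √t/400`. -/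
theorem ballGrid_dir (ht : 1 ≤ t) (b : Fin t → ℝ) (hb : ∑ i, b i ^ 2 = 1) :
    ∃ y ∈ ballGrid t, (399 / 400) * Real.sqrt t ≤ ∑ i, y i * b i := by
  sorry

/-- MODULE B5: a band of the radius of positive proportion. `T = K₀ ∩ {|x|² ≥ n/122}` has
`vol T ≥ vol K₀/1220`; `(201/200)^1600 ≥ 1220`; pigeonhole over `ϱ_k = (1/122)(201/200)^k`, `k < 1600`. -/
theorem band_exists (hn : 0 < n) (K₀ : Set (Fin n → ℝ)) (hK : IsCompact K₀) (hvol : 0 < volume K₀)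
    (hrad : ∀ x ∈ K₀, ∑ j, x j ^ 2 ≤ 10 * (n : ℝ))
    (hmean : ((n : ℝ) / 61) * (volume K₀).toReal ≤ ∫ x in K₀, ∑ j, x j ^ 2) :
    ∃ ϱ : ℝ, 1 / 122 ≤ ϱ ∧
      (1 / 2000000 : ℝ) * (volume K₀).toReal ≤
        (volume (K₀ ∩ {x | ϱ * (n : ℝ) ≤ ∑ j, x j ^ 2 ∧ ∑ j, x j ^ 2 ≤ (201 / 200) * ϱ * (n : ℝ)})).toReal := by
  sorry

/-- MODULE B6: the sharp Gaussian ball window. Assembly of B1-B5 with `σ = 1/1000`, `κ² = 1/(n ϱ)`,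
`Y = ballGrid t`, `R = √t/200`, `P` = normalised volume on the band; see the doc in findings. -/
theorem window_ball (ht : 4 ≤ t) (K₀ : Set (Fin (d + t) → ℝ)) (hc : Convex ℝ K₀)
    (hK : IsCompact K₀) (hvol : 0 < volume K₀)
    (hrad : ∀ x ∈ K₀, ∑ j, x j ^ 2 ≤ 10 * ((d + t : ℕ) : ℝ))
    (hiso : ∀ a : Fin (d + t) → ℝ,
      ∫ x in K₀, (a ⬝ᵥ x) ^ 2 ≤ (10 / 9) * (∑ j, a j ^ 2) * (volume K₀).toReal)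
    (hmean : (((d + t : ℕ) : ℝ) / 61) * (volume K₀).toReal ≤ ∫ x in K₀, ∑ j, x j ^ 2)
    (hnum : 1600000 * (t : ℝ) * ((400 * (t : ℝ) + 3) * 1660) ^ t ≤
      Real.sqrt (Real.sqrt ((d + t : ℕ) : ℝ))) :
    ∃ (E : Matrix (Fin (d + t)) (Fin (d + t)) ℝ) (V₀ : ℝ), E.det ≠ 0 ∧ 0 < V₀ ∧
      (∀ z : Fin t → ℝ, ∑ i, z i ^ 2 ≤ (397 / 400) ^ 2 * (t : ℝ) →
        V₀ ≤ secVol (splitMap d t '' (E.mulVec '' K₀)) z) ∧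
      (volume (splitMap d t '' (E.mulVec '' K₀))).toReal ≤ 16000000 * (416 / 100) ^ t * V₀ := by
  sorry

/-- MODULE B7: the lattice for a ball window. Copy of `lattice_data` with `N = 2 n`: the family of bodies
is indexed by the good heights `∑ (u i / N)² ≤ (103/400) t`, others have `A u = ∅`; `layering_leaf` with
`σ u = ε` on good heights, `1` otherwise; `leaf_count` with `a i = u i / N`. Erosion with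
`e/δ ∈ [0,1/2]^t`. -/
theorem lattice_data2 : ∃ d₀ : ℕ, ∀ d ≥ d₀, ∀ t n : ℕ, n = d + t → 1000 ≤ n →
    ((4 * (n : ℝ)) ^ t ≤ 2 ^ (mstar d / 16)) →
    (((4 * (n : ℝ)) ^ t) ^ (2 ^ t - 1) * ((1 / 2 : ℝ) ^ (mstar d / 4)) ^ (leafN t) <
      (1 / 2) * (1 / (4 * (n : ℝ))) ^ d) →
    ∀ K' : Set ((Fin d → ℝ) × (Fin t → ℝ)), Convex ℝ K' → IsCompact K' → ∀ V₀ : ℝ, 0 < V₀ →
    (∀ x : Fin t → ℝ, ∑ i, x i ^ 2 ≤ (13 / 50) * (t : ℝ) →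
      ENNReal.ofReal V₀ ≤ volume {y : Fin d → ℝ | (y, x) ∈ K'}) →
    ∃ (B : Matrix (Fin d ⊕ Fin t) (Fin d ⊕ Fin t) ℤ) (R : ℕ), 0 < R ∧
      (∀ x : (Fin d → ℝ) × (Fin t → ℝ), ∃ k : Fin d ⊕ Fin t → ℤ,
        (x.1 - (fun i => ((B.mulVec k (Sum.inl i) : ℤ) : ℝ) / R),
          x.2 - (fun i => ((B.mulVec k (Sum.inr i) : ℤ) : ℝ))) ∈ K') ∧
      (R : ℝ) ^ d * ((1 - 2 / (n : ℝ)) ^ d * V₀) / 2 ^ (efin d + 2) ≤ |(B.det : ℝ)| := by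
  sorry

/-- MODULE B8: numerics. Take `t` least with `(169/100)^t ≥ 10^13 (log n)^2` or so; `(208/97)^50 ≤ (169/100)^73`. -/
theorem params_ball (d₀ : ℕ) : ∃ n₀ : ℕ, ∀ n ≥ n₀, ∃ d t : ℕ,
    d + t = n ∧ 4 ≤ t ∧ d₀ ≤ d ∧ 1000 ≤ n ∧
    ((4 * (n : ℝ)) ^ t ≤ 2 ^ (mstar d / 16)) ∧
    (((4 * (n : ℝ)) ^ t) ^ (2 ^ t - 1) * ((1 / 2 : ℝ) ^ (mstar d / 4)) ^ (leafN t) <
      (1 / 2) * (1 / (4 * (n : ℝ))) ^ d) ∧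
    (1600000 * (t : ℝ) * ((400 * (t : ℝ) + 3) * 1660) ^ t ≤ Real.sqrt (Real.sqrt n)) ∧
    ((10 / 9) * (16000000 * (208 / 97) ^ t) * ((1 - 2 / (n : ℝ))⁻¹) ^ d * 2 ^ (efin d + 2) ≤
      (n : ℝ) * (Real.log n) ^ 2) := by
  sorry

end Vale.Agent.Lib.P230.Ball
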